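import Vale.Agent.P159.T1.H568.Chq
import Vale.Agent.P159.T1.H532.Var
import Vale.Agent.P159.R2.H254.Expand

/-!
Fourier duality on an arbitrary finite graph in `ℤ²` (row StmtU): the spin integral with the
charges `q` and the imaginary field `B` is the sum over the currents with divergence `q`.
-/

set_option linter.all false
set_option autoImplicit false

open MeasureTheory Filter Topology
open scoped BigOperators

namespace Vale.Agent.P159.T1.H568

open Vale.Agent.P159 Vale.Agent.P159.T1.D Vale.Agent.P159.H353 Vale.Agent.P159.R2.H254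
  Vale.Agent.P159.T1.H532

theorem ee_zsmul (n : ℤ) (x : T) : ee (n • x) = (fourier n x : ℂ) := by
  have h1 : ∀ x : T, ee x = (fourier 1 x : ℂ) := by
    intro x
    unfold ee
    rw [cosT_eq, sinT_eq]
    have hI : Complex.I ≠ 0 := Complex.I_ne_zero
    field_simp
    ring
  rw [h1, fourier_apply, fourier_apply, one_zsmul]

/-- divergence of a current at a site -/
def dvg {E : Type} [Fintype E] (s t : E → Z2) (k : E → ℤ) (v : Z2) : ℤ :=
  ∑ e, ((if s e = v then k e else 0) - (if t e = v then k e else 0))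

section

variable {E : Type} [Fintype E] (s t : E → Z2)

/-- product over the sites of a vertex set containing the end points -/
theorem prod_fourier_grad (V : Finset Z2) (hs : ∀ e, s e ∈ V) (ht : ∀ e, t e ∈ V)
    (k : E → ℤ) (θ : Ginf) :
    ∏ e, (fourier (-k e) (θ (s e) - θ (t e)) : ℂ) =
      ∏ v ∈ V, (fourier (-dvg s t k v) (θ v) : ℂ) := by
  have h1 : ∀ e, (fourier (-k e) (θ (s e) - θ (t e)) : ℂ) = ∏ v ∈ V,
      ((fourier (-((if s e = v then k e else 0) - (if t e = v then k e else 0))) (θ v)) : ℂ) := by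
    intro e
    have e1 : ∏ v ∈ V, (fourier (if s e = v then -k e else 0) (θ v) : ℂ) =
        (fourier (-k e) (θ (s e)) : ℂ) := by
      rw [Finset.prod_eq_single (s e)]
      · rw [if_pos rfl]
      · intro v _ hv
        rw [if_neg (Ne.symm hv)]
        simp
      · intro h
        exact absurd (hs e) h
    have e2 : ∏ v ∈ V, (fourier (if t e = v then k e else 0) (θ v) : ℂ) =
        (fourier (k e) (θ (t e)) : ℂ) := by
      rw [Finset.prod_eq_single (t e)]
      · rw [if_pos rfl]
      · intro v _ hv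
        rw [if_neg (Ne.symm hv)]
        simp
      · intro h
        exact absurd (ht e) h
    rw [sub_eq_add_neg, fourier_add_arg, fourier_neg_arg, neg_neg, ← e1, ← e2,
      ← Finset.prod_mul_distrib]
    refine Finset.prod_congr rfl fun v _ => ?_
    rw [← fourier_add]
    congr 2
    split_ifs <;> ring
  simp only [h1]
  rw [Finset.prod_comm]
  refine Finset.prod_congr rfl fun v _ => ?_
  rw [fourier_sum_ix, Finset.sum_neg_distrib]
  rfl

/-- orthogonality of the characters -/
theorem integral_prod_fourier_inf (V : Finset Z2) (m : Z2 → ℤ) :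
    ∫ θ : Ginf, ∏ v ∈ V, (fourier (m v) (θ v) : ℂ) ∂muInf =
      if ∀ v ∈ V, m v = 0 then 1 else 0 := by
  have hc : Continuous fun θ : V → T => ∏ v : V, (fourier (m v) (θ v) : ℂ) :=
    continuous_finsetProd _ fun v _ => (fourier (m v)).continuous.comp (continuous_apply v)
  have h := integral_relabel (fun w : V => (w : Z2)) Subtype.val_injective muInf
    (torusHaar V) hc
  have h1 : ∀ θ : Ginf, ∏ v : V, (fourier (m v) (relabel (fun w : V => (w : Z2)) θ v) : ℂ) =
      ∏ v ∈ V, (fourier (m v) (θ v) : ℂ) := by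
    intro θ
    exact Finset.prod_coe_sort V (fun v => (fourier (m v) (θ v) : ℂ))
  simp only [h1] at h
  rw [h]
  unfold torusHaar
  rw [integral_fintype_prod_eq_prod (μ := fun _ : V => (AddCircle.haarAddCircle : Measure T))
    (fun v : V => fun x : T => (fourier (m v) x : ℂ))]
  simp only [integral_fourier]
  split_ifs with h
  · apply Finset.prod_eq_one
    intro v _
    rw [if_pos (h v v.2)]
  · push Not at h
    obtain ⟨v, hv, hm⟩ := h
    apply Finset.prod_eq_zero (Finset.mem_univ (⟨v, hv⟩ : V))
    rw [if_neg hm]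

theorem C_eq (u v : Z2) (y : ℝ) (θ : Ginf) :
    (grad u v).C (y * Complex.I) θ = cosC (θ u - θ v) (y * Complex.I) := rfl

open Classical in
/-- **duality** -/
theorem fou_hasSum {J : E → ℝ} (hJ : ∀ e, 0 ≤ J e) (B : E → ℝ) (V : Finset Z2) (q : Z2 → ℤ)
    (hs : ∀ e, s e ∈ V) (ht : ∀ e, t e ∈ V) (hq : ∀ v, v ∉ V → q v = 0) :
    HasSum (fun k : E → ℤ => if ∀ v, dvg s t k v = q v then
      ((Gw J k * Real.exp (Xe B k) : ℝ) : ℂ) else 0)
      (∫ θ, (chq V q).e θ * WW J (fun e => grad (s e) (t e)) B θ ∂muInf) := by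
  -- terms
  set F : (E → ℤ) → Ginf → ℂ := fun k θ => (chq V q).e θ * ∏ e, ((wI (J e) (-k e) : ℂ) *
      ((fourier (-k e) (θ (s e) - θ (t e)) : ℂ) *
        Complex.exp (((-k e : ℤ) : ℂ) * ((B e * Complex.I) * Complex.I)))) with hF
  have hps : ∀ θ : Ginf, (chq V q).e θ * WW J (fun e => grad (s e) (t e)) B θ =
      ∑' k : E → ℤ, F k θ := by
    intro θ
    have h := (prod_tsum_all ℤ E (fun e n => (wI (J e) n : ℂ) *
      ((fourier n (θ (s e) - θ (t e)) : ℂ) *
        Complex.exp (n * ((B e * Complex.I) * Complex.I)))) fun e =>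
      (summable_mj (hJ e) (B e * Complex.I)).congr fun n => (norm_term (hJ e) _ _ n).symm).2
    have h2 : ∏ e, ∑' n : ℤ, (wI (J e) n : ℂ) * ((fourier n (θ (s e) - θ (t e)) : ℂ) *
        Complex.exp (n * ((B e * Complex.I) * Complex.I))) =
        WW J (fun e => grad (s e) (t e)) B θ := by
      unfold WW
      rw [Complex.exp_sum]
      refine Finset.prod_congr rfl fun e _ => ?_
      rw [C_eq]
      exact (hasSum_cosC (hJ e) _ _).tsum_eq
    rw [← h2, ← h, ← tsum_mul_left, ← (Equiv.neg (E → ℤ)).tsum_eq]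
    rfl
  have hcont : ∀ k : E → ℤ, Continuous (F k) := by
    intro k
    rw [hF]
    refine (chq V q).cont_e.mul (continuous_finsetProd _ fun e _ => ?_)
    have hc : Continuous fun θ : Ginf => (fourier (-k e) (θ (s e) - θ (t e)) : ℂ) :=
      (fourier (-k e)).continuous.comp ((continuous_apply (s e)).sub (continuous_apply (t e)))
    exact continuous_const.mul (hc.mul continuous_const)
  have hnorm : ∀ (k : E → ℤ) (θ : Ginf), ‖F k θ‖ = ∏ e, mj (J e) (B e * Complex.I) (-k e) := by
    intro k θ
    rw [hF]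
    simp only
    rw [norm_mul, (chq V q).norm_e, one_mul, norm_prod]
    exact Finset.prod_congr rfl fun e _ => norm_term (hJ e) _ _ _
  have hint : ∀ k : E → ℤ, ∫ θ, F k θ ∂muInf = if ∀ v, dvg s t k v = q v then
      ((Gw J k * Real.exp (Xe B k) : ℝ) : ℂ) else 0 := by
    intro k
    have e1 : ∀ θ : Ginf, F k θ = ((Gw J k * Real.exp (Xe B k) : ℝ) : ℂ) *
        ∏ v ∈ V, (fourier (q v - dvg s t k v) (θ v) : ℂ) := by
      intro θ
      have e2 : ∏ v ∈ V, (fourier (q v - dvg s t k v) (θ v) : ℂ) =
          (chq V q).e θ * ∏ e, (fourier (-k e) (θ (s e) - θ (t e)) : ℂ) := by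
        rw [prod_fourier_grad s t V hs ht, chq_e, ← Finset.prod_mul_distrib]
        refine Finset.prod_congr rfl fun v _ => ?_
        rw [ee_zsmul, sub_eq_add_neg, fourier_add]
      have e3 : ((Gw J k * Real.exp (Xe B k) : ℝ) : ℂ) = ∏ e, ((wI (J e) (-k e) : ℂ) *
          Complex.exp (((-k e : ℤ) : ℂ) * ((B e * Complex.I) * Complex.I))) := by
        rw [Finset.prod_mul_distrib, ← Complex.exp_sum]
        unfold Gw Xe
        push_cast
        congr 1
        · exact Finset.prod_congr rfl fun e _ => by rw [wI_neg]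
        · congr 1
          refine Finset.sum_congr rfl fun e _ => ?_
          have hI := Complex.I_sq
          linear_combination ((B e : ℂ) * k e) * hI
      rw [e2, e3, hF]
      simp only
      rw [← mul_assoc, mul_comm (∏ e, _) ((chq V q).e θ), mul_assoc, ← Finset.prod_mul_distrib]
      congr 1
      refine Finset.prod_congr rfl fun e _ => ?_
      ring
    simp only [e1]
    rw [integral_const_mul, integral_prod_fourier_inf]
    have e4 : (∀ v ∈ V, q v - dvg s t k v = 0) ↔ ∀ v, dvg s t k v = q v := by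
      constructor
      · intro h v
        by_cases hv : v ∈ V
        · have := h v hv
          omega
        · rw [hq v hv]
          unfold dvg
          refine Finset.sum_eq_zero fun e _ => ?_
          have a1 : s e ≠ v := fun h' => hv (h' ▸ hs e)
          have a2 : t e ≠ v := fun h' => hv (h' ▸ ht e)
          rw [if_neg a1, if_neg a2, sub_zero]
      · intro h v _
        rw [h v, sub_self]
    simp only [e4]
    split_ifs <;> simp
  have hsum : Summable fun k : E → ℤ => ∏ e, mj (J e) (B e * Complex.I) (-k e) := by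
    have h := (prod_tsum_all ℤ E (fun e n => (mj (J e) (B e * Complex.I) n : ℂ)) fun e =>
      (summable_mj (hJ e) (B e * Complex.I)).congr fun n => by
        rw [Complex.norm_real, Real.norm_eq_abs, abs_of_nonneg (mj_nonneg (hJ e) _ _)]).1
    have h2 := (Equiv.neg (E → ℤ)).summable_iff.2 h
    refine h2.congr fun n => ?_
    simp only [Function.comp]
    rw [norm_prod]
    refine Finset.prod_congr rfl fun e _ => ?_
    rw [Complex.norm_real, Real.norm_eq_abs, abs_of_nonneg (mj_nonneg (hJ e) _ _)]
    rfl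
  have := hasSum_integral_of_summable_integral_norm (μ := muInf) (F := F)
    (fun n => ((hcont n).integrable_of_hasCompactSupport
        (HasCompactSupport.of_compactSpace _))) ?_
  · simp only [hps]
    simp only [hint] at this
    exact this
  · simp only [hnorm]
    refine hsum.congr fun n => ?_
    simp

/-- duality, as a sum over the currents with divergence `q` -/
theorem fou {J : E → ℝ} (hJ : ∀ e, 0 ≤ J e) (B : E → ℝ) (V : Finset Z2) (q : Z2 → ℤ)
    (hs : ∀ e, s e ∈ V) (ht : ∀ e, t e ∈ V) (hq : ∀ v, v ∉ V → q v = 0) :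
    (Summable fun k : {k : E → ℤ // ∀ v, dvg s t k v = q v} => Gw J k.1 * Real.exp (Xe B k.1)) ∧
    ∫ θ, (chq V q).e θ * WW J (fun e => grad (s e) (t e)) B θ ∂muInf =
      ((∑' k : {k : E → ℤ // ∀ v, dvg s t k v = q v}, Gw J k.1 * Real.exp (Xe B k.1) : ℝ) : ℂ) := by
  classical
  have h := fou_hasSum s t hJ B V q hs ht hq
  have h1 : (fun k : E → ℤ => if ∀ v, dvg s t k v = q v then
      ((Gw J k * Real.exp (Xe B k) : ℝ) : ℂ) else 0) =
      Set.indicator {k : E → ℤ | ∀ v, dvg s t k v = q v}
        (fun k => ((Gw J k * Real.exp (Xe B k) : ℝ) : ℂ)) := by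
    funext k
    by_cases hk : ∀ v, dvg s t k v = q v
    · rw [if_pos hk, Set.indicator_of_mem (show k ∈ {k : E → ℤ | ∀ v, dvg s t k v = q v} from hk)]
    · rw [if_neg hk,
        Set.indicator_of_notMem (show k ∉ {k : E → ℤ | ∀ v, dvg s t k v = q v} from hk)]
  rw [h1, hasSum_subtype_iff_indicator.symm] at h
  have h2 : HasSum (fun k : {k : E → ℤ // ∀ v, dvg s t k v = q v} =>
      ((Gw J k.1 * Real.exp (Xe B k.1) : ℝ) : ℂ))
      (∫ θ, (chq V q).e θ * WW J (fun e => grad (s e) (t e)) B θ ∂muInf) := h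
  have h3 := Complex.hasSum_re h2
  simp only [Complex.ofReal_re] at h3
  refine ⟨h3.summable, ?_⟩
  rw [Complex.ofReal_tsum]
  exact h2.tsum_eq.symm

end

end Vale.Agent.P159.T1.H568
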