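import Vale.Agent.P159.T1.H409.Loc
import Vale.Agent.P159.Helicity
import Mathlib.Algebra.Order.Chebyshev

/-!
# The block factor (rows U2, U3 of StmtU)

One wired block: averaging the twisted weight, times any character, over the inner spins costs at
most `exp ((helicity b + ε) / 4 * ∑ e, y e ^ 2 + C * osc)`.
-/

set_option linter.all false
set_option autoImplicit false

open MeasureTheory Filter Topology
open scoped BigOperators

namespace Vale.Agent.P159.T1.H568

open Vale.Agent.P159 Vale.Agent.P159.UJ Vale.Agent.P159.H950 Vale.Agent.P159.T1.H931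

/-- the character of a half-bond, all spins free -/
noncomputable def chU {R : Finset (ℤ × ℤ)} (e : KR R) : Chr Ginf := grad (hu e.1 e.2) (hv e.1 e.2)

section Mono

variable {G : Type*} [AddCommGroup G] [TopologicalSpace G] [IsTopologicalAddGroup G]
  [CompactSpace G] [SecondCountableTopology G] [MeasurableSpace G] [BorelSpace G]
  (μ : Measure G) [μ.IsAddHaarMeasure] [IsProbabilityMeasure μ]
  {κ : Type*} [Fintype κ] {J K : κ → ℝ} (χ : κ → Chr G)

/-- the quadratic form increases with the couplings -/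
theorem Qform_mono (h2 : ∀ g : G, ∃ h : G, h + h = g) (hJ : ∀ e, 0 ≤ J e) (hK : ∀ e, J e ≤ K e)
    (y : κ → ℝ) : Qform μ J χ y ≤ Qform μ K χ y := by
  have hK0 : ∀ e, 0 ≤ K e := fun e => (hJ e).trans (hK e)
  refine T1.H409.Qform_le_of_lower μ J χ hJ y fun u _ _ => ?_
  have h1 := lowerZ μ K χ h2 hK0 (u • y)
  rw [QQ_zero, Qform_smul] at h1
  have h3 := T1.H409.ratio_coupling μ χ h2 hJ hK (u • y)
  have hZK := Zr_pos μ K χ 0
  have hZJ := Zr_pos μ J χ 0
  rw [le_div_iff₀ hZK] at h1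
  have e1 : -(u ^ 2 * Qform μ K χ y) / 2 = -(u ^ 2 * Qform μ K χ y / 2) := by ring
  rw [e1] at h1
  have h4 : Real.exp (-(u ^ 2 * Qform μ K χ y / 2)) * Zr μ J χ 0 * Zr μ K χ 0 ≤
      Zr μ J χ (u • y) * Zr μ K χ 0 := by
    calc _ = Real.exp (-(u ^ 2 * Qform μ K χ y / 2)) * Zr μ K χ 0 * Zr μ J χ 0 := by ring
      _ ≤ Zr μ K χ (u • y) * Zr μ J χ 0 := mul_le_mul_of_nonneg_right h1 hZJ.le
      _ ≤ _ := h3
  exact le_of_mul_le_mul_right h4 hZK

/-- averaging a nontrivial character against a weight with small twist -/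
theorem avg_nontrivial (hJ : ∀ e, 0 ≤ J e) {S η : ℝ} (hS : ∑ e, J e ≤ S) (hη0 : 0 ≤ η)
    (hη1 : η ≤ 1) (hη : 4 * S * η ≤ 1) (hgap : 8 * S * η * Real.exp S ≤ Real.exp (-S))
    (P : G →+ G) (hP : Continuous P) (y : κ → ℝ) (hy : ∀ e, |y e| ≤ η) (A : Chr G) (g : G)
    (hg : A.e (P g) ≠ 1) (x : G) :
    ‖avg μ P (fun z => A.e z * WW J χ y z) x‖ ≤
      ∫ z, Real.exp (∑ e, J e * (χ e).c (x + P z)) ∂μ := by
  have hS0 : 0 ≤ S := (Finset.sum_nonneg fun e _ => hJ e).trans hS
  set w : G → ℝ := fun z => Real.exp (∑ e, J e * (χ e).c (x + P z)) with hw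
  have hxP : Continuous fun z => x + P z := continuous_const.add hP
  have hwc : Continuous w := (cont_weight J χ).comp hxP
  have hAc : Continuous fun z => A.e (x + P z) := A.cont_e.comp hxP
  have hWc : Continuous fun z => WW J χ y (x + P z) :=
    (Complex.continuous_exp.comp (continuous_finsetSum _ fun e _ =>
      continuous_const.mul ((χ e).cont_C _))).comp hxP
  -- bounds of the weight
  have hsum : ∀ z : G, |∑ e, J e * (χ e).c z| ≤ S := by
    intro z
    refine (abs_sumc_le χ _ z).trans (le_trans (le_of_eq ?_) hS)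
    exact Finset.sum_congr rfl fun e _ => abs_of_nonneg (hJ e)
  have hw1 : ∀ z, Real.exp (-S) ≤ w z := fun z => Real.exp_le_exp.2 (abs_le.1 (hsum _)).1
  have hw2 : ∀ z, w z ≤ Real.exp S := fun z => Real.exp_le_exp.2 (abs_le.1 (hsum _)).2
  -- the difference of the weights
  have hdiff : ∀ z, ‖WW J χ y (x + P z) - (w z : ℂ)‖ ≤ 8 * S * η * w z := by
    intro z
    set v := x + P z with hv
    set D : ℂ := ∑ e, (J e : ℂ) * ((χ e).C (y e * Complex.I) v - (χ e).c v) with hD
    have e1 : WW J χ y v = (w z : ℂ) * Complex.exp D := by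
      rw [hw]
      simp only
      rw [Complex.ofReal_exp, ← Complex.exp_add]
      unfold WW
      congr 1
      rw [hD]
      push_cast
      rw [← Finset.sum_add_distrib]
      refine Finset.sum_congr rfl fun e _ => ?_
      ring
    have hDn : ‖D‖ ≤ 4 * S * η := by
      rw [hD]
      refine (norm_sum_le _ _).trans ?_
      have h1 : ∀ e ∈ Finset.univ, ‖(J e : ℂ) * ((χ e).C (y e * Complex.I) v - (χ e).c v)‖ ≤
          J e * (4 * η) := by
        intro e _
        rw [norm_mul, Complex.norm_real, Real.norm_of_nonneg (hJ e)]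
        refine mul_le_mul_of_nonneg_left ?_ (hJ e)
        have hye := hy e
        have h2 : (χ e).C (y e * Complex.I) v - (χ e).c v =
            ((((χ e).c v * (Real.cosh (y e) - 1) : ℝ)) : ℂ) +
              (((-((χ e).s v * Real.sinh (y e)) : ℝ)) : ℂ) * Complex.I := by
          unfold Chr.C
          rw [Complex.cos_mul_I, Complex.sin_mul_I]
          push_cast
          ring
        rw [h2]
        refine (norm_add_le _ _).trans ?_
        rw [norm_mul, Complex.norm_I, mul_one, Complex.norm_real, Complex.norm_real,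
          Real.norm_eq_abs, Real.norm_eq_abs, abs_neg, abs_mul, abs_mul]
        have hy1 : |y e| ≤ 1 := hye.trans hη1
        have h3 := cosh_sub_bound hy1
        have h4 := sinh_sub_bound hy1
        have h5 : |Real.cosh (y e) - 1| ≤ 3 / 2 * |y e| := by
          have h6 : |Real.cosh (y e) - 1| ≤ |Real.cosh (y e) - 1 - y e ^ 2 / 2| +
              |y e ^ 2 / 2| := by
            calc |Real.cosh (y e) - 1| = |(Real.cosh (y e) - 1 - y e ^ 2 / 2) + y e ^ 2 / 2| := by
                  ring_nf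
              _ ≤ _ := abs_add_le _ _
          have h7 : |y e ^ 2 / 2| = |y e| ^ 2 / 2 := by
            rw [abs_div, abs_two, abs_pow]
          have h8 : |y e| ^ 4 ≤ |y e| := by
            have := pow_le_pow_of_le_one (abs_nonneg (y e)) hy1 (show 1 ≤ 4 by norm_num)
            simpa using this
          have h9 : |y e| ^ 2 ≤ |y e| := by
            have := pow_le_pow_of_le_one (abs_nonneg (y e)) hy1 (show 1 ≤ 2 by norm_num)
            simpa using this
          rw [h7] at h6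
          linarith
        have h6 : |Real.sinh (y e)| ≤ 2 * |y e| := by
          have h7 : |Real.sinh (y e)| ≤ |Real.sinh (y e) - y e| + |y e| := by
            calc |Real.sinh (y e)| = |(Real.sinh (y e) - y e) + y e| := by ring_nf
              _ ≤ _ := abs_add_le _ _
          have h8 : |y e| ^ 3 ≤ |y e| := by
            have := pow_le_pow_of_le_one (abs_nonneg (y e)) hy1 (show 1 ≤ 3 by norm_num)
            simpa using this
          linarith
        have hc := (χ e).abs_c_le v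
        have hs := (χ e).abs_s_le v
        calc |(χ e).c v| * |Real.cosh (y e) - 1| + |(χ e).s v| * |Real.sinh (y e)|
            ≤ 1 * (3 / 2 * |y e|) + 1 * (2 * |y e|) := by
              refine add_le_add (mul_le_mul hc h5 (abs_nonneg _) zero_le_one)
                (mul_le_mul hs h6 (abs_nonneg _) zero_le_one)
          _ ≤ 4 * |y e| := by
              have := abs_nonneg (y e)
              linarith
          _ ≤ 4 * η := by linarith
      refine (Finset.sum_le_sum h1).trans ?_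
      rw [← Finset.sum_mul]
      calc (∑ e, J e) * (4 * η) ≤ S * (4 * η) :=
            mul_le_mul_of_nonneg_right hS (by positivity)
        _ = 4 * S * η := by ring
    rw [e1, show (w z : ℂ) * Complex.exp D - (w z : ℂ) = (w z : ℂ) * (Complex.exp D - 1) by ring,
      norm_mul, Complex.norm_real, Real.norm_of_nonneg (Real.exp_pos _).le]
    have h2 := Complex.norm_exp_sub_one_le (hDn.trans hη)
    calc w z * ‖Complex.exp D - 1‖ ≤ w z * (2 * ‖D‖) :=
          mul_le_mul_of_nonneg_left h2 (Real.exp_pos _).le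
      _ ≤ w z * (2 * (4 * S * η)) :=
          mul_le_mul_of_nonneg_left (by linarith) (Real.exp_pos _).le
      _ = 8 * S * η * w z := by ring
  -- the integral of the character vanishes
  have hzero : ∫ z, A.e (x + P z) ∂μ = 0 := by
    have hmul : ∀ a b : G, A.e (a + b) = A.e a * A.e b := by
      intro a b
      unfold Chr.e
      rw [A.c_add, A.s_add]
      push_cast
      have hI := Complex.I_sq
      linear_combination (-(A.s a : ℂ) * A.s b) * hI
    have h1 : ∫ z, A.e (x + P (z + g)) ∂μ = ∫ z, A.e (x + P z) ∂μ :=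
      integral_add_right_eq_self (μ := μ) (fun z => A.e (x + P z)) g
    have h2 : ∀ z, A.e (x + P (z + g)) = A.e (P g) * A.e (x + P z) := by
      intro z
      rw [map_add, ← add_assoc, hmul, mul_comm]
    simp_rw [h2] at h1
    rw [integral_const_mul] at h1
    have h3 : (A.e (P g) - 1) * ∫ z, A.e (x + P z) ∂μ = 0 := by
      rw [sub_mul, one_mul, h1, sub_self]
    rcases mul_eq_zero.1 h3 with h4 | h4
    · exact absurd (sub_eq_zero.1 h4) hg
    · exact h4
  set m : ℝ := Real.exp (-S) with hm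
  -- splitting
  have e2 : avg μ P (fun z => A.e z * WW J χ y z) x =
      (∫ z, A.e (x + P z) * (WW J χ y (x + P z) - (w z : ℂ)) ∂μ) +
        ∫ z, A.e (x + P z) * ((w z - m : ℝ) : ℂ) ∂μ := by
    have i1 : Integrable (fun z => A.e (x + P z) * (WW J χ y (x + P z) - (w z : ℂ))) μ :=
      cint (hAc.mul (hWc.sub (Complex.continuous_ofReal.comp hwc)))
    have i2 : Integrable (fun z => A.e (x + P z) * ((w z - m : ℝ) : ℂ)) μ :=
      cint (hAc.mul (Complex.continuous_ofReal.comp (hwc.sub continuous_const)))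
    have i3 : Integrable (fun z => (m : ℂ) * A.e (x + P z)) μ := cint (continuous_const.mul hAc)
    rw [← integral_add i1 i2]
    have h1 : ∫ z, (m : ℂ) * A.e (x + P z) ∂μ = 0 := by
      rw [integral_const_mul, hzero, mul_zero]
    have h3 := integral_add (i1.add i2) i3
    rw [h1, add_zero] at h3
    unfold avg
    simp only [Pi.add_apply] at h3 ⊢
    rw [← h3]
    congr 1
    ext z
    push_cast
    ring
  have n1 : ∀ z : G, ‖A.e z‖ = 1 := A.norm_e
  have b1 : ‖∫ z, A.e (x + P z) * (WW J χ y (x + P z) - (w z : ℂ)) ∂μ‖ ≤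
      8 * S * η * Real.exp S := by
    refine (norm_integral_le_integral_norm _).trans ?_
    have h1 : ∫ z, ‖A.e (x + P z) * (WW J χ y (x + P z) - (w z : ℂ))‖ ∂μ ≤
        ∫ _z, 8 * S * η * Real.exp S ∂μ := by
      refine integral_mono (cint (hAc.mul (hWc.sub
        (Complex.continuous_ofReal.comp hwc))).norm) (integrable_const _) fun z => ?_
      simp only
      rw [norm_mul, n1, one_mul]
      refine (hdiff z).trans (mul_le_mul_of_nonneg_left (hw2 z) (by positivity))
    refine h1.trans (le_of_eq ?_)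
    simp
  have b2 : ‖∫ z, A.e (x + P z) * ((w z - m : ℝ) : ℂ) ∂μ‖ ≤ (∫ z, w z ∂μ) - m := by
    refine (norm_integral_le_integral_norm _).trans ?_
    have h1 : ∀ z, ‖A.e (x + P z) * ((w z - m : ℝ) : ℂ)‖ = w z - m := by
      intro z
      rw [norm_mul, n1, one_mul, Complex.norm_real, Real.norm_of_nonneg (sub_nonneg.2 (hw1 z))]
    simp_rw [h1]
    rw [integral_sub (cint hwc) (integrable_const _)]
    simp
  rw [e2]
  refine (norm_add_le _ _).trans ?_
  have := add_le_add b1 b2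
  linarith

end Mono

/-! ## the block inequality -/

theorem K5_mono {S T : ℝ} (hS : 0 ≤ S) (h : S ≤ T) : K5 S ≤ K5 T := by
  unfold K5
  gcongr

/-- deviation from the mean, same direction -/
theorem dev_mean {ι : Type*} [DecidableEq ι] (s : Finset ι) (hs : s.Nonempty) (y : ι → ℝ) :
    ((s.card : ℝ) * ((∑ e ∈ s, y e) / s.card) ^ 2 ≤ ∑ e ∈ s, y e ^ 2) ∧
      ∑ e ∈ s, (y e - (∑ e ∈ s, y e) / s.card) ^ 2 ≤ ∑ e ∈ s, ∑ e' ∈ s, (y e - y e') ^ 2 := by
  have hc : (1 : ℝ) ≤ s.card := by exact_mod_cast hs.card_pos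
  have hc0 : (0 : ℝ) < s.card := by linarith
  constructor
  · have h := sq_sum_le_card_mul_sum_sq (s := s) (f := y)
    rw [div_pow, mul_div_assoc', div_le_iff₀ (by positivity)]
    nlinarith
  · refine Finset.sum_le_sum fun e _ => ?_
    have h1 : y e - (∑ e ∈ s, y e) / s.card = (∑ e' ∈ s, (y e - y e')) / s.card := by
      rw [Finset.sum_sub_distrib, Finset.sum_const, nsmul_eq_mul]
      field_simp
    rw [h1, div_pow, div_le_iff₀ (by positivity)]
    have h2 := sq_sum_le_card_mul_sum_sq (s := s) (f := fun e' => y e - y e')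
    have h3 : 0 ≤ ∑ e' ∈ s, (y e - y e') ^ 2 := Finset.sum_nonneg fun _ _ => sq_nonneg _
    nlinarith

/-- the same-direction oscillation of a twist of a block -/
noncomputable def oscR {R : Finset (ℤ × ℤ)} (y : KR R → ℝ) : ℝ :=
  ∑ e, ∑ e', (if e.2.1 = e'.2.1 then (y e - y e') ^ 2 else 0)

theorem oscR_nonneg {R : Finset (ℤ × ℤ)} (y : KR R → ℝ) : 0 ≤ oscR y :=
  Finset.sum_nonneg fun e _ => Finset.sum_nonneg fun e' _ => by split_ifs <;> positivity

/-- half-bonds of a direction -/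
noncomputable def dirs (R : Finset (ℤ × ℤ)) (t : Bool) : Finset (KR R) :=
  Finset.univ.filter fun e => e.2.1 = t

theorem sum_dirs (R : Finset (ℤ × ℤ)) (f : KR R → ℝ) :
    ∑ e, f e = (∑ e ∈ dirs R false, f e) + ∑ e ∈ dirs R true, f e := by
  unfold dirs
  rw [Finset.sum_filter, Finset.sum_filter, ← Finset.sum_add_distrib]
  refine Finset.sum_congr rfl fun e _ => ?_
  cases e.2.1 <;> simp

theorem card_dirs (p : ℤ × ℤ) (l : ℕ) (t : Bool) : ((dirs (blk p l) t).card : ℝ) = 2 * (l : ℝ) ^ 2 := by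
  have h : ((dirs (blk p l) t).card : ℝ) = ∑ e : KR (blk p l), (if e.2.1 = t then (1 : ℝ) else 0) := by
    unfold dirs
    rw [Finset.card_filter]
    push_cast
    rfl
  rw [h, Fintype.sum_prod_type]
  simp only [Fintype.sum_prod_type, Fintype.sum_bool]
  have hc : ((blk p l).card : ℝ) = (l : ℝ) ^ 2 := by
    rw [card_blk]
    push_cast
    rfl
  cases t
  · simp only [Finset.sum_const, Finset.card_univ, Fintype.card_coe, nsmul_eq_mul, hc,
      Bool.true_eq_false, if_false, if_true]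
    ring
  · simp only [Finset.sum_const, Finset.card_univ, Fintype.card_coe, nsmul_eq_mul, hc,
      Bool.false_eq_true, if_false, if_true]
    ring

/-- splitting a twist into a constant field and a small rest -/
theorem split_mean (p : ℤ × ℤ) (l : ℕ) (hl : 1 ≤ l) (y : KR (blk p l) → ℝ) :
    ∃ u w : ℝ, 2 * (l : ℝ) ^ 2 * (u ^ 2 + w ^ 2) ≤ ∑ e, y e ^ 2 ∧
      ∑ e, (y e - twR (blk p l) (cst u w) e) ^ 2 ≤ oscR y := by
  classical
  have hl0 : (0 : ℝ) < 2 * (l : ℝ) ^ 2 := by
    have : (0 : ℝ) < l := by exact_mod_cast hl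
    positivity
  have hne : ∀ t, (dirs (blk p l) t).Nonempty := by
    intro t
    rw [← Finset.card_pos]
    have := card_dirs p l t
    rw [← this] at hl0
    exact_mod_cast hl0
  set m : Bool → ℝ := fun t => (∑ e ∈ dirs (blk p l) t, y e) / (dirs (blk p l) t).card with hm
  have h0 : ∀ t, _ := fun t => dev_mean (dirs (blk p l) t) (hne t) y
  refine ⟨m false, m true, ?_, ?_⟩
  · rw [sum_dirs]
    have h1 := (h0 false).1
    have h2 := (h0 true).1
    rw [card_dirs] at h1 h2
    rw [hm]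
    simp only
    rw [card_dirs, card_dirs]
    linarith
  · rw [sum_dirs]
    unfold oscR
    rw [sum_dirs]
    have key : ∀ t, ∑ e ∈ dirs (blk p l) t, (y e - twR (blk p l) (cst (m false) (m true)) e) ^ 2 ≤
        ∑ e ∈ dirs (blk p l) t, ∑ e', (if e.2.1 = e'.2.1 then (y e - y e') ^ 2 else 0) := by
      intro t
      have h1 := (h0 t).2
      have e1 : ∀ e ∈ dirs (blk p l) t, (y e - twR (blk p l) (cst (m false) (m true)) e) ^ 2 =
          (y e - (∑ e ∈ dirs (blk p l) t, y e) / (dirs (blk p l) t).card) ^ 2 := by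
        intro e he
        have he' : e.2.1 = t := by
          unfold dirs at he
          exact (Finset.mem_filter.1 he).2
        unfold twR cst
        rw [he']
        cases t <;> simp [hm]
      have e2 : ∀ e ∈ dirs (blk p l) t,
          ∑ e', (if e.2.1 = e'.2.1 then (y e - y e') ^ 2 else 0) =
          ∑ e' ∈ dirs (blk p l) t, (y e - y e') ^ 2 := by
        intro e he
        have he' : e.2.1 = t := by
          unfold dirs at he
          exact (Finset.mem_filter.1 he).2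
        unfold dirs
        rw [Finset.sum_filter]
        refine Finset.sum_congr rfl fun e' _ => ?_
        rw [he']
        simp only [eq_comm]
      rw [Finset.sum_congr rfl e1, Finset.sum_congr rfl e2]
      exact h1
    exact add_le_add (key false) (key true)

/-- the ratio of a block at a small twist -/
theorem rho_block {b δ η S : ℝ} {l : ℕ} (hb : 0 < b) (hl : 1 ≤ l) (hδ : 0 < δ) (hη0 : 0 ≤ η)
    (hη1 : η ≤ 1) (p : ℤ × ℤ) (J : KR (blk p l) → ℝ)
    (hJ : ∀ e, 0 ≤ J e ∧ J e ≤ b / 2) (hsumJ : ∑ e, J e ≤ S) (hη : 4 * S * η ≤ 1)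
    (y : KR (blk p l) → ℝ) (hy : ∀ e, |y e| ≤ η) :
    rho muInf J (chiR (blk p l)) y ≤
      Real.exp (((1 + δ) * stiff l b / 4 + K5 S * η ^ 2) * ∑ e, y e ^ 2 +
        (1 + 1 / δ) * b / 4 * oscR y) := by
  have hJ0 : ∀ e, 0 ≤ J e := fun e => (hJ e).1
  have hstiff : 0 ≤ stiff l b := UJ.h3_stiff_nonneg hb hl
  have hsJ0 : 0 ≤ ∑ e, J e := Finset.sum_nonneg fun e _ => hJ0 e
  have hS0 : 0 ≤ S := hsJ0.trans hsumJ
  have hy2 : 0 ≤ ∑ e, y e ^ 2 := Finset.sum_nonneg fun e _ => sq_nonneg _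
  -- the largest twist
  obtain ⟨e0, -, he0⟩ : ∃ e0 ∈ (Finset.univ : Finset (KR (blk p l))), ∀ e ∈ Finset.univ,
      |y e| ≤ |y e0| := by
    refine Finset.exists_max_image _ _ ?_
    refine ⟨(⟨p, mem_blk.2 ⟨le_rfl, by omega, le_rfl, by omega⟩⟩, (false, false)),
      Finset.mem_univ _⟩
  obtain ⟨Y, hY⟩ : ∃ Y : ℝ, Y = |y e0| := ⟨_, rfl⟩
  have hY0 : 0 ≤ Y := by rw [hY]; exact abs_nonneg _
  have hYη : Y ≤ η := by rw [hY]; exact hy e0
  have hYy : ∀ e, |y e| ≤ Y := fun e => by rw [hY]; exact he0 e (Finset.mem_univ _)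
  have h2SY : 2 * (∑ e, J e) * Y ≤ 1 := by
    have : 2 * (∑ e, J e) * Y ≤ 2 * S * η := by gcongr
    have h3 : 0 ≤ S * η := by positivity
    linarith
  have h1 := rho_second muInf J (chiR (blk p l)) hJ0 rfl y (hYη.trans hη1) h2SY hYy hY0
  have h2 : Qform muInf J (chiR (blk p l)) y ≤
      Qform muInf (fun _ : KR (blk p l) => b / 2) (chiR (blk p l)) y :=
    Qform_mono muInf (chiR (blk p l)) G_div2 hJ0 (fun e => (hJ e).2) y
  obtain ⟨u, w, huw, hosc⟩ := split_mean p l hl y
  have hb2 : ∀ _e : KR (blk p l), 0 ≤ b / 2 := fun _ => by positivity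
  have h3 := Qform_add_le muInf (fun _ : KR (blk p l) => b / 2) (chiR (blk p l)) G_div2
    hb2 (twR (blk p l) (cst u w)) (y - twR (blk p l) (cst u w)) hδ
  rw [add_sub_cancel] at h3
  have h4 : Qform muInf (fun _ : KR (blk p l) => b / 2) (chiR (blk p l))
      (twR (blk p l) (cst u w)) = (l : ℝ) ^ 2 * stiff l b * (u ^ 2 + w ^ 2) :=
    qR_const b p l hl u w
  have h5 := Qform_le muInf (fun _ : KR (blk p l) => b / 2) (chiR (blk p l))
    hb2 (y - twR (blk p l) (cst u w))
  have h6 : ∑ e, b / 2 * (y - twR (blk p l) (cst u w)) e ^ 2 ≤ b / 2 * oscR y := by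
    rw [← Finset.mul_sum]
    exact mul_le_mul_of_nonneg_left hosc (by positivity)
  have h7 : (l : ℝ) ^ 2 * stiff l b * (u ^ 2 + w ^ 2) ≤ stiff l b / 2 * ∑ e, y e ^ 2 := by
    have := mul_le_mul_of_nonneg_left huw (show 0 ≤ stiff l b / 2 by positivity)
    linarith
  have h8 : Qform muInf J (chiR (blk p l)) y ≤
      (1 + δ) * (stiff l b / 2 * ∑ e, y e ^ 2) + (1 + 1 / δ) * (b / 2 * oscR y) := by
    refine h2.trans (h3.trans (add_le_add ?_ ?_))
    · rw [h4]
      exact mul_le_mul_of_nonneg_left h7 (by positivity)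
    · exact mul_le_mul_of_nonneg_left (h5.trans h6) (by positivity)
  have h9 : Y ^ 4 ≤ η ^ 2 * ∑ e, y e ^ 2 := by
    have e2 : Y ^ 4 = Y ^ 2 * Y ^ 2 := by ring
    rw [e2]
    refine mul_le_mul (pow_le_pow_left₀ hY0 hYη 2) ?_ (by positivity) (by positivity)
    rw [hY, sq_abs]
    exact Finset.single_le_sum (f := fun e => y e ^ 2) (fun e _ => sq_nonneg _)
      (Finset.mem_univ e0)
  have h10 : K5 (∑ e, J e) * Y ^ 4 ≤ K5 S * (η ^ 2 * ∑ e, y e ^ 2) :=
    mul_le_mul (K5_mono hsJ0 hsumJ) h9 (by positivity) (K5_nonneg hS0)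
  have h11 := Real.add_one_le_exp (((1 + δ) * stiff l b / 4 + K5 S * η ^ 2) * ∑ e, y e ^ 2 +
      (1 + 1 / δ) * b / 4 * oscR y)
  refine le_trans ?_ h11
  unfold K5 at h10 ⊢
  calc rho muInf J (chiR (blk p l)) y ≤ _ := h1
    _ ≤ 1 + ((1 + δ) * (stiff l b / 2 * ∑ e, y e ^ 2) + (1 + 1 / δ) * (b / 2 * oscR y)) / 2 +
        (S + 6 * S ^ 2 + 4 * S ^ 3 + 16 * S ^ 4) * (η ^ 2 * ∑ e, y e ^ 2) := by linarith
    _ = _ := by ring

theorem e_add (A : Chr Ginf) (a b : Ginf) : A.e (a + b) = A.e a * A.e b := by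
  unfold Chr.e
  rw [A.c_add, A.s_add]
  push_cast
  have hI := Complex.I_sq
  linear_combination (-(A.s a : ℂ) * A.s b) * hI

/-- a trivial character goes out of the average -/
theorem avg_trivial {κ : Type*} [Fintype κ] (J : κ → ℝ) (χ : κ → Chr Ginf) (y : κ → ℝ)
    (A : Chr Ginf) (R : Set (ℤ × ℤ)) (htriv : ∀ g, A.e (proj R g) = 1) (x : Ginf) :
    ‖avg muInf (proj R) (fun z => A.e z * WW J χ y z) x‖ =
      ‖avg muInf (proj R) (WW J χ y) x‖ := by
  have e1 : avg muInf (proj R) (fun z => A.e z * WW J χ y z) x =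
      A.e x * avg muInf (proj R) (WW J χ y) x := by
    unfold avg
    rw [← integral_const_mul]
    congr 1
    ext z
    simp only
    rw [e_add, htriv, mul_one]
  rw [e1, norm_mul, A.norm_e, one_mul]

/-- the block inequality, with explicit smallness conditions -/
theorem block_main {b δ η S : ℝ} {l : ℕ} (hb : 0 < b) (hl : 1 ≤ l) (hδ : 0 < δ) (hη0 : 0 ≤ η)
    (hη1 : η ≤ 1) (hS : S = 2 * (l : ℝ) ^ 2 * b) (hη : 4 * S * η ≤ 1)
    (hgap : 8 * S * η * Real.exp S ≤ Real.exp (-S)) (p : ℤ × ℤ) (J : KR (blk p l) → ℝ)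
    (hJ : ∀ e, 0 ≤ J e ∧ J e ≤ b / 2) (y : KR (blk p l) → ℝ) (hy : ∀ e, |y e| ≤ η)
    (A : Chr Ginf) (x : Ginf) :
    ‖avg muInf (proj (intR (blk p l))) (fun z => A.e z * WW J (fun e => chU e) y z) x‖ ≤
      Real.exp (((1 + δ) * stiff l b / 4 + K5 S * η ^ 2) * ∑ e, y e ^ 2 +
        (1 + 1 / δ) * b / 4 * oscR y) *
        ∫ z, Real.exp (∑ e, J e * (chU e).c (x + proj (intR (blk p l)) z)) ∂muInf := by
  have hJ0 : ∀ e, 0 ≤ J e := fun e => (hJ e).1
  have hstiff : 0 ≤ stiff l b := UJ.h3_stiff_nonneg hb hl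
  have hsumJ : ∑ e, J e ≤ S := by
    have h1 : ∑ e, J e ≤ ∑ _e : KR (blk p l), b / 2 := Finset.sum_le_sum fun e _ => (hJ e).2
    refine h1.trans (le_of_eq ?_)
    rw [sum_dirs, Finset.sum_const, Finset.sum_const, nsmul_eq_mul, nsmul_eq_mul, card_dirs,
      card_dirs, hS]
    ring
  have hsJ0 : 0 ≤ ∑ e, J e := Finset.sum_nonneg fun e _ => hJ0 e
  have hS0 : 0 ≤ S := hsJ0.trans hsumJ
  have hy2 : 0 ≤ ∑ e, y e ^ 2 := Finset.sum_nonneg fun e _ => sq_nonneg _
  have hex0 : 0 ≤ ((1 + δ) * stiff l b / 4 + K5 S * η ^ 2) * ∑ e, y e ^ 2 +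
      (1 + 1 / δ) * b / 4 * oscR y := by
    have h1 : 0 ≤ (1 + δ) * stiff l b / 4 :=
      div_nonneg (mul_nonneg (by linarith) hstiff) (by norm_num)
    have h2 : 0 ≤ K5 S * η ^ 2 := mul_nonneg (K5_nonneg hS0) (sq_nonneg _)
    have h3 : 0 ≤ 1 / δ := by positivity
    have h4 : 0 ≤ (1 + 1 / δ) * b / 4 :=
      div_nonneg (mul_nonneg (by linarith) hb.le) (by norm_num)
    exact add_nonneg (mul_nonneg (add_nonneg h1 h2) hy2) (mul_nonneg h4 (oscR_nonneg y))
  have hint0 : 0 ≤ ∫ z, Real.exp (∑ e, J e * (chU e).c (x + proj (intR (blk p l)) z)) ∂muInf :=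
    integral_nonneg fun z => (Real.exp_pos _).le
  by_cases htriv : ∀ g, A.e (proj (intR (blk p l)) g) = 1
  · rw [avg_trivial J (fun e => chU e) y A (intR (blk p l)) htriv x]
    refine (avg_bound muInf G_div2 J hJ0 (fun e => chU e) (proj (intR (blk p l))) (proj_cont _) y
      x).trans (mul_le_mul_of_nonneg_right ?_ hint0)
    exact rho_block hb hl hδ hη0 hη1 p J hJ hsumJ hη y hy
  · push Not at htriv
    obtain ⟨g, hg⟩ := htriv
    refine (avg_nontrivial muInf (fun e => chU e) hJ0 hsumJ hη0 hη1 hη hgap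
      (proj (intR (blk p l))) (proj_cont _) y hy A g hg x).trans ?_
    exact le_mul_of_one_le_left hint0 (Real.one_le_exp hex0)

/-- THE BLOCK INEQUALITY -/
theorem block_fac : ∀ b ε : ℝ, 0 < b → 0 < ε → ∃ (l : ℕ) (η C : ℝ), 1 ≤ l ∧ 0 < η ∧ 0 ≤ C ∧
    ∀ (p : ℤ × ℤ) (J : KR (blk p l) → ℝ), (∀ e, 0 ≤ J e ∧ J e ≤ b / 2) →
    ∀ (y : KR (blk p l) → ℝ), (∀ e, |y e| ≤ η) → ∀ (A : Chr Ginf) (x : Ginf),
    ‖avg muInf (proj (intR (blk p l))) (fun z => A.e z * WW J (fun e => chU e) y z) x‖ ≤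
      Real.exp ((helicity b + ε) / 4 * ∑ e, y e ^ 2 +
        C * ∑ e, ∑ e', (if e.2.1 = e'.2.1 then (y e - y e') ^ 2 else 0)) *
        ∫ z, Real.exp (∑ e, J e * (chU e).c (x + proj (intR (blk p l)) z)) ∂muInf := by
  intro b ε hb hε
  obtain ⟨k, hk⟩ : ∃ k : ℕ, stiff (k + 1) b < helicity b + ε / 4 :=
    exists_lt_of_ciInf_lt (lt_add_of_pos_right _ (by positivity))
  have hst : 0 ≤ stiff (k + 1) b := UJ.h3_stiff_nonneg hb (Nat.succ_le_succ (Nat.zero_le k))
  set l : ℕ := k + 1 with hl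
  have hl1 : 1 ≤ l := by omega
  set δ : ℝ := (ε / 4) / (stiff l b + 1) with hδ
  have hδ0 : 0 < δ := by rw [hδ]; positivity
  have hδ1 : δ * stiff l b ≤ ε / 4 := by
    rw [hδ, div_mul_eq_mul_div, div_le_iff₀ (by positivity)]
    have : 0 ≤ ε / 4 := by positivity
    nlinarith
  set S : ℝ := 2 * (l : ℝ) ^ 2 * b with hS
  have hS0 : 0 ≤ S := by rw [hS]; positivity
  have hK := K5_nonneg hS0
  set D : ℝ := 1 + 4 * S + 8 * S * Real.exp (2 * S) + 16 * K5 S / ε with hD
  have hD1 : 1 ≤ D := by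
    rw [hD]
    have : 0 ≤ 4 * S + 8 * S * Real.exp (2 * S) + 16 * K5 S / ε := by positivity
    linarith
  have hD0 : 0 < D := by linarith
  have hη0 : 0 < 1 / D := by positivity
  have hη1 : 1 / D ≤ 1 := by rw [div_le_one hD0]; exact hD1
  have hfrac : ∀ a : ℝ, a ≤ D → a * (1 / D) ≤ 1 := by
    intro a ha
    rw [mul_one_div, div_le_one hD0]
    exact ha
  refine ⟨l, 1 / D, (1 + 1 / δ) * b / 4, hl1, hη0, by positivity, ?_⟩
  intro p J hJ y hy A x
  have h4S : 4 * S * (1 / D) ≤ 1 := hfrac _ (by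
    rw [hD]
    have : 0 ≤ 8 * S * Real.exp (2 * S) + 16 * K5 S / ε := by positivity
    linarith)
  have hgap : 8 * S * (1 / D) * Real.exp S ≤ Real.exp (-S) := by
    have h1 : 8 * S * Real.exp (2 * S) * (1 / D) ≤ 1 := hfrac _ (by
      rw [hD]
      have : 0 ≤ 4 * S + 16 * K5 S / ε := by positivity
      linarith)
    have h2 := mul_le_mul_of_nonneg_right h1 (Real.exp_pos (-S)).le
    have h3 : Real.exp (2 * S) * Real.exp (-S) = Real.exp S := by
      rw [← Real.exp_add]; congr 1; ring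
    calc 8 * S * (1 / D) * Real.exp S = 8 * S * (1 / D) * (Real.exp (2 * S) * Real.exp (-S)) := by
          rw [h3]
      _ = 8 * S * Real.exp (2 * S) * (1 / D) * Real.exp (-S) := by ring
      _ ≤ 1 * Real.exp (-S) := h2
      _ = _ := one_mul _
  have hK2 : K5 S * (1 / D) ^ 2 ≤ ε / 16 := by
    have h1 : 16 * K5 S / ε * (1 / D) ≤ 1 := hfrac _ (by
      rw [hD]
      have : 0 ≤ 4 * S + 8 * S * Real.exp (2 * S) := by positivity
      linarith)
    have h2 : K5 S * (1 / D) = ε / 16 * (16 * K5 S / ε * (1 / D)) := by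
      field_simp
    have h3 : K5 S * (1 / D) ≤ ε / 16 := by
      rw [h2]
      have : 0 ≤ ε / 16 := by positivity
      nlinarith
    calc K5 S * (1 / D) ^ 2 = K5 S * (1 / D) * (1 / D) := by ring
      _ ≤ K5 S * (1 / D) * 1 := mul_le_mul_of_nonneg_left hη1 (by positivity)
      _ ≤ _ := by linarith
  refine (block_main hb hl1 hδ0 hη0.le hη1 hS h4S hgap p J hJ y hy A x).trans ?_
  refine mul_le_mul_of_nonneg_right (Real.exp_le_exp.2 ?_)
    (integral_nonneg fun z => (Real.exp_pos _).le)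
  unfold oscR
  refine add_le_add (mul_le_mul_of_nonneg_right ?_
    (Finset.sum_nonneg fun e _ => sq_nonneg _)) le_rfl
  have : (1 + δ) * stiff l b = stiff l b + δ * stiff l b := by ring
  rw [this]
  linarith

end Vale.Agent.P159.T1.H568
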