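import Vale.Agent.P159.T1.H568.Lift

/-!
# The exploration bound (row (b') of the block unwiring)

The probability that the `{h ≤ 0}` cluster of `om`, `op` reaches `B` although a nonnegative linear
functional of the heights is `≥ T` is exponentially small, if the functional is, for every
connected set which contains `om`, `op` and reaches `B`, the flux of a small current outside of
this set.
-/

set_option autoImplicit false

open Finset

namespace Vale.Agent.P159.T1.H568

open Vale.Agent.P159.T1.H254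

section

variable {V E : Type} [Fintype V] [DecidableEq V] [Fintype E] [DecidableEq E]

/-- neighbours inside `C` -/
def pth (s t : E → V) (C : Finset V) (a b : V) : Prop :=
  a ∈ C ∧ b ∈ C ∧ ∃ e, (s e = a ∧ t e = b) ∨ (s e = b ∧ t e = a)

open Classical in
/-- the `{h ≤ 0}` cluster of `om`, `op` -/
noncomputable def Kc (s t : E → V) (om op : V) (h : V → ℤ) : Finset V :=
  Finset.univ.filter fun v => Relation.ReflTransGen (lowA s t h) om v ∨
    Relation.ReflTransGen (lowA s t h) op v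

theorem mem_Kc {s t : E → V} {om op : V} {h : V → ℤ} {v : V} : v ∈ Kc s t om op h ↔
    Relation.ReflTransGen (lowA s t h) om v ∨ Relation.ReflTransGen (lowA s t h) op v := by
  classical
  simp [Kc]

theorem om_mem (s t : E → V) (om op : V) (h : V → ℤ) : om ∈ Kc s t om op h :=
  mem_Kc.2 (Or.inl .refl)

theorem op_mem (s t : E → V) (om op : V) (h : V → ℤ) : op ∈ Kc s t om op h :=
  mem_Kc.2 (Or.inr .refl)

theorem low_of_mem {s t : E → V} {om op : V} {h : V → ℤ} (h1 : h om = 0) (h2 : h op = 0) {v : V}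
    (hv : v ∈ Kc s t om op h) : h v ≤ 0 := by
  rcases mem_Kc.1 hv with h3 | h3
  · rcases Relation.ReflTransGen.cases_tail h3 with h4 | ⟨c, _, h5⟩
    · rw [h4, h1]
    · exact h5.2.1
  · rcases Relation.ReflTransGen.cases_tail h3 with h4 | ⟨c, _, h5⟩
    · rw [h4, h2]
    · exact h5.2.1

theorem mem_of_adj {s t : E → V} {om op : V} {h : V → ℤ} (h1 : h om = 0) (h2 : h op = 0)
    {u v : V} (hu : u ∈ Kc s t om op h) (hv : h v ≤ 0)
    (he : ∃ e, (s e = u ∧ t e = v) ∨ (s e = v ∧ t e = u)) : v ∈ Kc s t om op h := by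
  have h3 := low_of_mem h1 h2 hu
  rcases mem_Kc.1 hu with h4 | h4
  · exact mem_Kc.2 (Or.inl (h4.tail ⟨h3, hv, he⟩))
  · exact mem_Kc.2 (Or.inr (h4.tail ⟨h3, hv, he⟩))

theorem not_miss {s t : E → V} {om op : V} {B : Finset V} {h : V → ℤ} :
    ¬ Miss s t om op B h ↔ ∃ v ∈ Kc s t om op h, v ∈ B := by
  unfold Miss
  push Not
  constructor
  · rintro ⟨v, hv, h1⟩
    refine ⟨v, mem_Kc.2 ?_, hv⟩
    by_cases h2 : Relation.ReflTransGen (lowA s t h) om v
    · exact Or.inl h2
    · exact Or.inr (h1 h2)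
  · rintro ⟨v, h1, hv⟩
    refine ⟨v, hv, fun h2 => ?_⟩
    rcases mem_Kc.1 h1 with h3 | h3
    · exact absurd h3 h2
    · exact h3

theorem pth_of_low {s t : E → V} {om op : V} {h : V → ℤ} {r x : V}
    (hr : r ∈ Kc s t om op h) (hx : Relation.ReflTransGen (lowA s t h) r x) :
    x ∈ Kc s t om op h ∧ Relation.ReflTransGen (pth s t (Kc s t om op h)) r x := by
  induction hx with
  | refl => exact ⟨hr, .refl⟩
  | tail _ hbc ih =>
    rename_i b c _
    have h3 : c ∈ Kc s t om op h := by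
      rcases mem_Kc.1 ih.1 with h4 | h4
      · exact mem_Kc.2 (Or.inl (h4.tail hbc))
      · exact mem_Kc.2 (Or.inr (h4.tail hbc))
    exact ⟨h3, ih.2.tail ⟨ih.1, h3, hbc.2.2⟩⟩

theorem Kc_joined {s t : E → V} {om op : V} {h : V → ℤ} {x : V} (hx : x ∈ Kc s t om op h) :
    Relation.ReflTransGen (pth s t (Kc s t om op h)) om x ∨
      Relation.ReflTransGen (pth s t (Kc s t om op h)) op x := by
  rcases mem_Kc.1 hx with h3 | h3
  · exact Or.inl (pth_of_low (om_mem s t om op h) h3).2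
  · exact Or.inr (pth_of_low (op_mem s t om op h) h3).2

/-- a set together with its neighbours -/
def nb (s t : E → V) (C : Finset V) : Finset V :=
  Finset.univ.filter fun v => v ∈ C ∨ ∃ u ∈ C, ∃ e, (s e = u ∧ t e = v) ∨ (s e = v ∧ t e = u)

theorem mem_nb {s t : E → V} {C : Finset V} {v : V} : v ∈ nb s t C ↔
    v ∈ C ∨ ∃ u ∈ C, ∃ e, (s e = u ∧ t e = v) ∨ (s e = v ∧ t e = u) := by
  simp [nb]

theorem nb_left {s t : E → V} {C : Finset V} {e : E} (h : s e ∈ C ∨ t e ∈ C) :
    s e ∈ nb s t C := by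
  rcases h with h | h
  · exact mem_nb.2 (Or.inl h)
  · exact mem_nb.2 (Or.inr ⟨t e, h, e, Or.inr ⟨rfl, rfl⟩⟩)

theorem nb_right {s t : E → V} {C : Finset V} {e : E} (h : s e ∈ C ∨ t e ∈ C) :
    t e ∈ nb s t C := by
  rcases h with h | h
  · exact mem_nb.2 (Or.inr ⟨s e, h, e, Or.inl ⟨rfl, rfl⟩⟩)
  · exact mem_nb.2 (Or.inl h)

/-- the heights next to the cluster are `1` -/
theorem eq_one {s t : E → V} {om op : V} {h : V → ℤ} (hh : h ∈ HP s t {om, op}) {v : V}
    (hv : v ∈ nb s t (Kc s t om op h)) (hv' : v ∉ Kc s t om op h) : h v = 1 := by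
  have h1 : h om = 0 := hh.1 om (by simp)
  have h2 : h op = 0 := hh.1 op (by simp)
  rcases mem_nb.1 hv with h3 | ⟨u, hu, he⟩
  · exact absurd h3 hv'
  have h4 := low_of_mem h1 h2 hu
  have h5 : ¬ h v ≤ 0 := fun h6 => hv' (mem_of_adj h1 h2 hu h6 he)
  obtain ⟨e, he⟩ := he
  have h6 := abs_le.1 (hh.2 e)
  rcases he with ⟨h7, h8⟩ | ⟨h7, h8⟩
  · rw [h7, h8] at h6
    omega
  · rw [h7, h8] at h6
    omega

/-- the heights outside of `C`, relative to `1` -/
def un (C : Finset V) (h : V → ℤ) (v : V) : ℤ := if v ∈ C then 0 else h v - 1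

/-- the inverse -/
def mk (C : Finset V) (h0 h : V → ℤ) (v : V) : ℤ := if v ∈ C then h0 v else h v + 1

theorem un_mem {s t : E → V} {om op : V} {h : V → ℤ} (hh : h ∈ HP s t {om, op}) :
    un (Kc s t om op h) h ∈ HP s t (nb s t (Kc s t om op h)) := by
  set C := Kc s t om op h with hC
  have h0 : ∀ v ∈ nb s t C, un C h v = 0 := by
    intro v hv
    unfold un
    split_ifs with h1
    · rfl
    · rw [eq_one hh hv h1]
      norm_num
  refine ⟨h0, fun e => ?_⟩
  by_cases h1 : s e ∈ C ∨ t e ∈ C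
  · rw [h0 _ (nb_left h1), h0 _ (nb_right h1)]
    simp
  · push Not at h1
    unfold un
    rw [if_neg h1.1, if_neg h1.2]
    have := hh.2 e
    rwa [show h (t e) - 1 - (h (s e) - 1) = h (t e) - h (s e) by ring]

/-- the fibre: same cluster and same heights on the cluster -/
def fib (s t : E → V) (om op : V) (h0 : V → ℤ) : Set (V → ℤ) :=
  {h | h ∈ HP s t {om, op} ∧ Kc s t om op h = Kc s t om op h0 ∧
    ∀ v ∈ Kc s t om op h0, h v = h0 v}

/-- on the closed neighbourhood of the cluster the heights of the fibre agree -/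
theorem fib_eq {s t : E → V} {om op : V} {h0 h : V → ℤ} (hh0 : h0 ∈ HP s t {om, op})
    (hh : h ∈ fib s t om op h0) {v : V} (hv : v ∈ nb s t (Kc s t om op h0)) : h v = h0 v := by
  by_cases h1 : v ∈ Kc s t om op h0
  · exact hh.2.2 v h1
  · rw [eq_one hh0 hv h1]
    refine eq_one hh.1 ?_ ?_
    · rwa [hh.2.1]
    · rwa [hh.2.1]

theorem mk_mem {s t : E → V} {om op : V} {h0 h : V → ℤ} (hh0 : h0 ∈ HP s t {om, op})
    (hh : h ∈ HP s t (nb s t (Kc s t om op h0))) :
    mk (Kc s t om op h0) h0 h ∈ fib s t om op h0 := by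
  set C := Kc s t om op h0 with hC
  set k := mk C h0 h with hk
  have hom : om ∈ C := om_mem s t om op h0
  have hop : op ∈ C := op_mem s t om op h0
  have hin : ∀ v ∈ C, k v = h0 v := fun v hv => if_pos hv
  have hnb : ∀ v ∈ nb s t C, k v = h0 v := by
    intro v hv
    by_cases h1 : v ∈ C
    · exact hin v h1
    · rw [eq_one hh0 hv h1]
      simp only [hk, mk, if_neg h1]
      rw [hh.1 v hv]
      norm_num
  have hHP : k ∈ HP s t {om, op} := by
    refine ⟨?_, fun e => ?_⟩
    · intro v hv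
      have h1 : v ∈ C := by
        rw [Finset.mem_insert, Finset.mem_singleton] at hv
        rcases hv with rfl | rfl
        · exact hom
        · exact hop
      rw [hin v h1]
      exact hh0.1 v hv
    · by_cases h1 : s e ∈ C ∨ t e ∈ C
      · rw [hnb _ (nb_left h1), hnb _ (nb_right h1)]
        exact hh0.2 e
      · push Not at h1
        simp only [hk, mk, if_neg h1.1, if_neg h1.2]
        have := hh.2 e
        rwa [show h (t e) + 1 - (h (s e) + 1) = h (t e) - h (s e) by ring]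
  refine ⟨hHP, ?_, hin⟩
  have k1 : k om = 0 := hHP.1 om (by simp)
  have k2 : k op = 0 := hHP.1 op (by simp)
  -- the cluster of `k`
  have sub1 : ∀ r ∈ C, ∀ x, Relation.ReflTransGen (lowA s t h0) r x →
      x ∈ C ∧ Relation.ReflTransGen (lowA s t k) r x := by
    intro r hr x hx
    induction hx with
    | refl => exact ⟨hr, .refl⟩
    | tail _ hbc ih =>
      have h3 : _ ∈ C := mem_of_adj (hh0.1 om (by simp)) (hh0.1 op (by simp)) ih.1 hbc.2.1 hbc.2.2
      refine ⟨h3, ih.2.tail ⟨?_, ?_, hbc.2.2⟩⟩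
      · rw [hin _ ih.1]; exact hbc.1
      · rw [hin _ h3]; exact hbc.2.1
  have sub2 : ∀ r ∈ C, ∀ x, Relation.ReflTransGen (lowA s t k) r x → x ∈ C := by
    intro r hr x hx
    induction hx with
    | refl => exact hr
    | tail _ hbc ih =>
      rename_i b c _
      by_contra h3
      have h4 : c ∈ nb s t C := mem_nb.2 (Or.inr ⟨b, ih, hbc.2.2⟩)
      have h5 := hnb c h4
      rw [eq_one hh0 h4 h3] at h5
      have h6 := hbc.2.1
      omega
  ext v
  constructor
  · intro hv
    rcases mem_Kc.1 hv with h3 | h3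
    · exact sub2 om hom v h3
    · exact sub2 op hop v h3
  · intro hv
    rcases mem_Kc.1 hv with h3 | h3
    · exact mem_Kc.2 (Or.inl (sub1 om hom v h3).2)
    · exact mem_Kc.2 (Or.inr (sub1 op hop v h3).2)

theorem un_mk {C : Finset V} {h0 h : V → ℤ} (hC : ∀ v ∈ C, h v = 0) : un C (mk C h0 h) = h := by
  funext v
  unfold un mk
  split_ifs with h1
  · exact (hC v h1).symm
  · ring

theorem mk_un {C : Finset V} {h0 h : V → ℤ} (hC : ∀ v ∈ C, h v = h0 v) : mk C h0 (un C h) = h := by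
  funext v
  by_cases h1 : v ∈ C
  · simp only [mk, if_pos h1]
    exact (hC v h1).symm
  · simp only [mk, un, if_neg h1]
    ring

/-- the weight of the edges which touch the cluster -/
noncomputable def AK (s t : E → V) (β : E → ℝ) (C : Finset V) (h : V → ℤ) : ℝ :=
  ∏ e, if s e ∈ C ∨ t e ∈ C then ker 1 (β e) (h (t e) - h (s e)) else 1

theorem AK_nonneg {s t : E → V} {β : E → ℝ} (hβ : ∀ e, 0 ≤ β e) (C : Finset V) (h : V → ℤ) :
    0 ≤ AK s t β C h := by
  refine Finset.prod_nonneg fun e _ => ?_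
  split_ifs
  · exact ker_nonneg (hβ e) _
  · norm_num

theorem WK_split {s t : E → V} {om op : V} {β : E → ℝ} {h0 h : V → ℤ}
    (hh0 : h0 ∈ HP s t {om, op}) (hh : h ∈ fib s t om op h0) :
    WK s t β h = AK s t β (Kc s t om op h0) h0 * WK s t β (un (Kc s t om op h0) h) := by
  have hun := un_mem hh.1
  rw [hh.2.1] at hun
  set C := Kc s t om op h0 with hC
  unfold WK AK
  rw [← Finset.prod_mul_distrib]
  refine Finset.prod_congr rfl fun e _ => ?_
  by_cases h1 : s e ∈ C ∨ t e ∈ C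
  · rw [if_pos h1, hun.1 _ (nb_left h1), hun.1 _ (nb_right h1), fib_eq hh0 hh (nb_left h1),
      fib_eq hh0 hh (nb_right h1)]
    have : ker 1 (β e) (0 - 0) = 1 := by simp [ker]
    rw [this, mul_one]
  · rw [if_neg h1, one_mul]
    push Not at h1
    unfold un
    rw [if_neg h1.1, if_neg h1.2]
    congr 1
    ring

theorem fib_finite {s t : E → V} {om op : V} (hF : (HP s t {om, op}).Finite) (h0 : V → ℤ) :
    (fib s t om op h0).Finite := hF.subset fun _ h => h.1

/-- sums over the fibre are sums over the heights pinned on the closed neighbourhood -/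
theorem sum_fib {s t : E → V} {om op : V} {h0 : V → ℤ}
    (hh0 : h0 ∈ HP s t {om, op}) (hF1 : (fib s t om op h0).Finite)
    (hF2 : (HP s t (nb s t (Kc s t om op h0))).Finite) (f : (V → ℤ) → ℝ) :
    ∑ h ∈ hF1.toFinset, f (un (Kc s t om op h0) h) = ∑ h ∈ hF2.toFinset, f h := by
  refine Finset.sum_nbij' (fun h => un (Kc s t om op h0) h) (fun h => mk (Kc s t om op h0) h0 h)
    ?_ ?_ ?_ ?_ ?_
  · intro h hh
    rw [Set.Finite.mem_toFinset] at hh ⊢
    have := un_mem hh.1
    rwa [hh.2.1] at this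
  · intro h hh
    rw [Set.Finite.mem_toFinset] at hh ⊢
    exact mk_mem hh0 hh
  · intro h hh
    rw [Set.Finite.mem_toFinset] at hh
    exact mk_un hh.2.2
  · intro h hh
    rw [Set.Finite.mem_toFinset] at hh
    exact un_mk fun v hv => hh.1 v (mem_nb.2 (Or.inl hv))
  · intro h _
    rfl

/-- the hypothesis on the flows -/
def FlowHyp (s t : E → V) (β : E → ℝ) (om op : V) (B : Finset V) (g : V → ℝ) (v lam : ℝ) : Prop :=
  ∀ C : Finset V, om ∈ C → op ∈ C →
    (∀ x ∈ C, Relation.ReflTransGen (fun a b => a ∈ C ∧ b ∈ C ∧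
        ∃ e, (s e = a ∧ t e = b) ∨ (s e = b ∧ t e = a)) om x ∨
      Relation.ReflTransGen (fun a b => a ∈ C ∧ b ∈ C ∧
        ∃ e, (s e = a ∧ t e = b) ∨ (s e = b ∧ t e = a)) op x) →
    (∃ x ∈ C, x ∈ B) →
    ∃ η : E → ℝ, (∀ e, |lam * η e| ≤ 1) ∧ ∑ e, 2 * β e * η e ^ 2 ≤ v ∧
      ∀ x : V → ℝ, (∀ u ∈ C, x u = 0) → ∑ e, η e * (x (t e) - x (s e)) = ∑ u, g u * x u

/-- the inequality on one fibre -/
theorem fib_le {s t : E → V} {om op : V} {B : Finset V} {β : E → ℝ} {g : V → ℝ} {T v lam : ℝ}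
    (hβ : ∀ e, 0 ≤ β e ∧ β e ≤ 1 / 32) (hJ : Joined s t om op ∅) (hg : ∀ u, 0 ≤ g u)
    (hlam : 0 ≤ lam) (hfl : FlowHyp s t β om op B g v lam) {h0 : V → ℤ}
    (hh0 : h0 ∈ HP s t {om, op}) (hB : ∃ x ∈ Kc s t om op h0, x ∈ B)
    (hF1 : (fib s t om op h0).Finite) :
    (∑ h ∈ hF1.toFinset, if T ≤ ∑ u, g u * (h u : ℝ) then WK s t β h else 0) ≤
      Real.exp (lam ^ 2 * v - lam * (T - ∑ u, g u)) * ∑ h ∈ hF1.toFinset, WK s t β h := by
  set C := Kc s t om op h0 with hC
  have h00 := hh0.1 om (by simp)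
  have h01 := hh0.1 op (by simp)
  have hcon : Conn s t (nb s t C) := by
    intro x
    rcases hJ.2.2 x (by simp) with h1 | h1
    · exact ⟨om, mem_nb.2 (Or.inl (om_mem s t om op h0)), h1⟩
    · exact ⟨op, mem_nb.2 (Or.inl (op_mem s t om op h0)), h1⟩
  have hF2 := HP.finite hcon
  obtain ⟨η, hη1, hη2, hη3⟩ := hfl C (om_mem s t om op h0) (op_mem s t om op h0)
    (fun x hx => Kc_joined hx) hB
  set A := AK s t β C h0 with hA
  have hA0 : 0 ≤ A := AK_nonneg (fun e => (hβ e).1) _ _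
  set c1 := Real.exp (lam * (∑ u, g u - T)) with hc1
  -- the total of the fibre
  have e1 : ∑ h ∈ hF1.toFinset, WK s t β h = A * ∑ h ∈ hF2.toFinset, WK s t β h := by
    rw [← sum_fib hh0 hF1 hF2 (fun h => WK s t β h), Finset.mul_sum]
    refine Finset.sum_congr rfl fun h hh => ?_
    rw [Set.Finite.mem_toFinset] at hh
    exact WK_split hh0 hh
  -- pointwise bound
  have e2 : (∑ h ∈ hF1.toFinset, if T ≤ ∑ u, g u * (h u : ℝ) then WK s t β h else 0) ≤
      ∑ h ∈ hF1.toFinset, c1 * A * (WK s t β (un C h) *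
        Real.exp (lam * ∑ u, g u * (un C h u : ℝ))) := by
    refine Finset.sum_le_sum fun h hh => ?_
    rw [Set.Finite.mem_toFinset] at hh
    have hW := WK_split (β := β) hh0 hh
    rw [← hC, ← hA] at hW
    have hWn := WK_nonneg (s := s) (t := t) (β := β) (fun e => (hβ e).1) (un C h)
    split_ifs with hT
    · have h2 : ∑ u, g u * (h u : ℝ) ≤ ∑ u, g u + ∑ u, g u * (un C h u : ℝ) := by
        rw [← Finset.sum_add_distrib]
        refine Finset.sum_le_sum fun u _ => ?_
        by_cases hu : u ∈ C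
        · have h3 : h u ≤ 0 := by
            rw [hh.2.2 u hu]
            exact low_of_mem h00 h01 hu
          have h4 : (h u : ℝ) ≤ 0 := by exact_mod_cast h3
          have h5 : (un C h u : ℝ) = 0 := by
            unfold un
            rw [if_pos hu]
            simp
          rw [h5]
          nlinarith [hg u]
        · have h5 : (un C h u : ℝ) = h u - 1 := by
            unfold un
            rw [if_neg hu]
            push_cast
            ring
          rw [h5]
          linarith [hg u]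
      have h3 : 0 ≤ lam * (∑ u, g u - T) + lam * ∑ u, g u * (un C h u : ℝ) := by
        rw [← mul_add]
        exact mul_nonneg hlam (by linarith)
      have h4 : 1 ≤ c1 * Real.exp (lam * ∑ u, g u * (un C h u : ℝ)) := by
        rw [hc1, ← Real.exp_add]
        exact Real.one_le_exp h3
      rw [hW]
      calc A * WK s t β (un C h) = A * WK s t β (un C h) * 1 := by ring
        _ ≤ A * WK s t β (un C h) * (c1 * Real.exp (lam * ∑ u, g u * (un C h u : ℝ))) :=
          mul_le_mul_of_nonneg_left h4 (mul_nonneg hA0 hWn)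
        _ = _ := by ring
    · have := Real.exp_pos (lam * ∑ u, g u * (un C h u : ℝ))
      have h6 := Real.exp_pos (lam * (∑ u, g u - T))
      positivity
  have e3 : ∑ h ∈ hF1.toFinset, c1 * A * (WK s t β (un C h) *
        Real.exp (lam * ∑ u, g u * (un C h u : ℝ))) =
      c1 * A * ∑ h ∈ hF2.toFinset, WK s t β h *
        Real.exp (∑ e, lam * η e * ((h (t e) : ℝ) - h (s e))) := by
    rw [← Finset.mul_sum, sum_fib hh0 hF1 hF2 (fun h => WK s t β h *
        Real.exp (lam * ∑ u, g u * (h u : ℝ)))]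
    congr 1
    refine Finset.sum_congr rfl fun h hh => ?_
    rw [Set.Finite.mem_toFinset] at hh
    have h7 := hη3 (fun u => (h u : ℝ)) fun u hu => by
      have := hh.1 u (mem_nb.2 (Or.inl hu))
      simp [this]
    rw [← h7, Finset.mul_sum]
    congr 2
    refine Finset.sum_congr rfl fun e _ => ?_
    ring
  have e4 := exp_le (η := fun e => lam * η e) hcon hF2 (fun e => (hβ e).1) (fun e => (hβ e).2)
    (fun e => hη1 e)
  have e5 : ∑ e, 2 * β e * (lam * η e) ^ 2 ≤ lam ^ 2 * v := by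
    have : ∑ e, 2 * β e * (lam * η e) ^ 2 = lam ^ 2 * ∑ e, 2 * β e * η e ^ 2 := by
      rw [Finset.mul_sum]
      refine Finset.sum_congr rfl fun e _ => ?_
      ring
    rw [this]
    exact mul_le_mul_of_nonneg_left hη2 (sq_nonneg _)
  have hS : 0 ≤ ∑ h ∈ hF2.toFinset, WK s t β h :=
    Finset.sum_nonneg fun h _ => WK_nonneg (fun e => (hβ e).1) _
  have hc1p : 0 < c1 := Real.exp_pos _
  calc _ ≤ _ := e2
    _ = _ := e3
    _ ≤ c1 * A * (Real.exp (lam ^ 2 * v) * ∑ h ∈ hF2.toFinset, WK s t β h) := by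
      refine mul_le_mul_of_nonneg_left ?_ (by positivity)
      refine e4.trans (mul_le_mul_of_nonneg_right (Real.exp_le_exp.2 e5) hS)
    _ = _ := by
      rw [e1, hc1, show lam ^ 2 * v - lam * (T - ∑ u, g u) =
        lam * (∑ u, g u - T) + lam ^ 2 * v by ring, Real.exp_add]
      ring

/-- sums over sets of pinned heights are finite sums -/
theorem tsum_eq {s t : E → V} {om op : V} (hF : (HP s t {om, op}).Finite) (β : E → ℝ)
    (Q : (V → ℤ) → Prop) [DecidablePred Q] (hQ : ∀ h, Q h → h om = 0 ∧ h op = 0) :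
    ∑' h : {h : V → ℤ // Q h}, WK s t β h.1 = ∑ h ∈ hF.toFinset.filter Q, WK s t β h := by
  have h1 := tsum_subtype {h : V → ℤ | Q h} (fun h => WK s t β h)
  have h2 : ∑' h : {h : V → ℤ // Q h}, WK s t β h.1 =
      ∑' h : ({h : V → ℤ | Q h} : Set (V → ℤ)), WK s t β h := rfl
  rw [h2, h1, tsum_eq_sum (s := hF.toFinset.filter Q)]
  · refine Finset.sum_congr rfl fun h hh => ?_
    rw [Finset.mem_filter] at hh
    exact Set.indicator_of_mem (show h ∈ {h : V → ℤ | Q h} from hh.2) _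
  · intro h hh
    by_cases h3 : Q h
    · rw [Set.indicator_of_mem (show h ∈ {h : V → ℤ | Q h} from h3)]
      by_contra h4
      refine hh (Finset.mem_filter.2 ⟨(Set.Finite.mem_toFinset _).2 ⟨?_, fun e => WK_ne h4 e⟩, h3⟩)
      intro v hv
      rw [Finset.mem_insert, Finset.mem_singleton] at hv
      rcases hv with rfl | rfl
      · exact (hQ h h3).1
      · exact (hQ h h3).2
    · exact Set.indicator_of_notMem (show h ∉ {h : V → ℤ | Q h} from h3) _

end

/-- row (b') -/
def StmtCheb : Prop :=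
  ∀ (V E : Type) [Fintype V] [DecidableEq V] [Fintype E] [DecidableEq E] (s t : E → V)
    (β : E → ℝ) (om op : V) (B : Finset V) (g : V → ℝ) (T v lam : ℝ),
    (∀ e, 0 ≤ β e ∧ β e ≤ 1 / 32) → Joined s t om op ∅ → (∀ u, 0 ≤ g u) → 0 ≤ lam →
    FlowHyp s t β om op B g v lam →
    ∑' h : {h : V → ℤ // h om = 0 ∧ h op = 0 ∧ ¬ Miss s t om op B h ∧ T ≤ ∑ u, g u * (h u : ℝ)},
      ∏ e, ker 1 (β e) (h.1 (t e) - h.1 (s e)) ≤
      Real.exp (lam ^ 2 * v - lam * (T - ∑ u, g u)) * ZS s t (fun e => ker 1 (β e)) om op ∅ 0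

/-- the exploration bound -/
theorem cheb : StmtCheb := by
  intro V E _ _ _ _ s t β om op B g T v lam hβ hJ hg hlam hfl
  classical
  have hcon : Conn s t ({om, op} : Finset V) := by
    intro x
    rcases hJ.2.2 x (by simp) with h1 | h1
    · exact ⟨om, by simp, h1⟩
    · exact ⟨op, by simp, h1⟩
  have hF := HP.finite hcon
  set c := Real.exp (lam ^ 2 * v - lam * (T - ∑ u, g u)) with hc
  have e1 := tsum_eq hF β (fun h => h om = 0 ∧ h op = 0 ∧ ¬ Miss s t om op B h ∧
    T ≤ ∑ u, g u * (h u : ℝ)) (fun h hh => ⟨hh.1, hh.2.1⟩)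
  have e2 := tsum_eq hF β (fun h => h om = 0 ∧ h op = 0 ∧ ∀ v ∈ (∅ : Finset V), h v = 0)
    (fun h hh => ⟨hh.1, hh.2.1⟩)
  have e3 : ZS s t (fun e => ker 1 (β e)) om op ∅ 0 =
      ∑' h : {h : V → ℤ // h om = 0 ∧ h op = 0 ∧ ∀ v ∈ (∅ : Finset V), h v = 0},
        WK s t β h.1 := by
    unfold ZS WK
    simp
  rw [e3, e2]
  refine le_of_eq_of_le e1 ?_
  -- pinned heights
  have pin : ∀ h ∈ hF.toFinset, h om = 0 ∧ h op = 0 := by
    intro h hh
    rw [Set.Finite.mem_toFinset] at hh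
    exact ⟨hh.1 om (by simp), hh.1 op (by simp)⟩
  set H := hF.toFinset with hH
  set HB := H.filter (fun h => ∃ x ∈ Kc s t om op h, x ∈ B) with hHB
  set Φ : (V → ℤ) → Finset V × (V → ℤ) := fun h =>
    (Kc s t om op h, fun v => if v ∈ Kc s t om op h then h v else 0) with hΦ
  have hΦe : ∀ h0 ∈ HB, HB.filter (fun h => Φ h = Φ h0) =
      (fib_finite hF h0).toFinset := by
    intro h0 hh0
    ext h
    rw [Finset.mem_filter, Set.Finite.mem_toFinset]
    constructor
    · rintro ⟨h1, h2⟩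
      have h3 : Kc s t om op h = Kc s t om op h0 := congrArg Prod.fst h2
      refine ⟨(Set.Finite.mem_toFinset _).1 (Finset.mem_filter.1 h1).1, h3, fun v hv => ?_⟩
      have h4 : (if v ∈ Kc s t om op h then h v else 0) =
          if v ∈ Kc s t om op h0 then h0 v else 0 := congrFun (congrArg Prod.snd h2) v
      rwa [h3, if_pos hv, if_pos hv] at h4
    · rintro ⟨h1, h2, h3⟩
      refine ⟨Finset.mem_filter.2 ⟨(Set.Finite.mem_toFinset _).2 h1, ?_⟩, ?_⟩
      · rw [h2]
        exact (Finset.mem_filter.1 hh0).2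
      · simp only [hΦ]
        rw [h2]
        congr 1
        funext v
        split_ifs with h4
        · exact h3 v h4
        · rfl
  have e4 : (H.filter fun h => h om = 0 ∧ h op = 0 ∧ ¬ Miss s t om op B h ∧
      T ≤ ∑ u, g u * (h u : ℝ)) = HB.filter fun h => T ≤ ∑ u, g u * (h u : ℝ) := by
    ext h
    simp only [hHB, Finset.mem_filter]
    constructor
    · rintro ⟨h1, _, _, h4, h5⟩
      exact ⟨⟨h1, not_miss.1 h4⟩, h5⟩
    · rintro ⟨⟨h1, h4⟩, h5⟩
      exact ⟨h1, (pin h h1).1, (pin h h1).2, not_miss.2 h4, h5⟩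
  have e5 : (H.filter fun h => h om = 0 ∧ h op = 0 ∧ ∀ v ∈ (∅ : Finset V), h v = 0) = H := by
    refine Finset.filter_true_of_mem fun h hh => ⟨(pin h hh).1, (pin h hh).2, by simp⟩
  rw [e4, e5, Finset.sum_filter]
  have hmap : ∀ h ∈ HB, Φ h ∈ HB.image Φ := fun h hh => Finset.mem_image_of_mem _ hh
  calc (∑ h ∈ HB, if T ≤ ∑ u, g u * (h u : ℝ) then WK s t β h else 0)
      = ∑ φ ∈ HB.image Φ, ∑ h ∈ HB.filter (fun h => Φ h = φ),
          (if T ≤ ∑ u, g u * (h u : ℝ) then WK s t β h else 0) :=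
        (Finset.sum_fiberwise_of_maps_to hmap _).symm
    _ ≤ ∑ φ ∈ HB.image Φ, c * ∑ h ∈ HB.filter (fun h => Φ h = φ), WK s t β h := by
        refine Finset.sum_le_sum fun φ hφ => ?_
        obtain ⟨h0, hh0, rfl⟩ := Finset.mem_image.1 hφ
        rw [hΦe h0 hh0]
        rw [hHB, Finset.mem_filter] at hh0
        exact fib_le hβ hJ hg hlam hfl ((Set.Finite.mem_toFinset _).1 hh0.1) hh0.2 _
    _ = c * ∑ h ∈ HB, WK s t β h := by
        rw [← Finset.mul_sum, Finset.sum_fiberwise_of_maps_to hmap]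
    _ ≤ c * ∑ h ∈ H, WK s t β h := by
        refine mul_le_mul_of_nonneg_left ?_ (Real.exp_pos _).le
        exact Finset.sum_le_sum_of_subset_of_nonneg (Finset.filter_subset _ _)
          fun h _ _ => WK_nonneg (fun e => (hβ e).1) h

end Vale.Agent.P159.T1.H568
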