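import Vale.Agent.P159.T1.D.Defs
import Vale.Agent.P159.Bdl.B4

/-!
Characters of sites and of bonds of `ℤ²` (row StmtU).
-/

set_option linter.all false
set_option autoImplicit false

open MeasureTheory Filter Topology
open scoped BigOperators

namespace Vale.Agent.P159.T1.H568

open Vale.Agent.P159 Vale.Agent.P159.T1.D

/-- the character `exp (i t)` of the circle -/
noncomputable def ee (t : T) : ℂ := (cosT t : ℂ) + (sinT t : ℂ) * Complex.I

theorem ee_add (a b : T) : ee (a + b) = ee a * ee b := by
  unfold ee
  rw [show cosT (a + b) = cosT a * cosT b - sinT a * sinT b from Real.Angle.cos_add _ _,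
    show sinT (a + b) = sinT a * cosT b + cosT a * sinT b from Real.Angle.sin_add _ _]
  push_cast
  linear_combination (-(sinT a : ℂ) * sinT b) * Complex.I_sq

theorem ee_zero : ee 0 = 1 := by
  unfold ee
  rw [cosT_zero, sinT_zero]
  simp

theorem ee_sum {ι : Type*} (s : Finset ι) (f : ι → T) : ee (∑ i ∈ s, f i) = ∏ i ∈ s, ee (f i) := by
  classical
  induction s using Finset.induction_on with
  | empty => rw [Finset.sum_empty, Finset.prod_empty, ee_zero]
  | insert a s ha ih => rw [Finset.sum_insert ha, Finset.prod_insert ha, ee_add, ih]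

/-- the character `exp (i ∑ q v x v)` -/
noncomputable def chq (V : Finset Z2) (q : Z2 → ℤ) : Chr Ginf where
  c x := cosT (∑ v ∈ V, q v • x v)
  s x := sinT (∑ v ∈ V, q v • x v)
  cont_c := cont_cos.comp (continuous_finset_sum _ fun v _ => (continuous_apply v).zsmul (q v))
  cont_s := cont_sin.comp (continuous_finset_sum _ fun v _ => (continuous_apply v).zsmul (q v))
  c_add x y := by
    have : ∑ v ∈ V, q v • (x + y) v = ∑ v ∈ V, q v • x v + ∑ v ∈ V, q v • y v := by
      rw [← Finset.sum_add_distrib]
      exact Finset.sum_congr rfl fun v _ => by rw [Pi.add_apply, zsmul_add]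
    rw [this]
    exact Real.Angle.cos_add _ _
  s_add x y := by
    have : ∑ v ∈ V, q v • (x + y) v = ∑ v ∈ V, q v • x v + ∑ v ∈ V, q v • y v := by
      rw [← Finset.sum_add_distrib]
      exact Finset.sum_congr rfl fun v _ => by rw [Pi.add_apply, zsmul_add]
    rw [this]
    exact Real.Angle.sin_add _ _
  norm_sq x := Real.Angle.cos_sq_add_sin_sq _

theorem chq_e (V : Finset Z2) (q : Z2 → ℤ) (x : Ginf) :
    (chq V q).e x = ∏ v ∈ V, ee (q v • x v) := by
  rw [← ee_sum]
  rfl

/-- the character of a bond -/
noncomputable def gB (e : Bnd) : Chr Ginf := grad (bs e) (bt e)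

end Vale.Agent.P159.T1.H568
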