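import Vale.Agent.P159.T1.H254.UWDefs
import Mathlib.Analysis.SpecialFunctions.Complex.CircleAddChar

/-!
# Duality for sums over heights with values in `ZMod M` and an exponential bound

For the unit step kernel `1 + β (δ_1 + δ_{-1})` on the edges of a finite graph, heights pinned to
`0` on a set `P`, and every `η : E → ℝ` with `|η e| ≤ 1`,
`∑_h exp (∑ e, η e (dh) e) W h ≤ exp (∑ e, 2 β e η e ^ 2) ∑_h W h`.
-/

set_option autoImplicit false

open Finset

namespace Vale.Agent.P159.T1.H568

section dual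

variable {V E : Type} [Fintype V] [DecidableEq V] [Fintype E] [DecidableEq E] {M : ℕ} [NeZero M]

/-- the divergence -/
def dv (s t : E → V) (κ : E → ZMod M) (v : V) : ZMod M :=
  (∑ e, if t e = v then κ e else 0) - ∑ e, if s e = v then κ e else 0

theorem sum_dv (s t : E → V) (κ : E → ZMod M) (h : V → ZMod M) :
    ∑ e, κ e * (h (t e) - h (s e)) = ∑ v, h v * dv s t κ v := by
  have h1 : ∀ r : E → V, ∑ v, h v * ∑ e, (if r e = v then κ e else 0) = ∑ e, κ e * h (r e) := by
    intro r
    simp only [Finset.mul_sum]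
    rw [Finset.sum_comm]
    refine Finset.sum_congr rfl fun e _ => ?_
    simp only [mul_ite, mul_zero]
    rw [Finset.sum_ite_eq Finset.univ (r e) (fun v => h v * κ e)]
    simp [mul_comm]
  unfold dv
  simp only [mul_sub, Finset.sum_sub_distrib]
  rw [h1, h1]

/-- the standard character -/
noncomputable def chi (x : ZMod M) : ℂ := ZMod.stdAddChar x

theorem chi_add (x y : ZMod M) : chi (x + y) = chi x * chi y :=
  AddChar.map_add_eq_mul _ _ _

theorem chi_zero : chi (0 : ZMod M) = 1 := AddChar.map_zero_eq_one _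

theorem chi_sum {ι : Type} (S : Finset ι) (f : ι → ZMod M) :
    chi (∑ i ∈ S, f i) = ∏ i ∈ S, chi (f i) := by
  classical
  induction S using Finset.induction_on with
  | empty => simp [chi_zero]
  | insert a S ha ih => rw [Finset.sum_insert ha, Finset.prod_insert ha, chi_add, ih]

theorem sum_chi (b : ZMod M) : ∑ x : ZMod M, chi (x * b) = if b = 0 then (M : ℂ) else 0 := by
  have h := AddChar.sum_mulShift b (ZMod.isPrimitive_stdAddChar M)
  rw [ZMod.card] at h
  unfold chi
  rw [h]
  split_ifs <;> simp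

theorem norm_chi (x : ZMod M) : ‖chi x‖ = 1 := AddChar.norm_apply _ _

theorem chi_neg (x : ZMod M) : chi (-x) = (starRingEnd ℂ) (chi x) :=
  AddChar.map_neg_eq_conj _ _

/-- orthogonality for the pinned heights -/
theorem sum_pinned (P : Finset V) (d : V → ZMod M) :
    (∑ h : V → ZMod M, if ∀ v ∈ P, h v = 0 then chi (∑ v, h v * d v) else 0) =
      if ∀ v ∉ P, d v = 0 then (M : ℂ) ^ (Pᶜ).card else 0 := by
  have h1 : ∀ h : V → ZMod M, (if ∀ v ∈ P, h v = 0 then chi (∑ v, h v * d v) else 0) =
      ∏ v, (if v ∈ P then (if h v = 0 then (1 : ℂ) else 0) else chi (h v * d v)) := by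
    intro h
    split_ifs with hh
    · rw [chi_sum]
      refine Finset.prod_congr rfl fun v _ => ?_
      by_cases hv : v ∈ P
      · rw [if_pos hv, if_pos (hh v hv), hh v hv, zero_mul, chi_zero]
      · rw [if_neg hv]
    · push Not at hh
      obtain ⟨v, hv, hv0⟩ := hh
      symm
      refine Finset.prod_eq_zero (Finset.mem_univ v) ?_
      rw [if_pos hv, if_neg hv0]
  rw [Finset.sum_congr rfl fun h _ => h1 h]
  have h2 := Finset.prod_univ_sum (fun _ : V => (Finset.univ : Finset (ZMod M)))
    (fun (v : V) (x : ZMod M) => (if v ∈ P then (if x = 0 then (1 : ℂ) else 0) else chi (x * d v)))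
  rw [Fintype.piFinset_univ] at h2
  rw [← h2]
  have h3 : ∀ v : V, (∑ x : ZMod M, (if v ∈ P then (if x = 0 then (1 : ℂ) else 0)
      else chi (x * d v))) = if v ∈ P then 1 else (if d v = 0 then (M : ℂ) else 0) := by
    intro v
    by_cases hv : v ∈ P
    · simp [hv]
    · simp only [hv, if_false]
      exact sum_chi _
  rw [Finset.prod_congr rfl fun v _ => h3 v]
  split_ifs with hd
  · rw [← Finset.prod_mul_prod_compl P]
    have e1 : (∏ v ∈ P, (if v ∈ P then (1 : ℂ) else (if d v = 0 then (M : ℂ) else 0))) = 1 :=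
      Finset.prod_eq_one fun v hv => by rw [if_pos hv]
    have e2 : (∏ v ∈ Pᶜ, (if v ∈ P then (1 : ℂ) else (if d v = 0 then (M : ℂ) else 0))) =
        ∏ v ∈ Pᶜ, (M : ℂ) :=
      Finset.prod_congr rfl fun v hv => by
        have hv' : v ∉ P := by simpa using hv
        rw [if_neg hv', if_pos (hd v hv')]
    rw [e1, e2, one_mul, Finset.prod_const]
  · push Not at hd
    obtain ⟨v, hv, hv0⟩ := hd
    refine Finset.prod_eq_zero (Finset.mem_univ v) ?_
    rw [if_neg hv, if_neg hv0]

/-- orthogonality on the edges -/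
theorem sum_edges (n m : E → ZMod M) :
    (∑ κ : E → ZMod M, chi (∑ e, κ e * (n e - m e))) =
      if n = m then (M : ℂ) ^ (Fintype.card E) else 0 := by
  have h := sum_pinned (V := E) (∅ : Finset E) (fun e => n e - m e)
  simp only [Finset.notMem_empty, false_imp_iff, implies_true, if_true, not_false_eq_true,
    true_imp_iff, Finset.compl_empty, Finset.card_univ] at h
  rw [h]
  congr 1
  refine propext ⟨fun h1 => funext fun e => sub_eq_zero.1 (h1 e), fun h1 e => ?_⟩
  rw [h1, sub_self]

/-- **duality** -/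
theorem duality (s t : E → V) (P : Finset V) (F : (E → ZMod M) → ℂ) :
    (∑ h : V → ZMod M, if ∀ v ∈ P, h v = 0 then F (fun e => h (t e) - h (s e)) else 0) =
      (M : ℂ) ^ (Pᶜ).card / (M : ℂ) ^ (Fintype.card E) *
        ∑ κ : E → ZMod M, if ∀ v ∉ P, dv s t κ v = 0 then
          ∑ m : E → ZMod M, F m * chi (-∑ e, κ e * m e) else 0 := by
  have hM : (M : ℂ) ≠ 0 := Nat.cast_ne_zero.2 (NeZero.ne M)
  have hME : (M : ℂ) ^ (Fintype.card E) ≠ 0 := pow_ne_zero _ hM
  have h1 : ∀ n : E → ZMod M, F n = ((M : ℂ) ^ (Fintype.card E))⁻¹ *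
      ∑ κ : E → ZMod M, ∑ m : E → ZMod M, F m * (chi (∑ e, κ e * n e) * chi (-∑ e, κ e * m e)) := by
    intro n
    rw [Finset.sum_comm]
    have h2 : ∀ m : E → ZMod M, ∑ κ : E → ZMod M,
        F m * (chi (∑ e, κ e * n e) * chi (-∑ e, κ e * m e)) =
        if n = m then F m * (M : ℂ) ^ (Fintype.card E) else 0 := by
      intro m
      rw [← Finset.mul_sum]
      have h3 : ∀ κ : E → ZMod M, chi (∑ e, κ e * n e) * chi (-∑ e, κ e * m e) =
          chi (∑ e, κ e * (n e - m e)) := by
        intro κ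
        rw [← chi_add]
        congr 1
        simp only [mul_sub, Finset.sum_sub_distrib]
        ring
      rw [Finset.sum_congr rfl fun κ _ => h3 κ, sum_edges]
      split_ifs <;> simp
    rw [Finset.sum_congr rfl fun m _ => h2 m, Finset.sum_ite_eq]
    simp only [Finset.mem_univ, if_true]
    field_simp
  have h2 : ∀ h : V → ZMod M,
      (if ∀ v ∈ P, h v = 0 then F (fun e => h (t e) - h (s e)) else 0) =
      ((M : ℂ) ^ (Fintype.card E))⁻¹ * ∑ κ : E → ZMod M,
        (∑ m : E → ZMod M, F m * chi (-∑ e, κ e * m e)) *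
          (if ∀ v ∈ P, h v = 0 then chi (∑ v, h v * dv s t κ v) else 0) := by
    intro h
    split_ifs with hh
    · rw [h1]
      congr 1
      refine Finset.sum_congr rfl fun κ _ => ?_
      rw [Finset.sum_mul, ← sum_dv]
      refine Finset.sum_congr rfl fun m _ => ?_
      ring
    · simp
  rw [Finset.sum_congr rfl fun h _ => h2 h, ← Finset.mul_sum, Finset.sum_comm]
  have h3 : ∀ κ : E → ZMod M, ∑ h : V → ZMod M,
      (∑ m : E → ZMod M, F m * chi (-∑ e, κ e * m e)) *
          (if ∀ v ∈ P, h v = 0 then chi (∑ v, h v * dv s t κ v) else 0) =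
      (M : ℂ) ^ (Pᶜ).card * (if ∀ v ∉ P, dv s t κ v = 0 then
          ∑ m : E → ZMod M, F m * chi (-∑ e, κ e * m e) else 0) := by
    intro κ
    rw [← Finset.mul_sum, sum_pinned]
    split_ifs
    · ring
    · ring
  rw [Finset.sum_congr rfl fun κ _ => h3 κ, ← Finset.mul_sum]
  field_simp

/-- the transform of a product -/
theorem prod_transform (u : E → ZMod M → ℂ) (κ : E → ZMod M) :
    (∑ m : E → ZMod M, (∏ e, u e (m e)) * chi (-∑ e, κ e * m e)) =
      ∏ e, ∑ n : ZMod M, u e n * chi (-(κ e * n)) := by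
  have h2 := Finset.prod_univ_sum (fun _ : E => (Finset.univ : Finset (ZMod M)))
    (fun (e : E) (x : ZMod M) => u e x * chi (-(κ e * x)))
  rw [Fintype.piFinset_univ] at h2
  rw [h2]
  refine Finset.sum_congr rfl fun m _ => ?_
  rw [Finset.prod_mul_distrib, ← chi_sum, Finset.sum_neg_distrib]

end dual

end Vale.Agent.P159.T1.H568
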