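import Vale.Agent.P159.T1.H568.Dual
import Mathlib.Analysis.SpecialFunctions.Trigonometric.Series

/-!
# The exponential bound for the unit step kernel, heights in `ZMod M`
-/

set_option autoImplicit false

open Finset

namespace Vale.Agent.P159.T1.H568

/-- elementary bound for the transform of the tilted kernel -/
theorem normSq_bound {β η x y : ℝ} (hβ0 : 0 ≤ β) (hβ : β ≤ 1 / 32) (hη : |η| ≤ 1)
    (hxy : x ^ 2 + y ^ 2 = 1) :
    (1 + 2 * β * x * Real.cosh η) ^ 2 + (2 * β * y * Real.sinh η) ^ 2 ≤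
      (1 + 2 * β * x) ^ 2 * Real.exp (4 * β * η ^ 2) := by
  have hη2 : η ^ 2 ≤ 1 := by
    rw [← sq_abs]
    nlinarith [abs_nonneg η]
  have hc1 : 1 ≤ Real.cosh η := Real.one_le_cosh η
  have hc : Real.cosh η ≤ 1 + 3 / 4 * η ^ 2 := by
    have h1 := Real.cosh_le_exp_half_sq η
    have h2 : Real.exp (η ^ 2 / 2) ≤ 1 + η ^ 2 / 2 + (η ^ 2 / 2) ^ 2 := by
      have h3 := Real.abs_exp_sub_one_sub_id_le (x := η ^ 2 / 2) (by
        rw [abs_of_nonneg (by positivity)]; linarith)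
      have h4 := (abs_le.1 h3).2
      linarith
    nlinarith [sq_nonneg η]
  have hs : Real.sinh η ^ 2 = Real.cosh η ^ 2 - 1 := by
    have := Real.cosh_sq η
    linarith
  have hx : |x| ≤ 1 := by
    rw [← sq_le_one_iff_abs_le_one]
    nlinarith [sq_nonneg y]
  have hx1 := (abs_le.1 hx).1
  have hx2 := (abs_le.1 hx).2
  have e1 : (1 + 2 * β * x * Real.cosh η) ^ 2 + (2 * β * y * Real.sinh η) ^ 2 =
      (1 + 2 * β * x) ^ 2 + 4 * β * (Real.cosh η - 1) * (x + β * (Real.cosh η + 1)) := by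
    have : (2 * β * y * Real.sinh η) ^ 2 = 4 * β ^ 2 * (1 - x ^ 2) * (Real.cosh η ^ 2 - 1) := by
      rw [← hs, ← hxy]; ring
    rw [this]; ring
  have hpos : (7 / 8 : ℝ) ≤ (1 + 2 * β * x) ^ 2 := by
    have h1 : (15 / 16 : ℝ) ≤ 1 + 2 * β * x := by nlinarith
    nlinarith
  have h2 : x + β * (Real.cosh η + 1) ≤ 7 / 6 := by
    nlinarith
  have h3 : 4 * β * (Real.cosh η - 1) * (x + β * (Real.cosh η + 1)) ≤
      (1 + 2 * β * x) ^ 2 * (4 * β * η ^ 2) := by
    have h4 : (Real.cosh η - 1) * (x + β * (Real.cosh η + 1)) ≤ 3 / 4 * η ^ 2 * (7 / 6) := by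
      rcases le_or_gt 0 (x + β * (Real.cosh η + 1)) with h5 | h5
      · exact mul_le_mul (by linarith) h2 h5 (by positivity)
      · have : (Real.cosh η - 1) * (x + β * (Real.cosh η + 1)) ≤ 0 :=
          mul_nonpos_of_nonneg_of_nonpos (by linarith) h5.le
        nlinarith [sq_nonneg η]
    have h6 : 3 / 4 * η ^ 2 * (7 / 6) ≤ (1 + 2 * β * x) ^ 2 * η ^ 2 := by
      nlinarith [sq_nonneg η]
    calc 4 * β * (Real.cosh η - 1) * (x + β * (Real.cosh η + 1)) =
        4 * β * ((Real.cosh η - 1) * (x + β * (Real.cosh η + 1))) := by ring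
      _ ≤ 4 * β * ((1 + 2 * β * x) ^ 2 * η ^ 2) :=
        mul_le_mul_of_nonneg_left (h4.trans h6) (by positivity)
      _ = _ := by ring
  have h7 : 1 + 4 * β * η ^ 2 ≤ Real.exp (4 * β * η ^ 2) := by
    have := Real.add_one_le_exp (4 * β * η ^ 2)
    linarith
  calc (1 + 2 * β * x * Real.cosh η) ^ 2 + (2 * β * y * Real.sinh η) ^ 2
      ≤ (1 + 2 * β * x) ^ 2 * (1 + 4 * β * η ^ 2) := by rw [e1]; nlinarith
    _ ≤ _ := mul_le_mul_of_nonneg_left h7 (sq_nonneg _)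

section

variable {M : ℕ} [NeZero M]

/-- the tilted unit step kernel on `ZMod M` -/
noncomputable def uM (β η : ℝ) (n : ZMod M) : ℝ :=
  (if n = 0 then 1 else 0) + (if n = 1 then β * Real.exp η else 0) +
    (if n = -1 then β * Real.exp (-η) else 0)

theorem uM_nonneg {β η : ℝ} (hβ : 0 ≤ β) (n : ZMod M) : 0 ≤ uM β η n := by
  unfold uM
  have h1 : 0 ≤ β * Real.exp η := mul_nonneg hβ (Real.exp_pos _).le
  have h2 : 0 ≤ β * Real.exp (-η) := mul_nonneg hβ (Real.exp_pos _).le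
  refine add_nonneg (add_nonneg ?_ ?_) ?_ <;> split_ifs <;> first | exact le_rfl | assumption | norm_num

theorem uM_transform (β η : ℝ) (κ : ZMod M) :
    (∑ n : ZMod M, ((uM β η n : ℝ) : ℂ) * chi (-(κ * n))) =
      1 + β * (Real.exp η * chi (-κ) + Real.exp (-η) * chi κ) := by
  have h1 : ∀ n : ZMod M, ((uM β η n : ℝ) : ℂ) * chi (-(κ * n)) =
      (if n = 0 then chi (-(κ * n)) else 0) +
        (if n = 1 then (β * Real.exp η : ℂ) * chi (-(κ * n)) else 0) +
        (if n = -1 then (β * Real.exp (-η) : ℂ) * chi (-(κ * n)) else 0) := by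
    intro n
    unfold uM
    push_cast
    split_ifs <;> push_cast <;> ring
  rw [Finset.sum_congr rfl fun n _ => h1 n, Finset.sum_add_distrib, Finset.sum_add_distrib,
    Finset.sum_ite_eq', Finset.sum_ite_eq', Finset.sum_ite_eq']
  simp only [Finset.mem_univ, if_true, mul_zero, neg_zero, chi_zero, mul_one, mul_neg, neg_neg]
  ring

theorem transform_eq (β η : ℝ) (κ : ZMod M) :
    (1 + β * (Real.exp η * chi (-κ) + Real.exp (-η) * chi κ) : ℂ) =
      ((1 + 2 * β * (chi κ).re * Real.cosh η : ℝ) : ℂ) +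
        ((-(2 * β * (chi κ).im * Real.sinh η) : ℝ) : ℂ) * Complex.I := by
  rw [chi_neg, Real.cosh_eq, Real.sinh_eq]
  apply Complex.ext
  · simp
    ring
  · simp
    ring

theorem re_sq_add_im_sq (κ : ZMod M) : (chi κ).re ^ 2 + (chi κ).im ^ 2 = 1 := by
  have h := norm_chi κ
  have h2 : ‖chi κ‖ ^ 2 = (chi κ).re ^ 2 + (chi κ).im ^ 2 := by
    rw [← Complex.normSq_eq_norm_sq, Complex.normSq_apply]
    ring
  rw [← h2, h, one_pow]

theorem abs_re_le (κ : ZMod M) : |(chi κ).re| ≤ 1 := by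
  rw [← sq_le_one_iff_abs_le_one]
  nlinarith [re_sq_add_im_sq κ, sq_nonneg (chi κ).im]

theorem norm_transform_le {β η : ℝ} (hβ0 : 0 ≤ β) (hβ : β ≤ 1 / 32) (hη : |η| ≤ 1) (κ : ZMod M) :
    ‖(1 + β * (Real.exp η * chi (-κ) + Real.exp (-η) * chi κ) : ℂ)‖ ≤
      Real.exp (2 * β * η ^ 2) * (1 + 2 * β * (chi κ).re) := by
  have hpos : 0 < 1 + 2 * β * (chi κ).re := by
    have := (abs_le.1 (abs_re_le κ)).1
    nlinarith
  rw [transform_eq]
  refine abs_le_of_sq_le_sq' ?_ (mul_nonneg (Real.exp_pos _).le hpos.le) |>.2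
  rw [← Complex.normSq_eq_norm_sq, Complex.normSq_add_mul_I]
  have h := normSq_bound hβ0 hβ hη (re_sq_add_im_sq κ)
  have e : (Real.exp (2 * β * η ^ 2) * (1 + 2 * β * (chi κ).re)) ^ 2 =
      (1 + 2 * β * (chi κ).re) ^ 2 * Real.exp (4 * β * η ^ 2) := by
    rw [mul_pow, ← Real.exp_nat_mul]
    push_cast
    rw [show (2 : ℝ) * (2 * β * η ^ 2) = 4 * β * η ^ 2 by ring]
    ring
  rw [e]
  calc _ = (1 + 2 * β * (chi κ).re * Real.cosh η) ^ 2 + (2 * β * (chi κ).im * Real.sinh η) ^ 2 := by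
        ring
    _ ≤ _ := h

variable {V E : Type} [Fintype V] [DecidableEq V] [Fintype E] [DecidableEq E]

/-- the sum over the pinned heights in `ZMod M` of the tilted weights -/
noncomputable def ZM (M : ℕ) [NeZero M] (s t : E → V) (P : Finset V) (β η : E → ℝ) : ℝ :=
  ∑ h : V → ZMod M, if ∀ v ∈ P, h v = 0 then ∏ e, uM (β e) (η e) (h (t e) - h (s e)) else 0

theorem ZM_dual (s t : E → V) (P : Finset V) (β η : E → ℝ) :
    ((ZM M s t P β η : ℝ) : ℂ) = (M : ℂ) ^ (Pᶜ).card / (M : ℂ) ^ (Fintype.card E) *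
      ∑ κ : E → ZMod M, if ∀ v ∉ P, dv s t κ v = 0 then
        ∏ e, (1 + (β e : ℂ) * (Real.exp (η e) * chi (-(κ e)) + Real.exp (-(η e)) * chi (κ e)))
          else 0 := by
  have h := duality (M := M) s t P (fun m => ∏ e, ((uM (β e) (η e) (m e) : ℝ) : ℂ))
  have e1 : ((ZM M s t P β η : ℝ) : ℂ) = ∑ h : V → ZMod M, if ∀ v ∈ P, h v = 0 then
      ∏ e, ((uM (β e) (η e) (h (t e) - h (s e)) : ℝ) : ℂ) else 0 := by
    unfold ZM
    rw [Complex.ofReal_sum]
    refine Finset.sum_congr rfl fun h _ => ?_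
    split_ifs
    · rw [Complex.ofReal_prod]
    · simp
  rw [e1, h]
  congr 1
  refine Finset.sum_congr rfl fun κ _ => ?_
  split_ifs
  · rw [prod_transform (fun e n => ((uM (β e) (η e) n : ℝ) : ℂ)) κ]
    exact Finset.prod_congr rfl fun e _ => uM_transform _ _ _
  · rfl

/-- the exponential bound -/
theorem ZM_le (s t : E → V) (P : Finset V) (β η : E → ℝ) (hβ0 : ∀ e, 0 ≤ β e)
    (hβ : ∀ e, β e ≤ 1 / 32) (hη : ∀ e, |η e| ≤ 1) :
    ZM M s t P β η ≤ Real.exp (∑ e, 2 * β e * η e ^ 2) * ZM M s t P β 0 := by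
  have hM : (0 : ℝ) < M := Nat.cast_pos.2 (Nat.pos_of_ne_zero (NeZero.ne M))
  set c : ℝ := (M : ℝ) ^ (Pᶜ).card / (M : ℝ) ^ (Fintype.card E) with hc
  have hc0 : 0 ≤ c := by positivity
  have hcC : ((c : ℝ) : ℂ) = (M : ℂ) ^ (Pᶜ).card / (M : ℂ) ^ (Fintype.card E) := by
    rw [hc]; push_cast; rfl
  -- the transform at `η = 0`
  have h0 : ZM M s t P β 0 = c * ∑ κ : E → ZMod M, if ∀ v ∉ P, dv s t κ v = 0 then
      ∏ e, (1 + 2 * β e * (chi (κ e)).re) else 0 := by
    have h := ZM_dual (M := M) s t P β 0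
    rw [← hcC] at h
    have e2 : ∀ κ : E → ZMod M, (∏ e, (1 + (β e : ℂ) *
        (Real.exp ((0 : E → ℝ) e) * chi (-(κ e)) + Real.exp (-((0 : E → ℝ) e)) * chi (κ e)))) =
        ((∏ e, (1 + 2 * β e * (chi (κ e)).re) : ℝ) : ℂ) := by
      intro κ
      rw [Complex.ofReal_prod]
      refine Finset.prod_congr rfl fun e _ => ?_
      rw [transform_eq]
      simp
    have e3 : (∑ κ : E → ZMod M, if ∀ v ∉ P, dv s t κ v = 0 then
        ∏ e, (1 + (β e : ℂ) * (Real.exp ((0 : E → ℝ) e) * chi (-(κ e)) +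
          Real.exp (-((0 : E → ℝ) e)) * chi (κ e))) else 0) =
        ((∑ κ : E → ZMod M, if ∀ v ∉ P, dv s t κ v = 0 then
          ∏ e, (1 + 2 * β e * (chi (κ e)).re) else 0 : ℝ) : ℂ) := by
      rw [Complex.ofReal_sum]
      refine Finset.sum_congr rfl fun κ _ => ?_
      split_ifs
      · exact e2 κ
      · simp
    rw [e3, ← Complex.ofReal_mul] at h
    exact Complex.ofReal_injective h
  have h1 := ZM_dual (M := M) s t P β η
  rw [← hcC] at h1
  have hnn : 0 ≤ ZM M s t P β η := by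
    unfold ZM
    refine Finset.sum_nonneg fun h _ => ?_
    split_ifs
    · exact Finset.prod_nonneg fun e _ => uM_nonneg (hβ0 e) _
    · exact le_rfl
  have h2 : ZM M s t P β η = ‖((ZM M s t P β η : ℝ) : ℂ)‖ := by
    rw [Complex.norm_real, Real.norm_of_nonneg hnn]
  rw [h2, h1, norm_mul, Complex.norm_real, Real.norm_of_nonneg hc0, h0, ← mul_assoc,
    mul_comm (Real.exp _) c, mul_assoc]
  refine mul_le_mul_of_nonneg_left ?_ hc0
  refine (norm_sum_le _ _).trans ?_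
  rw [Finset.mul_sum]
  refine Finset.sum_le_sum fun κ _ => ?_
  split_ifs
  · rw [norm_prod, Real.exp_sum, ← Finset.prod_mul_distrib]
    exact Finset.prod_le_prod (fun e _ => norm_nonneg _)
      fun e _ => norm_transform_le (hβ0 e) (hβ e) (hη e) (κ e)
  · simp

end

end Vale.Agent.P159.T1.H568
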