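import Vale.Agent.P159.T1.H568.ExpM
import Vale.Agent.P159.T1.H254.UWDefsC
import Mathlib.Data.Pi.Interval

/-!
# From `ZMod M` to integer heights

The exponential bound for the unit step kernel and integer heights pinned to `0` on `P`.
-/

set_option autoImplicit false

open Finset

namespace Vale.Agent.P159.T1.H568

open Vale.Agent.P159.T1.H254

section

variable {V E : Type} [Fintype V] [DecidableEq V] [Fintype E] [DecidableEq E]

/-- the heights with unit steps pinned to `0` on `P` -/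
def HP (s t : E → V) (P : Finset V) : Set (V → ℤ) :=
  {h | (∀ v ∈ P, h v = 0) ∧ ∀ e, |h (t e) - h (s e)| ≤ 1}

/-- the weight -/
noncomputable def WK (s t : E → V) (β : E → ℝ) (h : V → ℤ) : ℝ :=
  ∏ e, ker 1 (β e) (h (t e) - h (s e))

/-- every vertex is joined to `P` -/
def Conn (s t : E → V) (P : Finset V) : Prop :=
  ∀ v, ∃ u ∈ P, Relation.ReflTransGen (adjS s t ∅) u v

/-- the vertices at distance at most `n` from `P` -/
def Lev (s t : E → V) (P : Finset V) : ℕ → V → Prop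
  | 0, v => v ∈ P
  | n + 1, v => Lev s t P n v ∨ ∃ u, Lev s t P n u ∧ ∃ e, (s e = u ∧ t e = v) ∨ (s e = v ∧ t e = u)

theorem Lev.mono {s t : E → V} {P : Finset V} {m n : ℕ} (h : m ≤ n) {v : V}
    (hv : Lev s t P m v) : Lev s t P n v := by
  induction h with
  | refl => exact hv
  | step _ ih => exact Or.inl ih

theorem Conn.lev {s t : E → V} {P : Finset V} (hc : Conn s t P) : ∃ L, ∀ v, Lev s t P L v := by
  have h1 : ∀ v, ∃ n, Lev s t P n v := by
    intro v
    obtain ⟨u, hu, huv⟩ := hc v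
    induction huv with
    | refl => exact ⟨0, hu⟩
    | tail _ hbc ih =>
      obtain ⟨n, hn⟩ := ih
      exact ⟨n + 1, Or.inr ⟨_, hn, hbc.2.2⟩⟩
  choose n hn using h1
  refine ⟨Finset.univ.sup n, fun v => (hn v).mono (Finset.le_sup (Finset.mem_univ v))⟩

theorem HP.le_lev {s t : E → V} {P : Finset V} {h : V → ℤ} (hh : h ∈ HP s t P) {n : ℕ} {v : V}
    (hv : Lev s t P n v) : |h v| ≤ n := by
  induction n generalizing v with
  | zero =>
    rw [hh.1 v hv]
    simp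
  | succ n ih =>
    rcases hv with hv | ⟨u, hu, e, he⟩
    · have := ih hv
      push_cast
      linarith
    · have h1 := ih hu
      have h2 := hh.2 e
      push_cast
      rw [abs_le] at h1 h2 ⊢
      rcases he with ⟨h3, h4⟩ | ⟨h3, h4⟩
      · rw [h3, h4] at h2
        constructor <;> linarith [h1.1, h1.2, h2.1, h2.2]
      · rw [h3, h4] at h2
        constructor <;> linarith [h1.1, h1.2, h2.1, h2.2]

theorem HP.finite {s t : E → V} {P : Finset V} (hc : Conn s t P) : (HP s t P).Finite := by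
  obtain ⟨L, hL⟩ := hc.lev
  refine (Set.finite_Icc (fun _ : V => -(L : ℤ)) (fun _ => (L : ℤ))).subset fun h hh => ?_
  have h1 := fun v => abs_le.1 (HP.le_lev hh (hL v))
  exact ⟨fun v => (h1 v).1, fun v => (h1 v).2⟩

theorem ker_ne {β : ℝ} {n : ℤ} (h : ker 1 β n ≠ 0) : |n| ≤ 1 := by
  unfold ker at h
  split_ifs at h with h1 h2
  · simp [h1]
  · exact h2.le
  · exact absurd rfl h

theorem ker_nonneg {β : ℝ} (hβ : 0 ≤ β) (n : ℤ) : 0 ≤ ker 1 β n := by
  unfold ker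
  split_ifs
  · norm_num
  · exact hβ
  · exact le_rfl

theorem WK_nonneg {s t : E → V} {β : E → ℝ} (hβ : ∀ e, 0 ≤ β e) (h : V → ℤ) :
    0 ≤ WK s t β h := Finset.prod_nonneg fun e _ => ker_nonneg (hβ e) _

theorem WK_ne {s t : E → V} {β : E → ℝ} {h : V → ℤ} (hh : WK s t β h ≠ 0) (e : E) :
    |h (t e) - h (s e)| ≤ 1 :=
  ker_ne fun h0 => hh (Finset.prod_eq_zero (Finset.mem_univ e) h0)

/-! ### reduction modulo `M` -/

theorem valMinAbs_step {M : ℕ} [NeZero M] {L : ℕ} (hM : 2 * L + 3 ≤ M) {x : ZMod M}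
    (hx : |x.valMinAbs| ≤ L) {δ : ℤ} (hδ : |δ| ≤ 1) :
    (x + (δ : ZMod M)).valMinAbs = x.valMinAbs + δ := by
  rw [ZMod.valMinAbs_spec]
  have h1 := abs_le.1 hx
  have h2 := abs_le.1 hδ
  have h3 : (2 * (L : ℤ) + 3) ≤ M := by exact_mod_cast hM
  refine ⟨by simp, ?_, ?_⟩ <;> linarith [h1.1, h1.2, h2.1, h2.2]

theorem valMinAbs_cast {M : ℕ} [NeZero M] {L : ℕ} (hM : 2 * L + 3 ≤ M) {n : ℤ}
    (hn : |n| ≤ L) : ((n : ℤ) : ZMod M).valMinAbs = n := by
  rw [ZMod.valMinAbs_spec]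
  have h1 := abs_le.1 hn
  have h3 : (2 * (L : ℤ) + 3) ≤ M := by exact_mod_cast hM
  refine ⟨rfl, ?_, ?_⟩ <;> linarith [h1.1, h1.2]

theorem one_ne_zero' {M : ℕ} (hM : 3 ≤ M) : (1 : ZMod M) ≠ 0 := by
  have : Fact (1 < M) := ⟨by omega⟩
  exact one_ne_zero

theorem one_ne_neg_one' {M : ℕ} (hM : 3 ≤ M) : (1 : ZMod M) ≠ -1 := by
  intro h
  have h2 : ((2 : ℕ) : ZMod M) = 0 := by
    push_cast
    calc (2 : ZMod M) = 1 + 1 := by ring
      _ = -1 + 1 := by rw [← h]
      _ = 0 := by ring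
  rw [ZMod.natCast_eq_zero_iff] at h2
  exact absurd (Nat.le_of_dvd (by norm_num) h2) (by omega)

theorem uM_cast {M : ℕ} [NeZero M] (hM : 3 ≤ M) (β η : ℝ) {n : ℤ} (hn : |n| ≤ 1) :
    uM (M := M) β η ((n : ℤ) : ZMod M) = ker 1 β n * Real.exp (η * n) := by
  have h1 := abs_le.1 hn
  have h0 := one_ne_zero' hM
  have h2 := one_ne_neg_one' hM
  have h3 : (-1 : ZMod M) ≠ 0 := neg_ne_zero.2 h0
  have h4 : n = -1 ∨ n = 0 ∨ n = 1 := by omega
  rcases h4 with rfl | rfl | rfl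
  · simp [uM, ker, h0, h2.symm]
  · simp [uM, ker, h0, h0.symm]
  · simp [uM, ker, h0, h2]

theorem uM_ne {M : ℕ} [NeZero M] {β η : ℝ} {z : ZMod M} (h : uM β η z ≠ 0) :
    ∃ δ : ℤ, |δ| ≤ 1 ∧ z = (δ : ZMod M) := by
  by_cases h0 : z = 0
  · exact ⟨0, by simp, by simp [h0]⟩
  by_cases h1 : z = 1
  · exact ⟨1, by simp, by simp [h1]⟩
  by_cases h2 : z = -1
  · exact ⟨-1, by simp, by simp [h2]⟩
  exact absurd (by simp [uM, h0, h1, h2]) h

theorem lev_mod {M : ℕ} [NeZero M] {L : ℕ} (hM : 2 * L + 3 ≤ M) {s t : E → V} {P : Finset V}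
    {k : V → ZMod M} (h0 : ∀ v ∈ P, k v = 0)
    (hk : ∀ e, ∃ δ : ℤ, |δ| ≤ 1 ∧ k (t e) - k (s e) = (δ : ZMod M)) {n : ℕ} (hn : n ≤ L) {v : V}
    (hv : Lev s t P n v) : |(k v).valMinAbs| ≤ n := by
  induction n generalizing v with
  | zero =>
    rw [h0 v hv]
    simp
  | succ n ih =>
    rcases hv with hv | ⟨u, hu, e, he⟩
    · have := ih (by omega) hv
      push_cast
      linarith
    · have h1 := ih (by omega) hu
      have h1' : |(k u).valMinAbs| ≤ (L : ℤ) := h1.trans (by exact_mod_cast (by omega : n ≤ L))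
      obtain ⟨δ, hδ, h2⟩ := hk e
      push_cast
      rcases he with ⟨h3, h4⟩ | ⟨h3, h4⟩
      · rw [h3, h4] at h2
        have h5 : k v = k u + (δ : ZMod M) := by rw [← h2]; ring
        rw [h5, valMinAbs_step hM h1' hδ]
        exact (abs_add_le _ _).trans (add_le_add h1 hδ)
      · rw [h3, h4] at h2
        have h5 : k v = k u + ((-δ : ℤ) : ZMod M) := by push_cast; rw [← h2]; ring
        rw [h5, valMinAbs_step hM h1' (by rwa [abs_neg])]
        exact (abs_add_le _ _).trans (add_le_add h1 (by rwa [abs_neg]))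

/-- for large `M` the sum over `ZMod M` is the sum over the integer heights -/
theorem ZM_eq_lift {s t : E → V} {P : Finset V} {L : ℕ} (hL : ∀ v, Lev s t P L v)
    (hF : (HP s t P).Finite) {M : ℕ} [NeZero M] (hM : 2 * L + 3 ≤ M) (β η : E → ℝ) :
    ZM M s t P β η = ∑ h ∈ hF.toFinset, WK s t β h *
      Real.exp (∑ e, η e * ((h (t e) : ℝ) - h (s e))) := by
  have hM3 : 3 ≤ M := by omega
  unfold ZM
  rw [← Finset.sum_filter]
  symm
  -- drop the zero terms on the right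
  have key : ∀ k : V → ZMod M, (∀ v ∈ P, k v = 0) →
      (∏ e, uM (β e) (η e) (k (t e) - k (s e))) ≠ 0 →
      (fun v => (k v).valMinAbs) ∈ HP s t P := by
    intro k hk0 hk
    have h1 : ∀ e, ∃ δ : ℤ, |δ| ≤ 1 ∧ k (t e) - k (s e) = (δ : ZMod M) := fun e =>
      uM_ne fun h0 => hk (Finset.prod_eq_zero (Finset.mem_univ e) h0)
    refine ⟨fun v hv => by simp [hk0 v hv], fun e => ?_⟩
    obtain ⟨δ, hδ, h2⟩ := h1 e
    have h3 : k (t e) = k (s e) + (δ : ZMod M) := by rw [← h2]; ring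
    have h4 := lev_mod hM hk0 h1 le_rfl (hL (s e))
    simp only
    rw [h3, valMinAbs_step hM h4 hδ]
    simpa using hδ
  have wt : ∀ h ∈ HP s t P, WK s t β h * Real.exp (∑ e, η e * ((h (t e) : ℝ) - h (s e))) =
      ∏ e, uM (β e) (η e) (((h (t e) : ℤ) : ZMod M) - ((h (s e) : ℤ) : ZMod M)) := by
    intro h hh
    unfold WK
    rw [Real.exp_sum, ← Finset.prod_mul_distrib]
    refine Finset.prod_congr rfl fun e _ => ?_
    have h1 := uM_cast hM3 (β e) (η e) (hh.2 e)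
    push_cast at h1
    rw [h1]
  refine Finset.sum_bij_ne_zero (fun h _ _ => fun v => ((h v : ℤ) : ZMod M)) ?_ ?_ ?_ ?_
  · intro h hh _
    rw [Set.Finite.mem_toFinset] at hh
    rw [Finset.mem_filter]
    exact ⟨Finset.mem_univ _, fun v hv => by simp [hh.1 v hv]⟩
  · intro h hh _ h' hh' _ heq
    rw [Set.Finite.mem_toFinset] at hh hh'
    funext v
    have h1 : ((h v : ℤ) : ZMod M) = ((h' v : ℤ) : ZMod M) := congrFun heq v
    rw [← valMinAbs_cast hM (HP.le_lev hh (hL v)), ← valMinAbs_cast hM (HP.le_lev hh' (hL v)), h1]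
  · intro k hk hk0
    rw [Finset.mem_filter] at hk
    have h1 := key k hk.2 hk0
    have h2 : (fun v => (((k v).valMinAbs : ℤ) : ZMod M)) = k := by
      funext v
      rw [ZMod.coe_valMinAbs]
    refine ⟨fun v => (k v).valMinAbs, (Set.Finite.mem_toFinset _).2 h1, ?_, h2⟩
    rw [wt _ h1]
    simp only [ZMod.coe_valMinAbs]
    exact hk0
  · intro h hh _
    rw [Set.Finite.mem_toFinset] at hh
    exact wt h hh

/-- the exponential bound for integer heights -/
theorem exp_le {s t : E → V} {P : Finset V} (hc : Conn s t P) (hF : (HP s t P).Finite)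
    {β η : E → ℝ} (hβ0 : ∀ e, 0 ≤ β e) (hβ : ∀ e, β e ≤ 1 / 32) (hη : ∀ e, |η e| ≤ 1) :
    ∑ h ∈ hF.toFinset, WK s t β h * Real.exp (∑ e, η e * ((h (t e) : ℝ) - h (s e))) ≤
      Real.exp (∑ e, 2 * β e * η e ^ 2) * ∑ h ∈ hF.toFinset, WK s t β h := by
  obtain ⟨L, hL⟩ := hc.lev
  have : NeZero (2 * L + 3) := ⟨by omega⟩
  have h1 := ZM_le (M := 2 * L + 3) s t P β η hβ0 hβ hη
  rw [ZM_eq_lift hL hF le_rfl, ZM_eq_lift hL hF le_rfl] at h1
  simpa using h1

end

end Vale.Agent.P159.T1.H568
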