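import Vale.Agent.P159.T1.H910.DKit

/-!
The rectangle `[0, w) × [0, T)` of faces in the language of `T1/D/Defs.lean` (P159, stage 2, row
S.SQ): heights `0` on the left, on the right and below, no bonds above the top row.
-/

set_option autoImplicit false

namespace Vale.Agent.P159.T1.H568

open Vale.Agent.P159.T1.D Vale.Agent.P159.T1.H910

/-- faces of the rectangle -/
noncomputable def rc (w T : ℕ) : Finset Z2 := Finset.Ico (0 : ℤ) w ×ˢ Finset.Ico (0 : ℤ) T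

/-- bonds of the rectangle: all except the upper sides of the top row -/
noncomputable def S1 (w T : ℕ) : Finset Bnd :=
  (bd (rc w T)).filter fun e => ¬ (e.2 = false ∧ e.1.2 = T)

/-- couplings: `c` on the left, right and lower sides, `b` elsewhere -/
noncomputable def J1 (b c : ℝ) (w : ℕ) (e : Bnd) : ℝ :=
  if (e.2 = true ∧ (e.1.1 = 0 ∨ e.1.1 = w)) ∨ (e.2 = false ∧ e.1.2 = 0) then c else b

theorem mem_rc {w T : ℕ} {f : Z2} : f ∈ rc w T ↔ 0 ≤ f.1 ∧ f.1 < w ∧ 0 ≤ f.2 ∧ f.2 < T := by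
  unfold rc
  rw [Finset.mem_product, Finset.mem_Ico, Finset.mem_Ico]
  tauto

theorem mem_S1 {w T : ℕ} {e : Bnd} : e ∈ S1 w T ↔
    (e.2 = true ∧ 1 ≤ w ∧ 0 ≤ e.1.1 ∧ e.1.1 ≤ w ∧ 0 ≤ e.1.2 ∧ e.1.2 < T) ∨
      (e.2 = false ∧ 0 ≤ e.1.1 ∧ e.1.1 < w ∧ 0 ≤ e.1.2 ∧ e.1.2 < T) := by
  unfold S1
  rw [Finset.mem_filter, mem_bd, mem_rc, mem_rc]
  obtain ⟨⟨x, y⟩, τ⟩ := e
  cases τ
  · simp only [D.rt, D.lf, Bool.false_eq_true, if_false, true_and, false_and, false_or]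
    omega
  · simp only [D.rt, D.lf, if_true, reduceCtorEq, true_and, false_and, or_false, not_false_eq_true,
      and_true]
    omega

/-- the left sides of the faces -/
theorem S1_side {w T : ℕ} : ∀ f ∈ rc w T, (f, true) ∈ S1 w T := by
  intro f hf
  rw [mem_rc] at hf
  rw [mem_S1]
  left
  refine ⟨rfl, ?_⟩
  simp only
  omega

theorem J1_nonneg {b c : ℝ} (hb : 0 ≤ b) (hc : 0 ≤ c) (w : ℕ) (e : Bnd) : 0 ≤ J1 b c w e := by
  unfold J1
  split_ifs <;> assumption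

end Vale.Agent.P159.T1.H568
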