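import Vale.Agent.P159.T1.H857.Dual
import Vale.Agent.P159.T1.H568.RDefs

/-!
Duality for the rectangle of sites `[0, w] × [0, T)` whose left, right and lower sides are free and
whose upper side is wired: currents without divergence are gradients of heights on the faces.
-/

set_option autoImplicit false

open MeasureTheory Filter Topology
open scoped BigOperators

namespace Vale.Agent.P159.T1.H568

open Vale.Agent.P159 Vale.Agent.P159.H353 Vale.Agent.P159.R2.H254 Vale.Agent.P159.T1.H857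
  Vale.Agent.P159.T1.D Vale.Agent.P159.T1.H910

/-! ### sites and bonds -/

/-- free sites -/
abbrev RA (V : Finset Z2) : Type := {v : Z2 // v ∈ V}

/-- bonds -/
abbrev RE (S : Finset Bnd) : Type := {e : Bnd // e ∈ S}

/-- sites as elements of `Option (RA V)` -/
def tV (V : Finset Z2) (v : Z2) : Option (RA V) := if h : v ∈ V then some ⟨v, h⟩ else none

lemma tV_mem {V : Finset Z2} {v : Z2} (h : v ∈ V) : tV V v = some ⟨v, h⟩ := dif_pos h

lemma tV_not {V : Finset Z2} {v : Z2} (h : v ∉ V) : tV V v = none := dif_neg h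

lemma tV_iff {V : Finset Z2} {x : Z2} {v : RA V} : tV V x = some v ↔ x = v.1 := by
  constructor
  · intro h
    by_cases hx : x ∈ V
    · rw [tV_mem hx, Option.some.injEq] at h
      exact congrArg Subtype.val h
    · rw [tV_not hx] at h
      exact absurd h (by simp)
  · rintro rfl
    rw [tV_mem v.2]

/-- first end point -/
def rp (V : Finset Z2) (S : Finset Bnd) (e : RE S) : Option (RA V) := tV V (bs e.1)

/-- second end point -/
def rq (V : Finset Z2) (S : Finset Bnd) (e : RE S) : Option (RA V) := tV V (bt e.1)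

/-- a current as a function of all bonds -/
def ex (S : Finset Bnd) (n : RE S → ℤ) (e : Bnd) : ℤ := if h : e ∈ S then n ⟨e, h⟩ else 0

lemma ex_mem {S : Finset Bnd} (n : RE S → ℤ) {e : Bnd} (h : e ∈ S) : ex S n e = n ⟨e, h⟩ :=
  dif_pos h

lemma ex_not {S : Finset Bnd} (n : RE S → ℤ) {e : Bnd} (h : e ∉ S) : ex S n e = 0 := dif_neg h

lemma sum_pair {S : Finset Bnd} (F : Bnd → ℤ) (P : Bnd → Prop) [DecidablePred P] {a c : Bnd}
    (hac : a ≠ c) (hP : ∀ e, P e ↔ e = a ∨ e = c) (hF : ∀ e, e ∉ S → F e = 0) :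
    ∑ e ∈ S, (if P e then F e else 0) = F a + F c := by
  have h1 : ∑ e ∈ S, (if P e then F e else 0) =
      ∑ e ∈ S ∪ {a, c}, (if P e then F e else 0) := by
    refine Finset.sum_subset Finset.subset_union_left fun e _ he => ?_
    rw [hF e he, ite_self]
  have h2 : ∑ e ∈ ({a, c} : Finset Bnd), (if P e then F e else 0) =
      ∑ e ∈ S ∪ {a, c}, (if P e then F e else 0) := by
    refine Finset.sum_subset Finset.subset_union_right fun e _ he => ?_
    rw [if_neg]
    intro h
    apply he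
    rw [Finset.mem_insert, Finset.mem_singleton]
    exact (hP e).1 h
  rw [h1, ← h2, Finset.sum_pair hac, if_pos ((hP a).2 (Or.inl rfl)),
    if_pos ((hP c).2 (Or.inr rfl))]

lemma bs_iff (e : Bnd) (v : Z2) : bs e = v ↔ e = (v, true) ∨ e = (v, false) := by
  obtain ⟨p, τ⟩ := e
  unfold bs
  cases τ <;> simp

lemma bt_iff (e : Bnd) (v : Z2) :
    bt e = v ↔ e = ((v.1, v.2 - 1), true) ∨ e = ((v.1 - 1, v.2), false) := by
  obtain ⟨⟨x, y⟩, τ⟩ := e
  obtain ⟨x', y'⟩ := v
  unfold bt
  cases τ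
  · simp only [Bool.false_eq_true, if_false, Prod.mk.injEq, and_false, and_true, false_or]
    omega
  · simp only [if_true, Prod.mk.injEq, and_true, reduceCtorEq, and_false, or_false]
    omega

/-- the divergence -/
theorem dvg_eq (V : Finset Z2) (S : Finset Bnd) (n : RE S → ℤ) (v : RA V) :
    dvg (rp V S) (rq V S) n v = ex S n (v.1, true) + ex S n (v.1, false) -
      ex S n ((v.1.1, v.1.2 - 1), true) - ex S n ((v.1.1 - 1, v.1.2), false) := by
  classical
  unfold dvg
  have h1 : ∑ e : RE S, ((if rp V S e = some v then n e else 0) +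
      (if rq V S e = some v then -n e else 0)) =
      ∑ e ∈ S, ((if bs e = v.1 then ex S n e else 0) +
        (if bt e = v.1 then -ex S n e else 0)) := by
    rw [← Finset.sum_coe_sort S]
    refine Finset.sum_congr rfl fun e _ => ?_
    unfold rp rq
    rw [ex_mem n e.2]
    simp only [tV_iff]
  rw [h1, Finset.sum_add_distrib, sum_pair (ex S n) (fun e => bs e = v.1) (a := (v.1, true))
    (c := (v.1, false)) (by simp) (fun e => bs_iff e v.1) (fun e he => ex_not n he),
    sum_pair (fun e => -ex S n e) (fun e => bt e = v.1) (a := ((v.1.1, v.1.2 - 1), true))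
    (c := ((v.1.1 - 1, v.1.2), false)) (by simp) (fun e => bt_iff e v.1)
    (fun e he => by rw [ex_not n he, neg_zero])]
  ring

/-! ### the rectangle -/

/-- free sites of the rectangle -/
noncomputable def rV (w T : ℕ) : Finset Z2 :=
  Finset.Ico (0 : ℤ) ((w : ℤ) + 1) ×ˢ Finset.Ico (0 : ℤ) T

lemma mem_rV {w T : ℕ} {v : Z2} : v ∈ rV w T ↔ 0 ≤ v.1 ∧ v.1 ≤ w ∧ 0 ≤ v.2 ∧ v.2 < T := by
  unfold rV
  rw [Finset.mem_product, Finset.mem_Ico, Finset.mem_Ico]
  omega

/-- the current of the heights -/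
def cR (w T : ℕ) (h : Ht (rc w T)) (e : RE (S1 w T)) : ℤ := dh h.1 e.1

variable {w T : ℕ}

lemma ex_cR (h : Ht (rc w T)) {e : Bnd} (he : e.2 = false → e.1.2 ≠ T) :
    ex (S1 w T) (cR w T h) e = dh h.1 e := by
  by_cases h1 : e ∈ S1 w T
  · rw [ex_mem _ h1]
    rfl
  · rw [ex_not _ h1]
    symm
    apply dh_off h.2
    intro h2
    apply h1
    unfold S1
    rw [Finset.mem_filter]
    exact ⟨h2, fun h3 => he h3.1 h3.2⟩

/-- gradients have no divergence -/
theorem dvg_cR (h : Ht (rc w T)) (v : RA (rV w T)) :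
    dvg (rp (rV w T) (S1 w T)) (rq (rV w T) (S1 w T)) (cR w T h) v = 0 := by
  obtain ⟨⟨x, y⟩, hv⟩ := v
  have hv' := mem_rV.1 hv
  simp only at hv'
  rw [dvg_eq, ex_cR h (by simp), ex_cR h (fun _ => by simp only; omega), ex_cR h (by simp),
    ex_cR h (fun _ => by simp only; omega)]
  unfold dh D.lf D.rt
  simp only [if_true, Bool.false_eq_true, if_false]
  ring

/-- partial sums of the horizontal currents of a column -/
def gR (n : Bnd → ℤ) (x : ℤ) (m : ℕ) : ℤ := ∑ k ∈ Finset.range m, n ((x, (k : ℤ)), false)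

lemma gR_zero (n : Bnd → ℤ) (x : ℤ) : gR n x 0 = 0 := by simp [gR]

lemma gR_succ (n : Bnd → ℤ) (x : ℤ) (m : ℕ) :
    gR n x (m + 1) = gR n x m + n ((x, (m : ℤ)), false) := Finset.sum_range_succ _ _

/-- the heights of a current -/
noncomputable def hR (w T : ℕ) (n : Bnd → ℤ) (f : Z2) : ℤ :=
  if f ∈ rc w T then gR n f.1 (f.2.toNat + 1) else 0

lemma hR_off (n : Bnd → ℤ) {f : Z2} (hf : f ∉ rc w T) : hR w T n f = 0 := if_neg hf

lemma gR_off {n : Bnd → ℤ} (hn : ∀ e, e ∉ S1 w T → n e = 0) {x : ℤ} (hx : x < 0 ∨ (w : ℤ) ≤ x)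
    (m : ℕ) : gR n x m = 0 := by
  unfold gR
  refine Finset.sum_eq_zero fun k _ => hn _ ?_
  rw [mem_S1]
  simp only [Bool.false_eq_true, false_and, true_and, false_or]
  omega

lemma hR_nat {n : Bnd → ℤ} (hn : ∀ e, e ∉ S1 w T → n e = 0) (x : ℤ) {m : ℕ} (hm : m < T) :
    hR w T n (x, (m : ℤ)) = gR n x (m + 1) := by
  unfold hR
  simp only [Int.toNat_natCast]
  split_ifs with h
  · rfl
  · rw [gR_off hn]
    rw [mem_rc] at h
    simp only at h
    omega

lemma hR_pred {n : Bnd → ℤ} (hn : ∀ e, e ∉ S1 w T → n e = 0) (x : ℤ) {m : ℕ} (hm : m ≤ T) :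
    hR w T n (x, (m : ℤ) - 1) = gR n x m := by
  rcases m with _ | m
  · rw [gR_zero, hR_off]
    rw [mem_rc]
    simp only
    omega
  · have := hR_nat hn x (m := m) (by omega)
    rw [← this]
    congr 2
    push_cast
    ring

/-- the vertical currents -/
lemma vert {n : Bnd → ℤ} (hn : ∀ e, e ∉ S1 w T → n e = 0)
    (hd : ∀ v ∈ rV w T, n (v, true) + n (v, false) - n ((v.1, v.2 - 1), true) -
      n ((v.1 - 1, v.2), false) = 0) {x : ℤ} (hx : 0 ≤ x) (hx' : x ≤ w) (m : ℕ) (hm : m < T) :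
    n ((x, (m : ℤ)), true) = gR n (x - 1) (m + 1) - gR n x (m + 1) := by
  induction m with
  | zero =>
    have h1 := hd (x, ((0 : ℕ) : ℤ)) (by rw [mem_rV]; simp only; omega)
    have h2 : n ((x, ((0 : ℕ) : ℤ) - 1), true) = 0 := hn _ (by
      rw [mem_S1]
      simp only [true_and, reduceCtorEq, false_and, or_false]
      omega)
    simp only at h1
    rw [h2] at h1
    rw [gR_succ, gR_succ, gR_zero, gR_zero]
    linarith
  | succ m ih =>
    have h1 := hd (x, ((m + 1 : ℕ) : ℤ)) (by rw [mem_rV]; simp only; omega)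
    have h3 := ih (by omega)
    simp only at h1
    rw [show ((m + 1 : ℕ) : ℤ) - 1 = (m : ℤ) by push_cast; ring] at h1
    rw [gR_succ _ _ (m + 1), gR_succ _ _ (m + 1)]
    linarith

/-- currents without divergence are gradients -/
theorem cR_surj (n : RE (S1 w T) → ℤ)
    (hd : ∀ v, dvg (rp (rV w T) (S1 w T)) (rq (rV w T) (S1 w T)) n v = 0) :
    ∃ h, cR w T h = n := by
  set N := ex (S1 w T) n with hN
  have hn : ∀ e, e ∉ S1 w T → N e = 0 := fun e he => ex_not n he
  have hd' : ∀ v ∈ rV w T, N (v, true) + N (v, false) - N ((v.1, v.2 - 1), true) -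
      N ((v.1 - 1, v.2), false) = 0 := by
    intro v hv
    have := hd ⟨v, hv⟩
    rwa [dvg_eq] at this
  refine ⟨⟨hR w T N, fun f hf => hR_off N hf⟩, ?_⟩
  funext ⟨e, he⟩
  show dh (hR w T N) e = n ⟨e, he⟩
  rw [← ex_mem n he, ← hN]
  obtain ⟨⟨x, y⟩, τ⟩ := e
  have he' := mem_S1.1 he
  cases τ
  · simp only [Bool.false_eq_true, false_and, true_and, false_or] at he'
    obtain ⟨m, rfl⟩ : ∃ m : ℕ, y = m := ⟨y.toNat, by omega⟩
    show hR w T N (x, (m : ℤ)) - hR w T N (x, (m : ℤ) - 1) = _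
    rw [hR_nat hn x (by omega), hR_pred hn x (by omega), gR_succ]
    ring
  · simp only [true_and, reduceCtorEq, false_and, or_false] at he'
    obtain ⟨m, rfl⟩ : ∃ m : ℕ, y = m := ⟨y.toNat, by omega⟩
    show hR w T N (x - 1, (m : ℤ)) - hR w T N (x, (m : ℤ)) = _
    rw [hR_nat hn _ (by omega), hR_nat hn _ (by omega),
      vert hn hd' (by omega) (by omega) m (by omega)]

/-- heights are determined by the currents -/
theorem cR_inj : Function.Injective (cR w T) := by
  intro h h' hh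
  have key : ∀ (m : ℕ) (x : ℤ), h.1 (x, (m : ℤ)) = h'.1 (x, (m : ℤ)) := by
    intro m
    induction m with
    | zero =>
      intro x
      by_cases hx : ((x, ((0 : ℕ) : ℤ)) : Z2) ∈ rc w T
      · have hx' := mem_rc.1 hx
        simp only at hx'
        have h1 := congrFun hh ⟨((x, ((0 : ℕ) : ℤ)), false), by
          rw [mem_S1]
          simp only [Bool.false_eq_true, false_and, true_and, false_or]
          omega⟩
        have h2 : h.1 (x, ((0 : ℕ) : ℤ)) - h.1 (x, ((0 : ℕ) : ℤ) - 1) =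
            h'.1 (x, ((0 : ℕ) : ℤ)) - h'.1 (x, ((0 : ℕ) : ℤ) - 1) := h1
        have h3 : ((x, ((0 : ℕ) : ℤ) - 1) : Z2) ∉ rc w T := by
          rw [mem_rc]
          simp only
          omega
        rw [h.2 _ h3, h'.2 _ h3] at h2
        linarith
      · rw [h.2 _ hx, h'.2 _ hx]
    | succ m ih =>
      intro x
      by_cases hx : ((x, ((m + 1 : ℕ) : ℤ)) : Z2) ∈ rc w T
      · have hx' := mem_rc.1 hx
        simp only at hx'
        have h1 := congrFun hh ⟨((x, ((m + 1 : ℕ) : ℤ)), false), by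
          rw [mem_S1]
          simp only [Bool.false_eq_true, false_and, true_and, false_or]
          omega⟩
        have h2 : h.1 (x, ((m + 1 : ℕ) : ℤ)) - h.1 (x, ((m + 1 : ℕ) : ℤ) - 1) =
            h'.1 (x, ((m + 1 : ℕ) : ℤ)) - h'.1 (x, ((m + 1 : ℕ) : ℤ) - 1) := h1
        rw [show ((m + 1 : ℕ) : ℤ) - 1 = (m : ℤ) by push_cast; ring, ih x] at h2
        linarith
      · rw [h.2 _ hx, h'.2 _ hx]
  apply Subtype.ext
  funext f
  by_cases hf : f ∈ rc w T
  · have hf' := mem_rc.1 hf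
    have := key f.2.toNat f.1
    rwa [show ((f.1, ((f.2.toNat : ℕ) : ℤ)) : Z2) = f from Prod.ext rfl (by simp only; omega)]
      at this
  · rw [h.2 f hf, h'.2 f hf]

/-- **expansion in heights** -/
theorem ZG_rect {J : RE (S1 w T) → ℝ} (hJ : ∀ e, 0 ≤ J e) (u : RE (S1 w T) → ℂ) :
    HasSum (fun h : Ht (rc w T) => ((∏ e, wI (J e) (cR w T h e) : ℝ) : ℂ) *
      Complex.exp (Complex.I * ∑ e, u e * (cR w T h e : ℂ)))
      (ZG (rp (rV w T) (S1 w T)) (rq (rV w T) (S1 w T)) J u 0) := by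
  refine ZG_heights _ _ hJ u 0 (cR w T) cR_inj (fun h v => ?_) fun n hn => ?_
  · rw [dvg_cR h v]
    rfl
  · refine cR_surj n fun v => ?_
    have := hn v
    simpa using this

end Vale.Agent.P159.T1.H568
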