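import Vale.Agent.P159.T1.H568.RDual
import Vale.Agent.P159.T1.H532.QFF
import Vale.Agent.P159.T1.H910.Far

/-!
The twisted partition functions of the rectangle whose left, right and lower sides are free and
whose upper side is wired, as integrals over the free spins and as sums over heights.
-/

set_option autoImplicit false

open MeasureTheory Filter Topology
open scoped BigOperators

namespace Vale.Agent.P159.T1.H568

open Vale.Agent.P159 Vale.Agent.P159.H353 Vale.Agent.P159.R2.H254 Vale.Agent.P159.T1.H857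
  Vale.Agent.P159.UJ Vale.Agent.P159.H950 Vale.Agent.P159.T1.H931 Vale.Agent.P159.T1.D
  Vale.Agent.P159.T1.H910
open Vale.Agent.P159.T1.H532 (tb fb cosT_zero' sinT_zero')

/-! ### half-bonds and bonds -/

lemma lf_iff (e : Bnd) (c : Z2) :
    D.lf e = c ↔ e = (c, false) ∨ e = ((c.1 + 1, c.2), true) := by
  obtain ⟨⟨x, y⟩, τ⟩ := e
  obtain ⟨x', y'⟩ := c
  unfold D.lf
  cases τ
  · simp
  · simp only [if_true, Prod.mk.injEq, and_true, reduceCtorEq, and_false, false_or]
    omega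

lemma rt_iff (e : Bnd) (c : Z2) :
    D.rt e = c ↔ e = (c, true) ∨ e = ((c.1, c.2 + 1), false) := by
  obtain ⟨⟨x, y⟩, τ⟩ := e
  obtain ⟨x', y'⟩ := c
  unfold D.rt
  cases τ
  · simp only [Bool.false_eq_true, if_false, Prod.mk.injEq, and_true, and_false, false_or]
    omega
  · simp

lemma sum_fib (R : Finset Z2) (F : Bnd → ℝ) (g : Bnd → Z2) (a c : Z2 → Bnd)
    (hac : ∀ p, a p ≠ c p) (hg : ∀ e p, g e = p ↔ e = a p ∨ e = c p)
    (hR : ∀ e, g e ∈ R → e ∈ bd R) :
    ∑ e ∈ bd R, (if g e ∈ R then (1 : ℝ) else 0) * F e = ∑ p ∈ R, (F (a p) + F (c p)) := by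
  classical
  have h1 : ∑ e ∈ bd R, (if g e ∈ R then (1 : ℝ) else 0) * F e =
      ∑ e ∈ (bd R).filter (fun e => g e ∈ R), F e := by
    rw [Finset.sum_filter]
    exact Finset.sum_congr rfl fun e _ => by rw [ite_mul, one_mul, zero_mul]
  rw [h1, ← Finset.sum_fiberwise_of_maps_to (t := R) (g := g)
    (fun e he => (Finset.mem_filter.1 he).2)]
  refine Finset.sum_congr rfl fun p hp => ?_
  have h2 : ((bd R).filter (fun e => g e ∈ R)).filter (fun e => g e = p) = {a p, c p} := by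
    ext e
    rw [Finset.mem_filter, Finset.mem_filter, Finset.mem_insert, Finset.mem_singleton, ← hg]
    constructor
    · exact fun h => h.2
    · intro h
      have h3 : g e ∈ R := by rw [h]; exact hp
      exact ⟨⟨hR e h3, h3⟩, h⟩
  rw [h2, Finset.sum_pair (hac p)]

/-- the couplings of the cells of `R` -/
noncomputable def JR (b : ℝ) (R : Finset Z2) (e : Bnd) : ℝ :=
  b / 2 * ((if D.lf e ∈ R then 1 else 0) + (if D.rt e ∈ R then 1 else 0))

lemma sum_cells (R : Finset Z2) (b : ℝ) (F : Bnd → ℝ) :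
    ∑ c ∈ R, (b / 2 * F (c, false) + b / 2 * F ((c.1, c.2 + 1), false) + b / 2 * F (c, true) +
      b / 2 * F ((c.1 + 1, c.2), true)) = ∑ e ∈ bd R, JR b R e * F e := by
  have h1 := sum_fib R F D.lf (fun p => (p, false)) (fun p => ((p.1 + 1, p.2), true))
    (fun p => by simp) lf_iff (fun e he => mem_bd.2 (Or.inr he))
  have h2 := sum_fib R F D.rt (fun p => (p, true)) (fun p => ((p.1, p.2 + 1), false))
    (fun p => by simp) rt_iff (fun e he => mem_bd.2 (Or.inl he))
  have h3 : ∑ e ∈ bd R, JR b R e * F e =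
      b / 2 * (∑ e ∈ bd R, (if D.lf e ∈ R then (1 : ℝ) else 0) * F e) +
      b / 2 * (∑ e ∈ bd R, (if D.rt e ∈ R then (1 : ℝ) else 0) * F e) := by
    rw [Finset.mul_sum, Finset.mul_sum, ← Finset.sum_add_distrib]
    refine Finset.sum_congr rfl fun e _ => ?_
    unfold JR
    ring
  rw [h3, h1, h2, Finset.mul_sum, Finset.mul_sum, ← Finset.sum_add_distrib]
  refine Finset.sum_congr rfl fun p _ => ?_
  ring

/-- energy of a bond -/
noncomputable def gE (I : Set Z2) (x : Ginf) (Y : Bnd → ℝ) (e : Bnd) : ℝ :=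
  cosT (proj I x (bs e) - proj I x (bt e)) * Real.cos (Y e) -
    sinT (proj I x (bs e) - proj I x (bt e)) * Real.sin (Y e)

lemma bt_eq (v : Z2) (d : Bool) : bt (v, d) = v + (if d then (0, 1) else (1, 0)) := by
  unfold bt
  cases d <;> simp [Prod.ext_iff]

/-- the energy in terms of the bonds -/
theorem energy_R (b : ℝ) (R : Finset Z2) (I : Set Z2) (Y : Bnd → ℝ) (x : Ginf) :
    ∑ e : KR R, b / 2 * ((chiI R I e).c x * Real.cos (tb R (fb Y) e) -
      (chiI R I e).s x * Real.sin (tb R (fb Y) e)) = ∑ e ∈ bd R, JR b R e * gE I x Y e := by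
  have h1 : ∀ e : KR R, b / 2 * ((chiI R I e).c x * Real.cos (tb R (fb Y) e) -
      (chiI R I e).s x * Real.sin (tb R (fb Y) e)) =
      b / 2 * gE I x Y (hu e.1 e.2, e.2.1) := by
    intro e
    have h2 : bt (hu e.1 e.2, e.2.1) = hv e.1 e.2 := bt_eq _ _
    unfold gE
    rw [h2]
    rfl
  rw [Finset.sum_congr rfl fun e _ => h1 e,
    sum_KR R (fun c t => b / 2 * gE I x Y (hu c t, t.1)), ← sum_cells]
  refine Finset.sum_congr rfl fun c _ => ?_
  simp only [hu, Bool.and_false, Bool.and_true, Bool.not_false, Bool.not_true,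
    if_true, Bool.false_eq_true, if_false, add_zero, Bool.and_self]

/-! ### the integral -/

/-- the partition function as an integral over the free spins -/
noncomputable def IR (V : Finset Z2) (S : Finset Bnd) (J u : Bnd → ℝ) : ℝ :=
  ∫ θ : RA V → T, Real.exp (∑ e : RE S, J e.1 * (cosT (dO (rp V S) (rq V S) θ e) *
    Real.cos (u e.1) - sinT (dO (rp V S) (rq V S) θ e) * Real.sin (u e.1))) ∂torusHaar (RA V)

lemma proj_tV {V : Finset Z2} {I : Set Z2} {v : Z2} (h : v ∈ I ↔ v ∈ V) (x : Ginf) :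
    proj I x v = exO (relabel (Subtype.val : RA V → Z2) x) (tV V v) := by
  by_cases hv : v ∈ V
  · rw [proj_of_mem (h.2 hv), tV_mem hv]
    rfl
  · rw [proj_of_notMem fun h' => hv (h.1 h'), tV_not hv]
    rfl

lemma gE_in {V : Finset Z2} {S : Finset Bnd} {I : Set Z2}
    (hI : ∀ e ∈ S, (bs e ∈ I ↔ bs e ∈ V) ∧ (bt e ∈ I ↔ bt e ∈ V)) (x : Ginf) (Y : Bnd → ℝ)
    (e : RE S) :
    gE I x Y e.1 = cosT (dO (rp V S) (rq V S) (relabel (Subtype.val : RA V → Z2) x) e) *
      Real.cos (Y e.1) - sinT (dO (rp V S) (rq V S) (relabel (Subtype.val : RA V → Z2) x) e) *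
      Real.sin (Y e.1) := by
  unfold gE dO rp rq
  rw [proj_tV (hI e.1 e.2).1, proj_tV (hI e.1 e.2).2]

/-- the twisted partition function -/
theorem Zr_R (b : ℝ) (R : Finset Z2) (I : Set Z2) (V : Finset Z2) (S : Finset Bnd)
    (hS : S ⊆ bd R) (hI : ∀ e ∈ S, (bs e ∈ I ↔ bs e ∈ V) ∧ (bt e ∈ I ↔ bt e ∈ V))
    (hN : ∀ e ∈ bd R, e ∉ S → bs e ∉ I ∧ bt e ∉ I) (Y : Bnd → ℝ)
    (hY : ∀ e ∈ bd R, e ∉ S → Y e = 0) :
    Zr muInf (fun _ : KR R => b / 2) (chiI R I) (tb R (fb Y)) =
      Real.exp (∑ e ∈ bd R \ S, JR b R e) * IR V S (JR b R) Y := by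
  classical
  have h1 : ∀ x : Ginf, ∑ e : KR R, b / 2 *
      ((chiI R I e).c x * Real.cos (tb R (fb Y) e) -
        (chiI R I e).s x * Real.sin (tb R (fb Y) e)) =
      ∑ e ∈ bd R \ S, JR b R e + ∑ e : RE S, JR b R e.1 *
        (cosT (dO (rp V S) (rq V S) (relabel (Subtype.val : RA V → Z2) x) e) *
        Real.cos (Y e.1) - sinT (dO (rp V S) (rq V S) (relabel (Subtype.val : RA V → Z2) x) e) *
        Real.sin (Y e.1)) := by
    intro x
    rw [energy_R, ← Finset.sum_sdiff hS]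
    congr 1
    · refine Finset.sum_congr rfl fun e he => ?_
      rw [Finset.mem_sdiff] at he
      obtain ⟨h2, h3⟩ := hN e he.1 he.2
      unfold gE
      rw [proj_of_notMem h2, proj_of_notMem h3, hY e he.1 he.2, sub_self, cosT_zero',
        sinT_zero', Real.cos_zero, Real.sin_zero]
      ring
    · rw [← Finset.sum_coe_sort S]
      refine Finset.sum_congr rfl fun e _ => ?_
      rw [gE_in hI x Y e]
  have hc : Continuous fun θ : RA V → T => Real.exp (∑ e ∈ bd R \ S, JR b R e +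
      ∑ e : RE S, JR b R e.1 * (cosT (dO (rp V S) (rq V S) θ e) *
      Real.cos (Y e.1) - sinT (dO (rp V S) (rq V S) θ e) * Real.sin (Y e.1))) := by
    refine Real.continuous_exp.comp (continuous_const.add
      (continuous_finsetSum _ fun e _ => continuous_const.mul ?_))
    exact ((cont_cos.comp (dO_cont _ _ e)).mul continuous_const).sub
      ((cont_sin.comp (dO_cont _ _ e)).mul continuous_const)
  unfold Zr
  simp only [h1]
  rw [integral_relabel (Subtype.val : RA V → Z2) Subtype.val_injective muInf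
    (torusHaar (RA V)) hc]
  unfold IR
  rw [← integral_const_mul]
  congr 1
  ext θ
  rw [Real.exp_add]

/-- the integral is the complex one -/
theorem ZG_IR (V : Finset Z2) (S : Finset Bnd) (J u : Bnd → ℝ) :
    ZG (rp V S) (rq V S) (fun e => J e.1) (fun e => (u e.1 : ℂ)) 0 = (IR V S J u : ℂ) := by
  unfold ZG IR
  rw [← integral_complex_ofReal]
  congr 1
  ext θ
  have e1 : ∏ v : RA V, (fourier ((0 : RA V → ℤ) v) (θ v) : ℂ) = 1 :=
    Finset.prod_eq_one fun v _ => by simp
  rw [e1, one_mul, ← Complex.exp_sum, Complex.ofReal_exp]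
  congr 1
  push_cast
  refine Finset.sum_congr rfl fun e _ => ?_
  unfold cosC
  ring

variable {w T : ℕ}

/-- **Expansion in heights.** -/
theorem IR_heights {J : Bnd → ℝ} (hJ : ∀ e, 0 ≤ J e) (u : Bnd → ℝ) :
    HasSum (fun h : Ht (rc w T) => (∏ e ∈ S1 w T, wI (J e) (dh h.1 e)) *
      Real.cos (prS (S1 w T) u h.1)) (IR (rV w T) (S1 w T) J u) := by
  have h := ZG_rect (w := w) (T := T) (J := fun e => J e.1) (fun e => hJ e.1)
    (fun e => (u e.1 : ℂ))
  rw [ZG_IR] at h
  have h2 := Complex.hasSum_re h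
  rw [Complex.ofReal_re] at h2
  have e0 : (fun h : Ht (rc w T) => (∏ e ∈ S1 w T, wI (J e) (dh h.1 e)) *
      Real.cos (prS (S1 w T) u h.1)) = fun h : Ht (rc w T) =>
      (((∏ e : RE (S1 w T), wI (J e.1) (cR w T h e) : ℝ) : ℂ) *
        Complex.exp (Complex.I * ∑ e : RE (S1 w T), (u e.1 : ℂ) * (cR w T h e : ℂ))).re := by
    funext h
    rw [Complex.re_ofReal_mul]
    have e2 : ∏ e : RE (S1 w T), wI (J e.1) (cR w T h e) =
        ∏ e ∈ S1 w T, wI (J e) (dh h.1 e) := by
      rw [← Finset.prod_coe_sort (S1 w T)]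
      rfl
    have e3 : prS (S1 w T) u h.1 = ∑ e : RE (S1 w T), u e.1 * (cR w T h e : ℝ) := by
      unfold prS
      rw [← Finset.sum_coe_sort (S1 w T)]
      rfl
    rw [e2]
    congr 1
    have e1 : Complex.I * ∑ e : RE (S1 w T), (u e.1 : ℂ) * (cR w T h e : ℂ) =
        ((prS (S1 w T) u h.1 : ℝ) : ℂ) * Complex.I := by
      rw [e3]
      push_cast
      ring
    rw [e1, Complex.exp_ofReal_mul_I_re]
  rw [e0]
  exact h2

end Vale.Agent.P159.T1.H568
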