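import Mathlib.Analysis.Calculus.BumpFunction.Normed
import Mathlib.Analysis.Calculus.BumpFunction.InnerProduct
import Mathlib.Analysis.Calculus.ContDiff.Deriv
import Mathlib.MeasureTheory.Integral.IntervalIntegral.FundThmCalculus
import Mathlib.Analysis.SpecialFunctions.Integrals.Basic

/-!
# The radial test function

`phi W x y = Psi W (x² + y²)`, constant for `x² + y² ≤ 2`, logarithmic for
`3 ≤ x² + y² ≤ W`, zero for `x² + y² ≥ 2 W`.
-/

set_option autoImplicit false

open MeasureTheory Filter Topology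
open scoped ContDiff

namespace Vale.Agent.P159.T1.H568

/-- the bump -/
noncomputable def bfun : ContDiffBump (1 / 2 : ℝ) := ⟨1 / 4, 1 / 2, by norm_num, by norm_num⟩

/-- a smooth probability density on `(0, 1)` -/
noncomputable def bet (x : ℝ) : ℝ := bfun.normed volume x

theorem bet_nonneg (x : ℝ) : 0 ≤ bet x := bfun.nonneg_normed x

theorem bet_contDiff : ContDiff ℝ ∞ bet := bfun.contDiff_normed

theorem bet_cont : Continuous bet := bet_contDiff.continuous

theorem bet_zero {x : ℝ} (hx : x ≤ 0 ∨ 1 ≤ x) : bet x = 0 := by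
  have h := bfun.support_normed_eq (μ := (volume : Measure ℝ))
  by_contra h1
  have h2 : x ∈ Function.support (bfun.normed (volume : Measure ℝ)) := h1
  rw [h, Real.ball_eq_Ioo] at h2
  have h3 : bfun.rOut = 1 / 2 := rfl
  rw [h3] at h2
  obtain ⟨h4, h5⟩ := h2
  rcases hx with hx | hx
  · linarith
  · linarith

theorem bet_int : ∫ x in (0 : ℝ)..1, bet x = 1 := by
  have h1 := bfun.integral_normed (μ := (volume : Measure ℝ))
  rw [intervalIntegral.integral_of_le (by norm_num)]
  refine Eq.trans ?_ h1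
  refine MeasureTheory.setIntegral_eq_integral_of_forall_compl_eq_zero fun x hx => ?_
  rw [Set.mem_Ioc, not_and_or, not_lt, not_le] at hx
  exact bet_zero (hx.imp id fun h => h.le)

/-- the smooth step -/
noncomputable def stp (x : ℝ) : ℝ := ∫ v in (0 : ℝ)..x, bet v

theorem stp_deriv (x : ℝ) : HasDerivAt stp (bet x) x :=
  intervalIntegral.integral_hasDerivAt_right (bet_cont.intervalIntegrable _ _)
    (bet_cont.stronglyMeasurableAtFilter _ _) bet_cont.continuousAt

theorem stp_contDiff : ContDiff ℝ ∞ stp := by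
  rw [contDiff_infty_iff_deriv]
  refine ⟨fun x => (stp_deriv x).differentiableAt, ?_⟩
  have : deriv stp = bet := by
    funext x
    exact (stp_deriv x).deriv
  rw [this]
  exact bet_contDiff

theorem stp_zero {x : ℝ} (hx : x ≤ 0) : stp x = 0 := by
  unfold stp
  rw [intervalIntegral.integral_symm, neg_eq_zero]
  have : ∀ v ∈ Set.uIcc x 0, bet v = (fun _ => (0 : ℝ)) v := by
    intro v hv
    rw [Set.uIcc_of_le hx] at hv
    exact bet_zero (Or.inl hv.2)
  rw [intervalIntegral.integral_congr this]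
  simp

theorem stp_one {x : ℝ} (hx : 1 ≤ x) : stp x = 1 := by
  unfold stp
  rw [← intervalIntegral.integral_add_adjacent_intervals (b := 1)
    (bet_cont.intervalIntegrable _ _) (bet_cont.intervalIntegrable _ _), bet_int]
  have : ∀ v ∈ Set.uIcc 1 x, bet v = (fun _ => (0 : ℝ)) v := by
    intro v hv
    rw [Set.uIcc_of_le hx] at hv
    exact bet_zero (Or.inr hv.1)
  rw [intervalIntegral.integral_congr this]
  simp

/-- the cut-off in the variable `w = x² + y²` -/
noncomputable def sig (W w : ℝ) : ℝ := stp (w - 2) - stp (w / W - 1)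

/-- its derivative -/
noncomputable def sigd (W w : ℝ) : ℝ := bet (w - 2) - W⁻¹ * bet (w / W - 1)

theorem sig_deriv (W w : ℝ) : HasDerivAt (sig W) (sigd W w) w := by
  have h1 : HasDerivAt (fun w : ℝ => stp (w - 2)) (bet (w - 2)) w := by
    have : HasDerivAt (fun w : ℝ => stp (w - 2)) (bet (w - 2) * 1) w :=
      HasDerivAt.comp (h₂ := stp) (h := fun w : ℝ => w - 2) w (stp_deriv (w - 2))
        ((hasDerivAt_id w).sub_const 2)
    rwa [mul_one] at this
  have h2 : HasDerivAt (fun w : ℝ => stp (w / W - 1)) (W⁻¹ * bet (w / W - 1)) w := by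
    have : HasDerivAt (fun w : ℝ => stp (w / W - 1)) (bet (w / W - 1) * (1 / W)) w :=
      HasDerivAt.comp (h₂ := stp) (h := fun w : ℝ => w / W - 1) w (stp_deriv (w / W - 1))
        (((hasDerivAt_id w).div_const W).sub_const 1)
    rw [mul_comm]
    rwa [one_div] at this
  exact h1.sub h2

theorem sig_contDiff (W : ℝ) : ContDiff ℝ ∞ (sig W) := by
  unfold sig
  have h1 : ContDiff ℝ ∞ fun w : ℝ => stp (w - 2) := stp_contDiff.comp (by fun_prop)
  have h2 : ContDiff ℝ ∞ fun w : ℝ => stp (w / W - 1) := stp_contDiff.comp (by fun_prop)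
  exact h1.sub h2

theorem sig_low {W w : ℝ} (hW : 3 ≤ W) (hw : w ≤ 2) : sig W w = 0 := by
  unfold sig
  rw [stp_zero (by linarith), stp_zero, sub_zero]
  rw [sub_nonpos, div_le_one (by linarith)]
  linarith

theorem sig_high {W w : ℝ} (hW : 3 ≤ W) (hw : 2 * W ≤ w) : sig W w = 0 := by
  unfold sig
  rw [stp_one (by linarith), stp_one, sub_self]
  rw [le_sub_iff_add_le, le_div_iff₀ (by linarith)]
  linarith

theorem sig_mid {W w : ℝ} (hW : 3 ≤ W) (h1 : 3 ≤ w) (h2 : w ≤ W) : sig W w = 1 := by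
  unfold sig
  rw [stp_one (by linarith), stp_zero, sub_zero]
  rw [sub_nonpos, div_le_one (by linarith)]
  exact h2

/-- minus the derivative of `Psi` -/
noncomputable def qq (W w : ℝ) : ℝ := sig W w / w

theorem mul_qq {W : ℝ} (hW : 3 ≤ W) (w : ℝ) : w * qq W w = sig W w := by
  unfold qq
  by_cases h : w = 0
  · rw [h, sig_low hW (by norm_num)]
    simp
  · field_simp

theorem qq_low {W w : ℝ} (hW : 3 ≤ W) (hw : w ≤ 2) : qq W w = 0 := by
  unfold qq
  rw [sig_low hW hw, zero_div]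

theorem qq_high {W w : ℝ} (hW : 3 ≤ W) (hw : 2 * W ≤ w) : qq W w = 0 := by
  unfold qq
  rw [sig_high hW hw, zero_div]

theorem qq_contDiff {W : ℝ} (hW : 3 ≤ W) : ContDiff ℝ ∞ (qq W) := by
  rw [contDiff_iff_contDiffAt]
  intro w
  by_cases h : w = 0
  · have h1 : qq W =ᶠ[𝓝 w] fun _ => 0 := by
      rw [h]
      filter_upwards [Iio_mem_nhds (show (0 : ℝ) < 2 by norm_num)] with v hv
      exact qq_low hW hv.le
    exact contDiffAt_const.congr_of_eventuallyEq h1
  · exact (sig_contDiff W).contDiffAt.div contDiffAt_id h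

theorem qq_cont {W : ℝ} (hW : 3 ≤ W) : Continuous (qq W) := (qq_contDiff hW).continuous

theorem qq_hasDeriv {W : ℝ} (hW : 3 ≤ W) (w : ℝ) : HasDerivAt (qq W) (deriv (qq W) w) w :=
  ((qq_contDiff hW).differentiable (by simp) w).hasDerivAt

theorem qq_ode {W : ℝ} (hW : 3 ≤ W) (w : ℝ) : qq W w + w * deriv (qq W) w = sigd W w := by
  have h1 : HasDerivAt (fun v => v * qq W v) (1 * qq W w + w * deriv (qq W) w) w :=
    (hasDerivAt_id w).mul (qq_hasDeriv hW w)
  have h2 : (fun v => v * qq W v) = sig W := by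
    funext v
    exact mul_qq hW v
  rw [h2] at h1
  have := h1.unique (sig_deriv W w)
  linarith

/-- the radial profile -/
noncomputable def Psi (W w : ℝ) : ℝ := -∫ v in (2 * W)..w, qq W v

theorem Psi_deriv {W : ℝ} (hW : 3 ≤ W) (w : ℝ) : HasDerivAt (Psi W) (-qq W w) w :=
  (intervalIntegral.integral_hasDerivAt_right ((qq_cont hW).intervalIntegrable _ _)
    ((qq_cont hW).stronglyMeasurableAtFilter _ _) (qq_cont hW).continuousAt).neg

theorem Psi_contDiff {W : ℝ} (hW : 3 ≤ W) : ContDiff ℝ ∞ (Psi W) := by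
  rw [contDiff_infty_iff_deriv]
  refine ⟨fun x => (Psi_deriv hW x).differentiableAt, ?_⟩
  have : deriv (Psi W) = fun w => -qq W w := by
    funext x
    exact (Psi_deriv hW x).deriv
  rw [this]
  exact (qq_contDiff hW).neg

theorem Psi_high {W w : ℝ} (hW : 3 ≤ W) (hw : 2 * W ≤ w) : Psi W w = 0 := by
  unfold Psi
  have : ∀ v ∈ Set.uIcc (2 * W) w, qq W v = (fun _ => (0 : ℝ)) v := by
    intro v hv
    rw [Set.uIcc_of_le hw] at hv
    exact qq_high hW hv.1
  rw [intervalIntegral.integral_congr this]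
  simp

/-- the test function -/
noncomputable def phi (W x y : ℝ) : ℝ := Psi W (x ^ 2 + y ^ 2)

theorem phi_contDiff {W : ℝ} (hW : 3 ≤ W) : ContDiff ℝ ∞ fun p : ℝ × ℝ => phi W p.1 p.2 :=
  (Psi_contDiff hW).comp (by fun_prop)

theorem phi_high {W x y : ℝ} (hW : 3 ≤ W) (h : 2 * W ≤ x ^ 2 + y ^ 2) : phi W x y = 0 :=
  Psi_high hW h

theorem phi_symm (W x y : ℝ) : phi W x y = phi W y x := by
  unfold phi
  rw [add_comm]

/-- first derivative in the first variable -/
noncomputable def phx (W x y : ℝ) : ℝ := -qq W (x ^ 2 + y ^ 2) * (2 * x)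

/-- second derivative in the first variable -/
noncomputable def phxx (W x y : ℝ) : ℝ :=
  -2 * qq W (x ^ 2 + y ^ 2) - 4 * x ^ 2 * deriv (qq W) (x ^ 2 + y ^ 2)

/-- third derivative in the first variable -/
noncomputable def phxxx (W x y : ℝ) : ℝ :=
  -12 * x * deriv (qq W) (x ^ 2 + y ^ 2) - 8 * x ^ 3 * deriv (deriv (qq W)) (x ^ 2 + y ^ 2)

theorem sq_line (x y : ℝ) : HasDerivAt (fun s : ℝ => s ^ 2 + y ^ 2) (2 * x) x := by
  have := (hasDerivAt_pow 2 x).add_const (y ^ 2)
  simpa using this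

theorem phi_hasDeriv {W : ℝ} (hW : 3 ≤ W) (x y : ℝ) :
    HasDerivAt (fun s => phi W s y) (phx W x y) x :=
  (Psi_deriv hW _).comp x (sq_line x y)

theorem phx_hasDeriv {W : ℝ} (hW : 3 ≤ W) (x y : ℝ) :
    HasDerivAt (fun s => phx W s y) (phxx W x y) x := by
  have h1 : HasDerivAt (fun s => qq W (s ^ 2 + y ^ 2))
      (deriv (qq W) (x ^ 2 + y ^ 2) * (2 * x)) x := (qq_hasDeriv hW _).comp x (sq_line x y)
  have h2 := h1.neg.mul ((hasDerivAt_id x).const_mul 2)
  refine h2.congr_deriv ?_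
  unfold phxx
  simp only [Pi.neg_apply, id]
  ring

theorem dq_contDiff {W : ℝ} (hW : 3 ≤ W) : ContDiff ℝ ∞ (deriv (qq W)) :=
  (contDiff_infty_iff_deriv.1 (qq_contDiff hW)).2

theorem phxx_hasDeriv {W : ℝ} (hW : 3 ≤ W) (x y : ℝ) :
    HasDerivAt (fun s => phxx W s y) (phxxx W x y) x := by
  have h1 : HasDerivAt (fun s => qq W (s ^ 2 + y ^ 2))
      (deriv (qq W) (x ^ 2 + y ^ 2) * (2 * x)) x := (qq_hasDeriv hW _).comp x (sq_line x y)
  have h3 : HasDerivAt (deriv (qq W)) (deriv (deriv (qq W)) (x ^ 2 + y ^ 2)) (x ^ 2 + y ^ 2) :=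
    ((dq_contDiff hW).differentiable (by simp) _).hasDerivAt
  have h2 : HasDerivAt (fun s => deriv (qq W) (s ^ 2 + y ^ 2))
      (deriv (deriv (qq W)) (x ^ 2 + y ^ 2) * (2 * x)) x :=
    HasDerivAt.comp (h₂ := deriv (qq W)) x h3 (sq_line x y)
  have h4 : HasDerivAt (fun s : ℝ => 4 * s ^ 2) (4 * (2 * x)) x := by
    have := (hasDerivAt_pow 2 x).const_mul 4
    simpa using this
  have h5 := (h1.const_mul (-2)).sub (h4.mul h2)
  refine h5.congr_deriv ?_
  unfold phxxx
  ring

theorem lap_phi {W : ℝ} (hW : 3 ≤ W) (x y : ℝ) :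
    phxx W x y + phxx W y x = -4 * sigd W (x ^ 2 + y ^ 2) := by
  unfold phxx
  rw [← qq_ode hW, add_comm (y ^ 2) (x ^ 2)]
  ring

theorem dq_high {W w : ℝ} (hW : 3 ≤ W) (hw : 2 * W < w) : deriv (qq W) w = 0 := by
  have h1 : qq W =ᶠ[𝓝 w] fun _ => 0 := by
    filter_upwards [Ioi_mem_nhds hw] with v hv
    exact qq_high hW (le_of_lt hv)
  rw [h1.deriv_eq]
  simp

theorem ddq_high {W w : ℝ} (hW : 3 ≤ W) (hw : 2 * W < w) : deriv (deriv (qq W)) w = 0 := by
  have h1 : deriv (qq W) =ᶠ[𝓝 w] fun _ => 0 := by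
    filter_upwards [Ioi_mem_nhds hw] with v hv
    exact dq_high hW hv
  rw [h1.deriv_eq]
  simp

/-- the third derivatives are bounded -/
theorem phxxx_bdd {W : ℝ} (hW : 3 ≤ W) : ∃ L : ℝ, 0 ≤ L ∧ ∀ x y, |phxxx W x y| ≤ L := by
  have hc : Continuous fun p : ℝ × ℝ => phxxx W p.1 p.2 := by
    unfold phxxx
    have h1 : Continuous (deriv (qq W)) := (dq_contDiff hW).continuous
    have h2 : Continuous (deriv (deriv (qq W))) :=
      (contDiff_infty_iff_deriv.1 (dq_contDiff hW)).2.continuous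
    fun_prop
  have hs : HasCompactSupport fun p : ℝ × ℝ => phxxx W p.1 p.2 := by
    refine HasCompactSupport.intro (K := Set.Icc (-(2 * W)) (2 * W) ×ˢ Set.Icc (-(2 * W)) (2 * W))
      (isCompact_Icc.prod isCompact_Icc) fun p hp => ?_
    have h1 : 2 * W < p.1 ^ 2 + p.2 ^ 2 := by
      by_contra h2
      push Not at h2
      refine hp ⟨?_, ?_⟩
      · rw [Set.mem_Icc, ← abs_le]
        refine abs_le_of_sq_le_sq' ?_ (by linarith) |> abs_le.2
        nlinarith [sq_nonneg p.2]
      · rw [Set.mem_Icc, ← abs_le]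
        refine abs_le_of_sq_le_sq' ?_ (by linarith) |> abs_le.2
        nlinarith [sq_nonneg p.1]
    show phxxx W p.1 p.2 = 0
    unfold phxxx
    rw [dq_high hW h1, ddq_high hW h1]
    ring
  obtain ⟨L, hL⟩ := hc.bounded_above_of_compact_support hs
  exact ⟨L, (norm_nonneg _).trans (hL (0, 0)), fun x y => hL (x, y)⟩

/-- second differences -/
theorem second_diff {f f1 f2 : ℝ → ℝ} {L : ℝ} (h1 : ∀ x, HasDerivAt f (f1 x) x)
    (h2 : ∀ x, HasDerivAt f1 (f2 x) x) (h3 : ∀ x y, |f2 x - f2 y| ≤ L * |x - y|) (a : ℝ) {h : ℝ}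
    (hh : 0 ≤ h) : |f (a + h) + f (a - h) - 2 * f a - h ^ 2 * f2 a| ≤ L * h ^ 3 := by
  -- one sided estimate
  have key : ∀ (f f1 f2 : ℝ → ℝ), (∀ x, HasDerivAt f (f1 x) x) → (∀ x, HasDerivAt f1 (f2 x) x) →
      (∀ x y, |f2 x - f2 y| ≤ L * |x - y|) →
      f (a + h) + f (a - h) - 2 * f a - h ^ 2 * f2 a ≤ L * h ^ 3 := by
    intro f f1 f2 h1 h2 h3
    set g : ℝ → ℝ := fun s => f (a + s) + f (a - s) - 2 * f a - s ^ 2 * f2 a - L * s ^ 3 with hg
    have hgd : ∀ s, HasDerivAt g (f1 (a + s) - f1 (a - s) - 2 * s * f2 a - 3 * L * s ^ 2) s := by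
      intro s
      have e1 : HasDerivAt (fun s => f (a + s)) (f1 (a + s)) s := by
        have : HasDerivAt (fun s => f (a + s)) (f1 (a + s) * 1) s :=
          (h1 (a + s)).comp s ((hasDerivAt_id s).const_add a)
        rwa [mul_one] at this
      have e2 : HasDerivAt (fun s => f (a - s)) (-f1 (a - s)) s := by
        have : HasDerivAt (fun s => f (a - s)) (f1 (a - s) * -1) s :=
          (h1 (a - s)).comp s ((hasDerivAt_id s).const_sub a)
        rwa [mul_neg_one] at this
      have e3 : HasDerivAt (fun s : ℝ => s ^ 2 * f2 a) (2 * s * f2 a) s := by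
        have := (hasDerivAt_pow 2 s).mul_const (f2 a)
        simpa using this
      have e4 : HasDerivAt (fun s : ℝ => L * s ^ 3) (L * (3 * s ^ 2)) s := by
        have := (hasDerivAt_pow 3 s).const_mul L
        simpa using this
      have e5 := (((e1.add e2).sub_const (2 * f a)).sub e3).sub e4
      refine e5.congr_deriv ?_
      ring
    have hneg : ∀ s, 0 ≤ s → f1 (a + s) - f1 (a - s) - 2 * s * f2 a - 3 * L * s ^ 2 ≤ 0 := by
      intro s hs
      rcases hs.eq_or_lt with rfl | hs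
      · simp
      obtain ⟨ξ, hξ, hξ2⟩ := exists_hasDerivAt_eq_slope f1 f2 (show a - s < a + s by linarith)
        (fun x _ => (h2 x).continuousAt.continuousWithinAt) (fun x _ => h2 x)
      have h4 : f1 (a + s) - f1 (a - s) = 2 * s * f2 ξ := by
        rw [hξ2, show a + s - (a - s) = 2 * s by ring]
        field_simp
      have hL : 0 ≤ L := by
        have h8 := h3 (a + 1) a
        have h9 := abs_nonneg (f2 (a + 1) - f2 a)
        simp at h8
        linarith
      have h5 : f2 ξ - f2 a ≤ L * s := by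
        have h6 := h3 ξ a
        have h7 : |ξ - a| ≤ s := by
          rw [abs_le]
          constructor <;> linarith [hξ.1, hξ.2]
        calc f2 ξ - f2 a ≤ |f2 ξ - f2 a| := le_abs_self _
          _ ≤ L * |ξ - a| := h6
          _ ≤ L * s := mul_le_mul_of_nonneg_left h7 hL
      rw [h4]
      have h10 : 2 * s * (f2 ξ - f2 a) ≤ 2 * s * (L * s) :=
        mul_le_mul_of_nonneg_left h5 (by positivity)
      have h11 : 0 ≤ L * s ^ 2 := by positivity
      nlinarith
    have hanti : AntitoneOn g (Set.Ici 0) := by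
      refine antitoneOn_of_deriv_nonpos (convex_Ici 0)
        (fun s _ => (hgd s).continuousAt.continuousWithinAt)
        (fun s _ => (hgd s).differentiableAt.differentiableWithinAt) fun s hs => ?_
      rw [interior_Ici] at hs
      rw [(hgd s).deriv]
      exact hneg s (le_of_lt hs)
    have h6 := hanti (Set.mem_Ici.2 le_rfl) (Set.mem_Ici.2 hh) hh
    simp only [hg, add_zero, sub_zero] at h6
    nlinarith
  rw [abs_le]
  constructor
  · have h4 := key (fun x => -f x) (fun x => -f1 x) (fun x => -f2 x) (fun x => (h1 x).neg)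
      (fun x => (h2 x).neg) (fun x y => by
        have := h3 x y
        rwa [show -f2 x - -f2 y = -(f2 x - f2 y) by ring, abs_neg])
    linarith
  · exact key f f1 f2 h1 h2 h3

/-- consistency of the five point Laplacian -/
theorem lap_consist {W : ℝ} (hW : 3 ≤ W) : ∃ L : ℝ, 0 ≤ L ∧ ∀ x y h : ℝ, 0 ≤ h →
    |4 * phi W x y - phi W (x + h) y - phi W (x - h) y - phi W x (y + h) - phi W x (y - h) -
      h ^ 2 * (4 * sigd W (x ^ 2 + y ^ 2))| ≤ L * h ^ 3 := by
  obtain ⟨L, hL0, hL⟩ := phxxx_bdd hW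
  refine ⟨2 * L, by positivity, fun x y h hh => ?_⟩
  have hlip : ∀ y a b, |phxx W a y - phxx W b y| ≤ L * |a - b| := by
    intro y a b
    have := Convex.norm_image_sub_le_of_norm_hasDerivWithin_le (s := Set.univ)
      (f := fun s => phxx W s y) (f' := fun s => phxxx W s y)
      (fun s _ => (phxx_hasDeriv hW s y).hasDerivWithinAt) (fun s _ => hL s y)
      convex_univ (Set.mem_univ b) (Set.mem_univ a)
    simpa using this
  have h1 := second_diff (fun s => phi_hasDeriv hW s y) (fun s => phx_hasDeriv hW s y)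
    (hlip y) x hh
  have h2 := second_diff (fun s => phi_hasDeriv hW s x) (fun s => phx_hasDeriv hW s x)
    (hlip x) y hh
  rw [phi_symm W (y + h) x, phi_symm W (y - h) x, phi_symm W y x] at h2
  have h3 := lap_phi hW x y
  rw [abs_le] at h1 h2 ⊢
  constructor <;> nlinarith [h1.1, h1.2, h2.1, h2.2]

end Vale.Agent.P159.T1.H568
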