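import Vale.Agent.P159.T1.H568.Cheb

/-!
# Ring flows

A finite graph which contains a chart of the square of radius `N` of `ℤ²`.  A charge which is
carried by the square rings of radius `r`, `n < r ≤ 2 n`, with mass `≤ κ` on each ring, can be
routed along the rings to every set which meets all of these rings, with edge flow `≤ 4 κ`.
-/

set_option autoImplicit false

open Finset

namespace Vale.Agent.P159.T1.H568

open Vale.Agent.P159.T1.H254

/-- the sup norm -/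
def nrm (z : ℤ × ℤ) : ℕ := max z.1.natAbs z.2.natAbs

/-- the box of radius `N` -/
noncomputable def bx (N : ℕ) : Finset (ℤ × ℤ) := Finset.Icc (-(N : ℤ)) N ×ˢ Finset.Icc (-(N : ℤ)) N

theorem mem_bx {N : ℕ} {z : ℤ × ℤ} : z ∈ bx N ↔ nrm z ≤ N := by
  unfold bx nrm
  rw [Finset.mem_product, Finset.mem_Icc, Finset.mem_Icc]
  omega

theorem card_bx (N : ℕ) : (bx N).card = (2 * N + 1) ^ 2 := by
  unfold bx
  rw [Finset.card_product, Int.card_Icc]
  have : ((N : ℤ) + 1 - -(N : ℤ)).toNat = 2 * N + 1 := by omega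
  rw [this, sq]

section

variable {V E : Type} [Fintype V] [DecidableEq V] [Fintype E] [DecidableEq E]

/-- a chart of the square of radius `N` -/
structure Chart (s t : E → V) (N : ℕ) where
  /-- the sites -/
  io : ℤ × ℤ → V
  /-- the horizontal edges -/
  eh : ℤ × ℤ → E
  /-- the vertical edges -/
  ev : ℤ × ℤ → E
  /-- the radius -/
  rad : V → ℕ
  heh : ∀ z : ℤ × ℤ, nrm z ≤ N → nrm (z.1 + 1, z.2) ≤ N →
    (s (eh z) = io z ∧ t (eh z) = io (z.1 + 1, z.2)) ∨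
      (s (eh z) = io (z.1 + 1, z.2) ∧ t (eh z) = io z)
  hev : ∀ z : ℤ × ℤ, nrm z ≤ N → nrm (z.1, z.2 + 1) ≤ N →
    (s (ev z) = io z ∧ t (ev z) = io (z.1, z.2 + 1)) ∨
      (s (ev z) = io (z.1, z.2 + 1) ∧ t (ev z) = io z)
  heh_inj : ∀ z w : ℤ × ℤ, nrm z ≤ N → nrm w ≤ N → eh z = eh w → z = w
  hev_inj : ∀ z w : ℤ × ℤ, nrm z ≤ N → nrm w ≤ N → ev z = ev w → z = w
  hne : ∀ z w : ℤ × ℤ, nrm z ≤ N → nrm w ≤ N → eh z ≠ ev w
  rad_io : ∀ z : ℤ × ℤ, nrm z ≤ N → rad (io z) = nrm z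
  rad_lip : ∀ e, rad (s e) ≤ rad (t e) + 1 ∧ rad (t e) ≤ rad (s e) + 1
  rad_surj : ∀ v, rad v ≤ N → ∃ z, nrm z ≤ N ∧ io z = v

/-! ### flows along paths -/

/-- a unit flow from `a` to `b`, bounded by `k`, on the edges of `F` -/
def Rt (s t : E → V) (F : Finset E) (k : ℝ) (a b : V) : Prop :=
  ∃ θ : E → ℝ, (∀ e, |θ e| ≤ k) ∧ (∀ e, e ∉ F → θ e = 0) ∧
    ∀ x : V → ℝ, ∑ e, θ e * (x (t e) - x (s e)) = x b - x a

theorem Rt.symm {s t : E → V} {F : Finset E} {k : ℝ} {a b : V} (h : Rt s t F k a b) :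
    Rt s t F k b a := by
  obtain ⟨θ, h1, h2, h3⟩ := h
  refine ⟨fun e => -θ e, fun e => by rw [abs_neg]; exact h1 e, fun e he => by simp [h2 e he],
    fun x => ?_⟩
  have := h3 x
  simp only [neg_mul, Finset.sum_neg_distrib]
  linarith

theorem Rt.trans {s t : E → V} {F : Finset E} {k k' : ℝ} {a b c : V} (h : Rt s t F k a b)
    (h' : Rt s t F k' b c) : Rt s t F (k + k') a c := by
  obtain ⟨θ, h1, h2, h3⟩ := h
  obtain ⟨θ', h1', h2', h3'⟩ := h'
  refine ⟨fun e => θ e + θ' e, fun e => (abs_add_le _ _).trans (add_le_add (h1 e) (h1' e)),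
    fun e he => by simp [h2 e he, h2' e he], fun x => ?_⟩
  simp only [add_mul, Finset.sum_add_distrib]
  rw [h3 x, h3' x]
  ring

theorem Rt.mono {s t : E → V} {F : Finset E} {k k' : ℝ} {a b : V} (h : Rt s t F k a b)
    (hk : k ≤ k') : Rt s t F k' a b := by
  obtain ⟨θ, h1, h2, h3⟩ := h
  exact ⟨θ, fun e => (h1 e).trans hk, h2, h3⟩

/-- the flow along a path -/
theorem Rt.path {s t : E → V} {F : Finset E} (c : ℕ → V) (ε : ℕ → E) (L : ℕ)
    (hc : ∀ k < L, (s (ε k) = c k ∧ t (ε k) = c (k + 1)) ∨ (s (ε k) = c (k + 1) ∧ t (ε k) = c k))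
    (hinj : ∀ k < L, ∀ l < L, ε k = ε l → k = l) (hF : ∀ k < L, ε k ∈ F) :
    Rt s t F 1 (c 0) (c L) := by
  classical
  have h1 : ∀ k, ∃ σ : ℝ, |σ| ≤ 1 ∧ (k < L → ∀ x : V → ℝ, σ * (x (t (ε k)) - x (s (ε k))) =
      x (c (k + 1)) - x (c k)) := by
    intro k
    by_cases hk : k < L
    · rcases hc k hk with ⟨h2, h3⟩ | ⟨h2, h3⟩
      · exact ⟨1, by simp, fun _ x => by rw [h2, h3]; ring⟩
      · exact ⟨-1, by simp, fun _ x => by rw [h2, h3]; ring⟩
    · exact ⟨0, by simp, fun h => absurd h hk⟩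
  choose σ hσ1 hσ2 using h1
  refine ⟨fun e => ∑ k ∈ Finset.range L, if ε k = e then σ k else 0, fun e => ?_, fun e he => ?_,
    fun x => ?_⟩
  · show |∑ k ∈ Finset.range L, if ε k = e then σ k else 0| ≤ 1
    by_cases h2 : ∃ k < L, ε k = e
    · obtain ⟨k, hk, hke⟩ := h2
      rw [Finset.sum_eq_single k]
      · rw [if_pos hke]
        exact hσ1 k
      · intro l hl hlk
        rw [if_neg]
        intro h3
        exact hlk (hinj l (Finset.mem_range.1 hl) k hk (h3.trans hke.symm))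
      · intro h3
        exact absurd (Finset.mem_range.2 hk) h3
    · push Not at h2
      rw [Finset.sum_eq_zero fun k hk => if_neg (h2 k (Finset.mem_range.1 hk))]
      simp
  · refine Finset.sum_eq_zero fun k hk => if_neg fun h2 => he ?_
    rw [← h2]
    exact hF k (Finset.mem_range.1 hk)
  · simp only [Finset.sum_mul]
    rw [Finset.sum_comm]
    have h3 : ∀ k ∈ Finset.range L, (∑ e, (if ε k = e then σ k else 0) * (x (t e) - x (s e))) =
        x (c (k + 1)) - x (c k) := by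
      intro k hk
      rw [← hσ2 k (Finset.mem_range.1 hk) x, Finset.sum_eq_single (ε k)]
      · rw [if_pos rfl]
      · intro e _ he
        rw [if_neg (Ne.symm he), zero_mul]
      · intro h4
        exact absurd (Finset.mem_univ _) h4
    rw [Finset.sum_congr rfl h3, Finset.sum_range_sub (fun k => x (c k))]

/-! ### rings -/

variable {s t : E → V} {N : ℕ}

open Classical in
/-- the edges of the ring of radius `r` -/
noncomputable def Chart.er (φ : Chart s t N) (r : ℕ) : Finset E :=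
  ((bx r).filter fun z => nrm z = r ∧ nrm (z.1 + 1, z.2) = r).image φ.eh ∪
    ((bx r).filter fun z => nrm z = r ∧ nrm (z.1, z.2 + 1) = r).image φ.ev

theorem Chart.eh_mem (φ : Chart s t N) {r : ℕ} {z : ℤ × ℤ} (h1 : nrm z = r)
    (h2 : nrm (z.1 + 1, z.2) = r) : φ.eh z ∈ φ.er r := by
  classical
  unfold Chart.er
  refine Finset.mem_union_left _ (Finset.mem_image.2 ⟨z, Finset.mem_filter.2 ⟨?_, h1, h2⟩, rfl⟩)
  exact mem_bx.2 h1.le

theorem Chart.ev_mem (φ : Chart s t N) {r : ℕ} {z : ℤ × ℤ} (h1 : nrm z = r)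
    (h2 : nrm (z.1, z.2 + 1) = r) : φ.ev z ∈ φ.er r := by
  classical
  unfold Chart.er
  refine Finset.mem_union_right _ (Finset.mem_image.2 ⟨z, Finset.mem_filter.2 ⟨?_, h1, h2⟩, rfl⟩)
  exact mem_bx.2 h1.le

theorem Chart.mem_er (φ : Chart s t N) {r : ℕ} {e : E} (he : e ∈ φ.er r) :
    (∃ z, nrm z = r ∧ φ.eh z = e) ∨ ∃ z, nrm z = r ∧ φ.ev z = e := by
  classical
  unfold Chart.er at he
  rcases Finset.mem_union.1 he with h | h
  · obtain ⟨z, hz, h1⟩ := Finset.mem_image.1 h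
    exact Or.inl ⟨z, (Finset.mem_filter.1 hz).2.1, h1⟩
  · obtain ⟨z, hz, h1⟩ := Finset.mem_image.1 h
    exact Or.inr ⟨z, (Finset.mem_filter.1 hz).2.1, h1⟩

theorem Chart.er_disj (φ : Chart s t N) {r r' : ℕ} (hr : r ≤ N) (hr' : r' ≤ N) {e : E}
    (he : e ∈ φ.er r) (he' : e ∈ φ.er r') : r = r' := by
  rcases φ.mem_er he with ⟨z, h1, h2⟩ | ⟨z, h1, h2⟩ <;>
    rcases φ.mem_er he' with ⟨w, h3, h4⟩ | ⟨w, h3, h4⟩
  · rw [← h1, ← h3, φ.heh_inj z w (h1.trans_le hr) (h3.trans_le hr') (h2.trans h4.symm)]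
  · exact absurd (h2.trans h4.symm) (φ.hne z w (h1.trans_le hr) (h3.trans_le hr'))
  · exact absurd (h4.trans h2.symm) (φ.hne w z (h3.trans_le hr') (h1.trans_le hr))
  · rw [← h1, ← h3, φ.hev_inj z w (h1.trans_le hr) (h3.trans_le hr') (h2.trans h4.symm)]

/-- horizontal segments of the ring -/
theorem Chart.rt_h (φ : Chart s t N) {r : ℕ} (hr : r ≤ N) {a b y : ℤ} (hy : y.natAbs = r)
    (ha : -(r : ℤ) ≤ a) (hab : a ≤ b) (hb : b ≤ r) :
    Rt s t (φ.er r) 1 (φ.io (a, y)) (φ.io (b, y)) := by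
  have h := Rt.path (s := s) (t := t) (F := φ.er r) (fun k => φ.io (a + k, y))
    (fun k => φ.eh (a + k, y)) (b - a).toNat ?_ ?_ ?_
  · have e1 : a + (((b - a).toNat : ℕ) : ℤ) = b := by omega
    simp only [e1, Nat.cast_zero, add_zero] at h
    exact h
  · intro k hk
    have h1 := φ.heh (a + k, y) (by unfold nrm; simp only; omega) (by unfold nrm; simp only; omega)
    simp only at h1
    push_cast
    rw [← add_assoc]
    exact h1
  · intro k hk l hl h1
    have h2 := φ.heh_inj _ _ (by unfold nrm; simp only; omega) (by unfold nrm; simp only; omega) h1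
    have h3 := congrArg Prod.fst h2
    simp only at h3
    omega
  · intro k hk
    refine φ.eh_mem ?_ ?_
    · unfold nrm; simp only; omega
    · unfold nrm; simp only; omega

/-- vertical segments of the ring -/
theorem Chart.rt_v (φ : Chart s t N) {r : ℕ} (hr : r ≤ N) {a b y : ℤ} (hy : y.natAbs = r)
    (ha : -(r : ℤ) ≤ a) (hab : a ≤ b) (hb : b ≤ r) :
    Rt s t (φ.er r) 1 (φ.io (y, a)) (φ.io (y, b)) := by
  have h := Rt.path (s := s) (t := t) (F := φ.er r) (fun k => φ.io (y, a + k))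
    (fun k => φ.ev (y, a + k)) (b - a).toNat ?_ ?_ ?_
  · have e1 : a + (((b - a).toNat : ℕ) : ℤ) = b := by omega
    simp only [e1, Nat.cast_zero, add_zero] at h
    exact h
  · intro k hk
    have h1 := φ.hev (y, a + k) (by unfold nrm; simp only; omega) (by unfold nrm; simp only; omega)
    simp only at h1
    push_cast
    rw [← add_assoc]
    exact h1
  · intro k hk l hl h1
    have h2 := φ.hev_inj _ _ (by unfold nrm; simp only; omega) (by unfold nrm; simp only; omega) h1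
    have h3 := congrArg Prod.snd h2
    simp only at h3
    omega
  · intro k hk
    refine φ.ev_mem ?_ ?_
    · unfold nrm; simp only; omega
    · unfold nrm; simp only; omega

/-- every site of the ring is joined to the upper right corner -/
theorem Chart.rt_corner (φ : Chart s t N) {r : ℕ} (hr : r ≤ N) {z : ℤ × ℤ} (hz : nrm z = r) :
    Rt s t (φ.er r) 2 (φ.io z) (φ.io (r, r)) := by
  obtain ⟨x, y⟩ := z
  unfold nrm at hz
  simp only at hz
  have hx : -(r : ℤ) ≤ x ∧ x ≤ r := by omega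
  have hy : -(r : ℤ) ≤ y ∧ y ≤ r := by omega
  have h4 : x = r ∨ y = r ∨ x = -(r : ℤ) ∨ y = -(r : ℤ) := by omega
  have e2 : (2 : ℝ) = 1 + 1 := by norm_num
  rcases h4 with rfl | rfl | rfl | rfl
  · exact (φ.rt_v hr (by simp) hy.1 hy.2 le_rfl).mono (by norm_num)
  · exact (φ.rt_h hr (by simp) hx.1 hx.2 le_rfl).mono (by norm_num)
  · rw [e2]
    exact (φ.rt_v hr (by simp) hy.1 hy.2 le_rfl).trans
      (φ.rt_h hr (by simp) le_rfl (by omega) le_rfl)
  · rw [e2]
    exact (φ.rt_h hr (by simp) hx.1 hx.2 le_rfl).trans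
      (φ.rt_v hr (by simp) le_rfl (by omega) le_rfl)

theorem Chart.rt (φ : Chart s t N) {r : ℕ} (hr : r ≤ N) {z w : ℤ × ℤ} (hz : nrm z = r)
    (hw : nrm w = r) : Rt s t (φ.er r) 4 (φ.io z) (φ.io w) := by
  have h := (φ.rt_corner hr hz).trans (φ.rt_corner hr hw).symm
  norm_num at h
  exact h

/-- a connected set which reaches the inner square meets every ring -/
theorem Chart.meets (φ : Chart s t N) {n : ℕ} (hN : 2 * n ≤ N) {C : Finset V} {om x : V}
    (hom : om ∈ C) (hom' : 2 * n ≤ φ.rad om) (hx : φ.rad x ≤ n)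
    (hp : Relation.ReflTransGen (fun a b => a ∈ C ∧ b ∈ C ∧
        ∃ e, (s e = a ∧ t e = b) ∨ (s e = b ∧ t e = a)) om x) {r : ℕ} (h1 : n < r)
    (h2 : r ≤ 2 * n) : ∃ z, nrm z = r ∧ φ.io z ∈ C := by
  have key : (∃ c ∈ C, φ.rad c = r) ∨ r < φ.rad x := by
    clear hx
    induction hp with
    | refl =>
      rcases (h2.trans hom').eq_or_lt with h3 | h3
      · exact Or.inl ⟨om, hom, h3.symm⟩
      · exact Or.inr h3
    | tail _ hbc ih =>
      rename_i b c _
      rcases ih with h3 | h3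
      · exact Or.inl h3
      · obtain ⟨_, hc, e, he⟩ := hbc
        have h4 := φ.rad_lip e
        have h5 : r ≤ φ.rad c := by
          rcases he with ⟨h6, h7⟩ | ⟨h6, h7⟩
          · rw [h6, h7] at h4
            omega
          · rw [h6, h7] at h4
            omega
        rcases h5.eq_or_lt with h6 | h6
        · exact Or.inl ⟨c, hc, h6.symm⟩
        · exact Or.inr h6
  rcases key with ⟨c, hc, h3⟩ | h3
  · obtain ⟨z, hz, hz'⟩ := φ.rad_surj c (by omega)
    refine ⟨z, ?_, by rwa [hz']⟩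
    rw [← φ.rad_io z hz, hz', h3]
  · omega

/-- the annulus -/
noncomputable def ann (n : ℕ) : Finset (ℤ × ℤ) := (bx (2 * n)).filter fun z => n < nrm z

theorem mem_ann {n : ℕ} {z : ℤ × ℤ} : z ∈ ann n ↔ n < nrm z ∧ nrm z ≤ 2 * n := by
  unfold ann
  rw [Finset.mem_filter, mem_bx]
  tauto

/-- the charge of a function on the chart -/
noncomputable def Chart.push (φ : Chart s t N) (A : Finset (ℤ × ℤ)) (G : ℤ × ℤ → ℝ) (v : V) : ℝ :=
  ∑ z ∈ A, if φ.io z = v then G z else 0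

theorem Chart.push_sum (φ : Chart s t N) (A : Finset (ℤ × ℤ)) (G : ℤ × ℤ → ℝ) (x : V → ℝ) :
    ∑ v, φ.push A G v * x v = ∑ z ∈ A, G z * x (φ.io z) := by
  unfold Chart.push
  simp only [Finset.sum_mul]
  rw [Finset.sum_comm]
  refine Finset.sum_congr rfl fun z _ => ?_
  rw [Finset.sum_eq_single (φ.io z)]
  · rw [if_pos rfl]
  · intro v _ hv
    rw [if_neg (Ne.symm hv), zero_mul]
  · intro h
    exact absurd (Finset.mem_univ _) h

theorem Chart.push_nonneg (φ : Chart s t N) {A : Finset (ℤ × ℤ)} {G : ℤ × ℤ → ℝ}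
    (hG : ∀ z ∈ A, 0 ≤ G z) (v : V) : 0 ≤ φ.push A G v := by
  refine Finset.sum_nonneg fun z hz => ?_
  split_ifs
  · exact hG z hz
  · exact le_rfl

theorem Chart.push_total (φ : Chart s t N) (A : Finset (ℤ × ℤ)) (G : ℤ × ℤ → ℝ) :
    ∑ v, φ.push A G v = ∑ z ∈ A, G z := by
  have := φ.push_sum A G (fun _ => 1)
  simpa using this

/-- the ring flow -/
theorem ring_flow (φ : Chart s t N) {n : ℕ} (hN : 2 * n ≤ N) {J : E → ℝ} (hJ0 : ∀ e, 0 ≤ J e)
    {b : ℝ} (hJh : ∀ z, nrm z ≤ N → J (φ.eh z) ≤ b) (hJv : ∀ z, nrm z ≤ N → J (φ.ev z) ≤ b)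
    {om op : V} (hom : 2 * n ≤ φ.rad om) (hop : 2 * n ≤ φ.rad op) {B : Finset V}
    (hB : ∀ x ∈ B, φ.rad x ≤ n) {G : ℤ × ℤ → ℝ} {κ : ℝ}
    (hG : ∀ r, n < r → r ≤ 2 * n → ∑ z ∈ (ann n).filter (fun z => nrm z = r), |G z| ≤ κ)
    (hκ : 0 ≤ κ) (C : Finset V) (hC1 : om ∈ C) (hC2 : op ∈ C)
    (hC3 : ∀ x ∈ C, Relation.ReflTransGen (fun a b => a ∈ C ∧ b ∈ C ∧
        ∃ e, (s e = a ∧ t e = b) ∨ (s e = b ∧ t e = a)) om x ∨
      Relation.ReflTransGen (fun a b => a ∈ C ∧ b ∈ C ∧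
        ∃ e, (s e = a ∧ t e = b) ∨ (s e = b ∧ t e = a)) op x)
    (hC4 : ∃ x ∈ C, x ∈ B) :
    ∃ η : E → ℝ, (∀ e, |η e| ≤ 4 * κ) ∧
      ∑ e, J e * η e ^ 2 ≤ 32 * (4 * n + 1) ^ 2 * b * κ ^ 2 ∧
      ∀ x : V → ℝ, (∀ u ∈ C, x u = 0) →
        ∑ e, η e * (x (t e) - x (s e)) = ∑ u, φ.push (ann n) G u * x u := by
  classical
  obtain ⟨x0, hx0, hx0B⟩ := hC4
  have hmeet : ∀ r, n < r → r ≤ 2 * n → ∃ z, nrm z = r ∧ φ.io z ∈ C := by
    intro r h1 h2
    rcases hC3 x0 hx0 with h3 | h3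
    · exact φ.meets hN hC1 hom (hB x0 hx0B) h3 h1 h2
    · exact φ.meets hN hC2 hop (hB x0 hx0B) h3 h1 h2
  -- flows from a site of `C` on the ring to `z`
  have hth : ∀ z : ℤ × ℤ, ∃ θ : E → ℝ, z ∈ ann n → (∀ e, |θ e| ≤ 4) ∧
      (∀ e, e ∉ φ.er (nrm z) → θ e = 0) ∧
      ∀ x : V → ℝ, (∀ u ∈ C, x u = 0) → ∑ e, θ e * (x (t e) - x (s e)) = x (φ.io z) := by
    intro z
    by_cases hz : z ∈ ann n
    · obtain ⟨h1, h2⟩ := mem_ann.1 hz
      obtain ⟨w, hw, hwC⟩ := hmeet (nrm z) h1 h2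
      obtain ⟨θ, h3, h4, h5⟩ := φ.rt (h2.trans hN) hw rfl (z := w) (w := z)
      refine ⟨θ, fun _ => ⟨h3, h4, fun x hx => ?_⟩⟩
      rw [h5 x, hx _ hwC, sub_zero]
    · exact ⟨0, fun h => absurd h hz⟩
  choose θ hθ using hth
  have hb : ∀ e, |∑ z ∈ ann n, G z * θ z e| ≤ 4 * κ := by
    intro e
    by_cases he : ∃ r, n < r ∧ r ≤ 2 * n ∧ e ∈ φ.er r
    · obtain ⟨r, h1, h2, h3⟩ := he
      have h4 : ∑ z ∈ ann n, G z * θ z e =
          ∑ z ∈ (ann n).filter (fun z => nrm z = r), G z * θ z e := by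
        rw [Finset.sum_filter]
        refine Finset.sum_congr rfl fun z hz => ?_
        split_ifs with h5
        · rfl
        · rw [(hθ z hz).2.1 e, mul_zero]
          intro h6
          obtain ⟨h7, h8⟩ := mem_ann.1 hz
          exact h5 (φ.er_disj (h8.trans hN) (h2.trans hN) h6 h3)
      rw [h4]
      calc |∑ z ∈ (ann n).filter (fun z => nrm z = r), G z * θ z e|
          ≤ ∑ z ∈ (ann n).filter (fun z => nrm z = r), |G z * θ z e| :=
            Finset.abs_sum_le_sum_abs _ _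
        _ ≤ ∑ z ∈ (ann n).filter (fun z => nrm z = r), 4 * |G z| := by
            refine Finset.sum_le_sum fun z hz => ?_
            rw [abs_mul, mul_comm]
            exact mul_le_mul_of_nonneg_right ((hθ z (Finset.mem_filter.1 hz).1).1 e) (abs_nonneg _)
        _ = 4 * ∑ z ∈ (ann n).filter (fun z => nrm z = r), |G z| := by rw [Finset.mul_sum]
        _ ≤ 4 * κ := mul_le_mul_of_nonneg_left (hG r h1 h2) (by norm_num)
    · push Not at he
      rw [Finset.sum_eq_zero fun z hz => ?_]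
      · simp only [abs_zero]
        positivity
      · obtain ⟨h7, h8⟩ := mem_ann.1 hz
        rw [(hθ z hz).2.1 e (he _ h7 h8), mul_zero]
  refine ⟨fun e => ∑ z ∈ ann n, G z * θ z e, hb, ?_, fun x hx => ?_⟩
  · -- energy
    set F : Finset E := (bx (2 * n)).image φ.eh ∪ (bx (2 * n)).image φ.ev with hF
    have h1 : ∀ e, e ∉ F → ∑ z ∈ ann n, G z * θ z e = 0 := by
      intro e he
      refine Finset.sum_eq_zero fun z hz => ?_
      obtain ⟨h7, h8⟩ := mem_ann.1 hz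
      rw [(hθ z hz).2.1 e, mul_zero]
      intro h6
      refine he ?_
      rcases φ.mem_er h6 with ⟨w, hw, hwe⟩ | ⟨w, hw, hwe⟩
      · exact Finset.mem_union_left _ (Finset.mem_image.2 ⟨w, mem_bx.2 (by omega), hwe⟩)
      · exact Finset.mem_union_right _ (Finset.mem_image.2 ⟨w, mem_bx.2 (by omega), hwe⟩)
    have h2 : ∑ e, J e * (∑ z ∈ ann n, G z * θ z e) ^ 2 =
        ∑ e ∈ F, J e * (∑ z ∈ ann n, G z * θ z e) ^ 2 := by
      symm
      refine Finset.sum_subset (Finset.subset_univ _) fun e _ he => ?_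
      rw [h1 e he]
      ring
    rw [h2]
    have h3 : ∀ e ∈ F, J e * (∑ z ∈ ann n, G z * θ z e) ^ 2 ≤ b * (4 * κ) ^ 2 := by
      intro e he
      have h4 : J e ≤ b := by
        rcases Finset.mem_union.1 he with h5 | h5
        · obtain ⟨z, hz, rfl⟩ := Finset.mem_image.1 h5
          exact hJh z ((mem_bx.1 hz).trans hN)
        · obtain ⟨z, hz, rfl⟩ := Finset.mem_image.1 h5
          exact hJv z ((mem_bx.1 hz).trans hN)
      have h6 : (∑ z ∈ ann n, G z * θ z e) ^ 2 ≤ (4 * κ) ^ 2 := by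
        rw [← sq_abs (∑ z ∈ ann n, G z * θ z e)]
        exact pow_le_pow_left₀ (abs_nonneg _) (hb e) 2
      exact mul_le_mul h4 h6 (sq_nonneg _) ((hJ0 e).trans h4)
    have hb0 : 0 ≤ b := (hJ0 _).trans (hJh (0, 0) (by simp [nrm]))
    have h4 : (F.card : ℝ) ≤ 2 * (4 * n + 1) ^ 2 := by
      have h5 : F.card ≤ 2 * (2 * (2 * n) + 1) ^ 2 := by
        refine (Finset.card_union_le _ _).trans ?_
        have h6 := Finset.card_image_le (s := bx (2 * n)) (f := φ.eh)
        have h7 := Finset.card_image_le (s := bx (2 * n)) (f := φ.ev)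
        rw [card_bx] at h6 h7
        omega
      calc (F.card : ℝ) ≤ ((2 * (2 * (2 * n) + 1) ^ 2 : ℕ) : ℝ) := by exact_mod_cast h5
        _ = _ := by push_cast; ring
    calc _ ≤ ∑ e ∈ F, b * (4 * κ) ^ 2 := Finset.sum_le_sum h3
      _ = F.card * (b * (4 * κ) ^ 2) := by rw [Finset.sum_const, nsmul_eq_mul]
      _ ≤ 2 * (4 * n + 1) ^ 2 * (b * (4 * κ) ^ 2) :=
        mul_le_mul_of_nonneg_right h4 (by positivity)
      _ = _ := by ring
  · rw [φ.push_sum]
    simp only [Finset.sum_mul]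
    rw [Finset.sum_comm]
    refine Finset.sum_congr rfl fun z hz => ?_
    rw [← (hθ z hz).2.2 x hx, Finset.mul_sum]
    refine Finset.sum_congr rfl fun e _ => ?_
    ring

end

end Vale.Agent.P159.T1.H568
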