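import Vale.Agent.P159.T1.H568.Ring
import Vale.Agent.P159.T1.H565.UW2i

/-!
# The flow hypothesis of the unwiring inequality for ring charges
-/

set_option autoImplicit false

open Finset

namespace Vale.Agent.P159.T1.H568

open Vale.Agent.P159.T1.H254 Vale.Agent.P159.T1.H565

section

variable {V E : Type} [Fintype V] [DecidableEq V] [Fintype E] [DecidableEq E]
variable {s t : E → V} {N : ℕ}

/-- ring charges satisfy the flow hypothesis of the block `B` -/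
theorem ring_FlowL (φ : Chart s t N) {n : ℕ} (hN : 2 * n ≤ N) {J : E → ℝ} (hJ0 : ∀ e, 0 ≤ J e)
    {b : ℝ} (hJh : ∀ z, nrm z ≤ N → J (φ.eh z) ≤ b) (hJv : ∀ z, nrm z ≤ N → J (φ.ev z) ≤ b)
    {om op : V} (hom : 2 * n ≤ φ.rad om) (hop : 2 * n ≤ φ.rad op) {B : Finset V}
    (hB : ∀ x ∈ B, φ.rad x ≤ n) {G : ℤ × ℤ → ℝ} {κ : ℝ}
    (hG : ∀ r, n < r → r ≤ 2 * n → ∑ z ∈ (ann n).filter (fun z => nrm z = r), |G z| ≤ κ)
    (hκ : 0 ≤ κ) {lam : ℝ} (hl : 0 ≤ lam) (hlk : lam * (4 * κ) ≤ 1) :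
    FlowL s t om op B (φ.push (ann n) G) J (32 * (4 * n + 1) ^ 2 * b * κ ^ 2) lam := by
  intro C h1 h2 h3 h4
  obtain ⟨η, e1, e2, e3⟩ := ring_flow φ hN hJ0 hJh hJv hom hop hB hG hκ C h1 h2 h3 h4
  refine ⟨η, fun e => ?_, e2, e3⟩
  rw [abs_mul, abs_of_nonneg hl]
  exact (mul_le_mul_of_nonneg_left (e1 e) hl).trans hlk

end

end Vale.Agent.P159.T1.H568
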