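import Vale.Agent.P159.T1.H568.UBlock
import Vale.Agent.P159.T1.H731.U

/-!
The row StmtU of the direct route: composition.
-/

namespace Vale.Agent.P159.T1.H568

/-- the block inequality in the form of helper731 -/
theorem blockFac : Vale.Agent.P159.T1.H731.BlockFac := block_fac

/-- **the upper bound, uniform in the domain, the sector and the field** -/
theorem stmtU : Vale.Agent.P159.T1.D.StmtU := Vale.Agent.P159.T1.H731.stmtU blockFac

end Vale.Agent.P159.T1.H568
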