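import Vale.Agent.P159.T1.H112.QBox

/-!
The strip (P159, plan 118, row S.SQ part 2): the straight flow from the left column to the right
column of the rows `r0 ≤ y < r1`.
-/

open MeasureTheory Filter Topology

namespace Vale.Agent.P159.T1.H568

open Vale.Agent.P159 Vale.Agent.P159.T1.D Vale.Agent.P159.T1.H112

/-- the flow: constant on the vertical bonds of the rows `r0 ≤ y < r1` -/
noncomputable def sfl (w : ℕ) (r0 r1 : ℤ) (δ : ℝ) (e : Bnd) : ℝ :=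
  if e.2 = true ∧ (0 ≤ e.1.1 ∧ e.1.1 ≤ w) ∧ r0 ≤ e.1.2 ∧ e.1.2 < r1 then -δ else 0

/-- the bonds of the flow -/
noncomputable def sfS (w : ℕ) (r0 r1 : ℤ) : Finset Bnd :=
  (Finset.Ico (0 : ℤ) ((w + 1 : ℕ) : ℤ) ×ˢ Finset.Ico r0 r1) ×ˢ {true}

lemma mem_sfS {w : ℕ} {r0 r1 : ℤ} {e : Bnd} :
    e ∈ sfS w r0 r1 ↔ e.2 = true ∧ (0 ≤ e.1.1 ∧ e.1.1 ≤ w) ∧ r0 ≤ e.1.2 ∧ e.1.2 < r1 := by
  obtain ⟨⟨x, y⟩, τ⟩ := e
  unfold sfS
  rw [Finset.mem_product, Finset.mem_product, Finset.mem_Ico, Finset.mem_Ico,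
    Finset.mem_singleton]
  push_cast
  constructor
  · rintro ⟨⟨⟨h1, h2⟩, h3, h4⟩, h5⟩
    exact ⟨h5, ⟨h1, by omega⟩, h3, h4⟩
  · rintro ⟨h5, ⟨h1, h2⟩, h3, h4⟩
    exact ⟨⟨⟨h1, by omega⟩, h3, h4⟩, h5⟩

lemma sum_sfS (w : ℕ) (r0 r1 : ℤ) (f : Bnd → ℝ) :
    ∑ e ∈ sfS w r0 r1, f e =
      ∑ y ∈ Finset.Ico r0 r1, ∑ x ∈ Finset.range (w + 1), f (((x : ℤ), y), true) := by
  unfold sfS
  rw [Finset.sum_product, Finset.sum_product, Finset.sum_comm]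
  refine Finset.sum_congr rfl fun y _ => ?_
  rw [sum_int]
  exact Finset.sum_congr rfl fun x _ => by rw [Finset.sum_singleton]

lemma sfl_in {w : ℕ} {r0 r1 : ℤ} {δ : ℝ} {e : Bnd} (h : e ∈ sfS w r0 r1) :
    sfl w r0 r1 δ e = -δ := by
  unfold sfl
  rw [if_pos (mem_sfS.1 h)]

lemma sfl_out {w : ℕ} {r0 r1 : ℤ} {δ : ℝ} {e : Bnd} (h : e ∉ sfS w r0 r1) :
    sfl w r0 r1 δ e = 0 := by
  unfold sfl
  rw [if_neg fun h' => h (mem_sfS.2 h')]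

lemma card_Ico_real {r0 r1 : ℤ} (h : r0 ≤ r1) : ((Finset.Ico r0 r1).card : ℝ) = (r1 : ℝ) - r0 := by
  rw [Int.card_Ico]
  have : (((r1 - r0).toNat : ℤ) : ℝ) = ((r1 - r0 : ℤ) : ℝ) := by
    rw [Int.toNat_of_nonneg (by omega)]
  push_cast at this
  exact this

/-- **the flux** -/
theorem sfl_flux {w : ℕ} {r0 r1 : ℤ} (h : r0 ≤ r1) (δ : ℝ) {S : Finset Bnd}
    (hS : ∀ e : Bnd, e.2 = true → 0 ≤ e.1.1 → e.1.1 ≤ (w : ℤ) → r0 ≤ e.1.2 → e.1.2 < r1 → e ∈ S)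
    (H : Z2 → ℤ) (hL : ∀ y, r0 ≤ y → y < r1 → H (-1, y) = 0)
    (hR : ∀ y, r0 ≤ y → y < r1 → H ((w : ℤ), y) = 2) :
    ∑ e ∈ S, sfl w r0 r1 δ e * ((H (lf e) - H (rt e) : ℤ) : ℝ) = 2 * δ * ((r1 : ℝ) - r0) := by
  have hsub : sfS w r0 r1 ⊆ S := fun e he => by
    obtain ⟨h1, ⟨h2, h3⟩, h4, h5⟩ := mem_sfS.1 he
    exact hS e h1 h2 h3 h4 h5
  rw [← Finset.sum_subset hsub fun e _ he => by rw [sfl_out he, zero_mul]]
  rw [Finset.sum_congr rfl fun e he => by rw [sfl_in he], sum_sfS]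
  have key : ∀ y ∈ Finset.Ico r0 r1, ∑ x ∈ Finset.range (w + 1),
      -δ * ((H (lf (((x : ℤ), y), true)) - H (rt (((x : ℤ), y), true)) : ℤ) : ℝ) = 2 * δ := by
    intro y hy
    obtain ⟨h1, h2⟩ := Finset.mem_Ico.1 hy
    have h3 := Finset.sum_range_sub (fun x : ℕ => ((H ((x : ℤ) - 1, y) : ℤ) : ℝ)) (w + 1)
    push_cast at h3
    simp only [add_sub_cancel_right, hL y h1 h2, hR y h1 h2] at h3
    push_cast at h3
    have h4 : ∀ x ∈ Finset.range (w + 1),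
        -δ * ((H (lf (((x : ℤ), y), true)) - H (rt (((x : ℤ), y), true)) : ℤ) : ℝ) =
        δ * (((H ((x : ℤ), y) : ℤ) : ℝ) - ((H ((x : ℤ) - 1, y) : ℤ) : ℝ)) := by
      intro x _
      rw [lf_true, rt_true]
      push_cast
      ring
    rw [Finset.sum_congr rfl h4, ← Finset.mul_sum, h3]
    ring
  rw [Finset.sum_congr rfl key, Finset.sum_const, nsmul_eq_mul, card_Ico_real h]
  ring

/-- **the energy** -/
theorem sfl_energy {w : ℕ} {r0 r1 : ℤ} (h : r0 ≤ r1) {δ b : ℝ} (hb : 0 ≤ b) (hδ : |δ| ≤ 1)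
    {S : Finset Bnd} {J : Bnd → ℝ} (hJb : ∀ e ∈ S, J e ≤ b) :
    ∑ e ∈ S, J e * (Real.cosh (sfl w r0 r1 δ e) - 1) ≤
      2 * b * ((w : ℝ) + 1) * δ ^ 2 * ((r1 : ℝ) - r0) := by
  classical
  have h1 : ∑ e ∈ S, J e * (Real.cosh (sfl w r0 r1 δ e) - 1) =
      ∑ e ∈ S ∩ sfS w r0 r1, J e * (Real.cosh (sfl w r0 r1 δ e) - 1) := by
    symm
    refine Finset.sum_subset Finset.inter_subset_left fun e he hne => ?_
    rw [sfl_out fun h' => hne (Finset.mem_inter.2 ⟨he, h'⟩), Real.cosh_zero, sub_self, mul_zero]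
  have h2 : ∑ e ∈ S ∩ sfS w r0 r1, J e * (Real.cosh (sfl w r0 r1 δ e) - 1) ≤
      ∑ e ∈ S ∩ sfS w r0 r1, b * (2 * δ ^ 2) := by
    refine Finset.sum_le_sum fun e he => ?_
    obtain ⟨h3, h4⟩ := Finset.mem_inter.1 he
    rw [sfl_in h4, Real.cosh_neg]
    have h5 := H950.cosh_le2 hδ
    have h6 := Real.one_le_cosh δ
    calc J e * (Real.cosh δ - 1) ≤ b * (Real.cosh δ - 1) :=
          mul_le_mul_of_nonneg_right (hJb e h3) (by linarith)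
      _ ≤ b * (2 * δ ^ 2) := mul_le_mul_of_nonneg_left h5 hb
  have h3 : ∑ e ∈ S ∩ sfS w r0 r1, b * (2 * δ ^ 2) ≤ ∑ e ∈ sfS w r0 r1, b * (2 * δ ^ 2) :=
    Finset.sum_le_sum_of_subset_of_nonneg Finset.inter_subset_right fun _ _ _ => by positivity
  rw [h1]
  refine (h2.trans h3).trans (le_of_eq ?_)
  rw [sum_sfS, Finset.sum_congr rfl fun y _ => by rw [Finset.sum_const, Finset.card_range],
    Finset.sum_const, nsmul_eq_mul, nsmul_eq_mul, card_Ico_real h]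
  push_cast
  ring

/-- the coefficient of the flow -/
noncomputable def sfd (b : ℝ) (w : ℕ) : ℝ := 1 / (1 + 2 * b * ((w : ℝ) + 1))

lemma sfd_pos {b : ℝ} (hb : 0 ≤ b) (w : ℕ) : 0 < sfd b w := by
  unfold sfd
  positivity

lemma sfd_le {b : ℝ} (hb : 0 ≤ b) (w : ℕ) : sfd b w ≤ 1 := by
  unfold sfd
  rw [div_le_one (by positivity)]
  have : 0 ≤ 2 * b * ((w : ℝ) + 1) := by positivity
  linarith

/-- **the exponent** -/
theorem sfl_exp {w : ℕ} {r0 r1 : ℤ} (h : r0 ≤ r1) {b : ℝ} (hb : 0 ≤ b)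
    {S : Finset Bnd} {J : Bnd → ℝ} (hJb : ∀ e ∈ S, J e ≤ b) :
    -(2 * sfd b w * ((r1 : ℝ) - r0)) +
      ∑ e ∈ S, J e * (Real.cosh (sfl w r0 r1 (sfd b w) e) - 1) ≤
      -(((r1 : ℝ) - r0) / (1 + 2 * b * ((w : ℝ) + 1))) := by
  have h0 := sfd_pos hb w
  have h1 := sfl_energy h hb (δ := sfd b w) (w := w)
    (by rw [abs_of_pos h0]; exact sfd_le hb w) hJb
  have h2 : 2 * b * ((w : ℝ) + 1) * sfd b w ≤ 1 := by
    unfold sfd
    rw [mul_one_div, div_le_one (by positivity)]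
    linarith
  have h3 : (0 : ℝ) ≤ (r1 : ℝ) - r0 := by
    have : ((r0 : ℤ) : ℝ) ≤ ((r1 : ℤ) : ℝ) := by exact_mod_cast h
    linarith
  have h4 : 2 * b * ((w : ℝ) + 1) * sfd b w ^ 2 * ((r1 : ℝ) - r0) ≤
      sfd b w * ((r1 : ℝ) - r0) := by
    have := mul_le_mul_of_nonneg_right h2 (mul_nonneg h0.le h3)
    nlinarith [this]
  have h5 : ((r1 : ℝ) - r0) / (1 + 2 * b * ((w : ℝ) + 1)) = sfd b w * ((r1 : ℝ) - r0) := by
    unfold sfd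
    ring
  rw [h5]
  linarith

/-- the sums over the bonds of a graph -/
lemma sfl_subtype {S : Finset Bnd} (f : Bnd → ℝ) :
    ∑ e : {e : Bnd // e ∈ S}, f e.1 = ∑ e ∈ S, f e := Finset.sum_coe_sort S f

/-- the exponent in terms of `m / w` -/
theorem sfl_rate {b : ℝ} (hb : 0 ≤ b) {w m : ℕ} (hw : 1 ≤ w) :
    -((m : ℝ) / (1 + 2 * b * ((w : ℝ) + 1))) ≤ -((1 / (1 + 4 * b)) * ((m : ℝ) / w)) := by
  have hw' : (1 : ℝ) ≤ w := by exact_mod_cast hw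
  rw [neg_le_neg_iff, div_mul_div_comm, one_mul]
  refine div_le_div_of_nonneg_left (by positivity) (by positivity) ?_
  nlinarith [mul_nonneg hb (by linarith : (0 : ℝ) ≤ (w : ℝ) - 1)]

end Vale.Agent.P159.T1.H568
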